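import Vale.Agent.P159.T1.H995.Sl
import Vale.Agent.P159.T1.D.Stmts

/-!
The planarity rows `StmtCover`, `StmtSep`, `StmtSepM` of `T1/D/Stmts.lean`.
-/

namespace Vale.Agent.P159.T1.H995

open Vale.Agent.P159.R2.H729 Set
open Vale.Agent.P159.T1

section dict

/-- the faces of the slit box -/
lemma mem_SB {R r : ℕ} {f : ℤ × ℤ} : f ∈ D.SB R r ↔ f ∈ slQ (R : ℤ) ((r : ℤ) + R) r := by
  unfold D.SB slQ
  simp only [Finset.mem_filter, Finset.mem_product, Finset.mem_Ico, mem_setOf_eq]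
  tauto

lemma not_mem_SB {R r : ℕ} {f : ℤ × ℤ} : f ∉ D.SB R r ↔ f ∈ slC (R : ℤ) ((r : ℤ) + R) r := by
  rw [mem_SB]
  unfold slQ slC
  simp only [mem_setOf_eq]
  tauto

lemma nb_of_bond {e : D.Bnd} : nb (D.rt e) (D.lf e) := by
  obtain ⟨⟨x, y⟩, b⟩ := e
  cases b
  · simp [D.rt, D.lf, nb]
  · simp [D.rt, D.lf, nb]

lemma adj_iff {U : Finset D.Z2} {X : Set D.Z2} {f g : D.Z2} :
    D.adj U X f g ↔ (f ∈ U ∧ f ∈ X) ∧ (g ∈ U ∧ g ∈ X) ∧ nb f g := by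
  unfold D.adj
  refine and_congr_right fun _ => and_congr_right fun _ => ?_
  constructor
  · rintro ⟨e, ⟨rfl, rfl⟩ | ⟨rfl, rfl⟩⟩
    · exact nb_of_bond
    · exact nb_symm nb_of_bond
  · intro h
    obtain ⟨f1, f2⟩ := f
    obtain ⟨g1, g2⟩ := g
    rcases nb_cases h with e | e | e | e <;> simp only [Prod.mk.injEq] at e <;>
      obtain ⟨rfl, rfl⟩ := e
    · exact ⟨((f1 + 1, g2), true), Or.inr ⟨by simp [D.rt], by simp [D.lf]⟩⟩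
    · exact ⟨((g1 + 1, f2), true), Or.inl ⟨by simp [D.rt], by simp [D.lf]⟩⟩
    · exact ⟨((g1, f2 + 1), false), Or.inl ⟨by simp [D.rt], by simp [D.lf]⟩⟩
    · exact ⟨((f1, g2 + 1), false), Or.inr ⟨by simp [D.rt], by simp [D.lf]⟩⟩

lemma Cn_of_Jn {R r : ℕ} {X A B : Set D.Z2} (h : D.Jn (D.SB R r) X A B) :
    Cn (adjS (slQ (R : ℤ) ((r : ℤ) + R) r)) (X ∩ slQ (R : ℤ) ((r : ℤ) + R) r) A B := by
  obtain ⟨a, ha, b, hb, ⟨haU, haX⟩, hab⟩ := h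
  have h1 : Relation.ReflTransGen (fun u v => adjS (slQ (R : ℤ) ((r : ℤ) + R) r) u v ∧
      u ∈ X ∩ slQ (R : ℤ) ((r : ℤ) + R) r ∧ v ∈ X ∩ slQ (R : ℤ) ((r : ℤ) + R) r) a b :=
    Relation.ReflTransGen.mono (p := fun u v => adjS (slQ (R : ℤ) ((r : ℤ) + R) r) u v ∧
      u ∈ X ∩ slQ (R : ℤ) ((r : ℤ) + R) r ∧ v ∈ X ∩ slQ (R : ℤ) ((r : ℤ) + R) r)
      (fun u v e => by
        obtain ⟨⟨e1, e2⟩, ⟨e3, e4⟩, e5⟩ := adj_iff.1 e
        exact ⟨⟨e5, mem_SB.1 e1, mem_SB.1 e3⟩, ⟨e2, mem_SB.1 e1⟩, e4, mem_SB.1 e3⟩) _ _ hab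
  refine ⟨a, ⟨⟨haX, mem_SB.1 haU⟩, ha⟩, b, ⟨?_, hb⟩, h1⟩
  rcases h1.cases_tail with e | ⟨c, -, e⟩
  · rw [e]; exact ⟨haX, mem_SB.1 haU⟩
  · exact e.2.2

lemma upp_slU {R r : ℕ} (hR : 1 ≤ R) {f : D.Z2} (hf : f ∈ D.SB R r) (h : f ∈ D.upp (D.SB R r)) :
    f ∈ slU (R : ℤ) ((r : ℤ) + R) r := by
  obtain ⟨e, he, h0, h1⟩ := h
  obtain ⟨x, y⟩ := f
  have hf' := mem_slQ.1 (mem_SB.1 hf)
  simp only [D.sides, Finset.mem_insert, Finset.mem_singleton] at he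
  rcases he with rfl | rfl | rfl | rfl
  · simp only [D.lf, D.rt] at h0 h1
    rcases h1 with h1 | h1
    · exact absurd hf (by simpa using h1)
    · refine ⟨mem_SB.1 hf, h0, (x, y - 1), not_mem_SB.1 (by simpa using h1), ?_⟩
      simp [nb]
  · simp only [D.lf, D.rt] at h0 h1
    rcases h1 with h1 | h1
    · have h2 : (x, y + 1) ∈ slC (R : ℤ) ((r : ℤ) + R) r := not_mem_SB.1 (by simpa using h1)
      refine ⟨mem_SB.1 hf, ?_, (x, y + 1), h2, by simp [nb]⟩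
      rw [mem_slC] at h2
      simp only
      omega
    · exact absurd hf (by simpa using h1)
  · simp only [D.lf, D.rt] at h0 h1
    rcases h1 with h1 | h1
    · refine ⟨mem_SB.1 hf, h0, (x - 1, y), not_mem_SB.1 (by simpa using h1), ?_⟩
      simp [nb]
    · exact absurd hf (by simpa using h1)
  · simp only [D.lf, D.rt] at h0 h1
    rcases h1 with h1 | h1
    · exact absurd hf (by simpa using h1)
    · refine ⟨mem_SB.1 hf, h0, (x + 1, y), not_mem_SB.1 (by simpa using h1), ?_⟩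
      simp [nb]

lemma low_slL {R r : ℕ} {f : D.Z2} (hf : f ∈ D.SB R r) (h : f ∈ D.low (D.SB R r)) :
    f ∈ slL (R : ℤ) ((r : ℤ) + R) r := by
  obtain ⟨e, he, h0, h1⟩ := h
  obtain ⟨x, y⟩ := f
  have hf' := mem_slQ.1 (mem_SB.1 hf)
  simp only [D.sides, Finset.mem_insert, Finset.mem_singleton] at he
  rcases he with rfl | rfl | rfl | rfl
  · simp only [D.lf, D.rt] at h0 h1
    rcases h1 with h1 | h1
    · exact absurd hf (by simpa using h1)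
    · refine ⟨mem_SB.1 hf, h0, (x, y - 1), not_mem_SB.1 (by simpa using h1), ?_⟩
      simp [nb]
  · simp only [D.lf, D.rt] at h0 h1
    rcases h1 with h1 | h1
    · refine ⟨mem_SB.1 hf, ?_, (x, y + 1), not_mem_SB.1 (by simpa using h1), by simp [nb]⟩
      simp only
      omega
    · exact absurd hf (by simpa using h1)
  · simp only [D.lf, D.rt] at h0 h1
    rcases h1 with h1 | h1
    · refine ⟨mem_SB.1 hf, h0, (x - 1, y), not_mem_SB.1 (by simpa using h1), ?_⟩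
      simp [nb]
    · exact absurd hf (by simpa using h1)
  · simp only [D.lf, D.rt] at h0 h1
    rcases h1 with h1 | h1
    · exact absurd hf (by simpa using h1)
    · refine ⟨mem_SB.1 hf, h0, (x + 1, y), not_mem_SB.1 (by simpa using h1), ?_⟩
      simp [nb]

lemma Cn_ends {V : Type*} {adj : V → V → Prop} {S X Y X' Y' : Set V} (h : Cn adj S X Y)
    (hX : ∀ z ∈ S, z ∈ X → z ∈ X') (hY : ∀ z ∈ S, z ∈ Y → z ∈ Y') : Cn adj S X' Y' := by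
  obtain ⟨x, hx, y, hy, hxy⟩ := h
  exact ⟨x, ⟨hx.1, hX x hx.1 hx.2⟩, y, ⟨hy.1, hY y hy.1 hy.2⟩, hxy⟩

end dict

section strips

lemma mem_strip {q a a' : ℕ} {x y : ℤ} : ((x, y) : ℤ × ℤ) ∈ D.strip q a a' ↔
    (y ≤ -2 ∧ (q : ℤ) * (-1 - y) ≤ -x) ∧ (a : ℤ) ≤ -x ∧ -x < a' := Iff.rfl

/-- the depth of the cone -/
lemma cone_depth {q : ℕ} (hq : 1 ≤ q) {x y : ℤ} (hy : y ≤ -2) (h : (q : ℤ) * (-1 - y) ≤ -x) :
    -1 - y ≤ -x ∧ (q : ℤ) ≤ -x := by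
  have h1 : (1 : ℤ) ≤ q := by exact_mod_cast hq
  constructor
  · nlinarith
  · nlinarith

lemma strip_up {q a a' : ℕ} {x y : ℤ} (h : ((x, y) : ℤ × ℤ) ∈ D.strip q a a') (hy : y < -2) :
    ((x, y + 1) : ℤ × ℤ) ∈ D.strip q a a' := by
  rw [mem_strip] at h ⊢
  have h1 : (0 : ℤ) ≤ q := by positivity
  refine ⟨⟨by omega, ?_⟩, h.2⟩
  have : (q : ℤ) * (-1 - (y + 1)) = q * (-1 - y) - q := by ring
  linarith [h.1.2]

lemma strip_lip {q a a' : ℕ} {x : ℤ} (h1 : (q : ℤ) ≤ -x) (h2 : (a : ℤ) ≤ -x) (h3 : -x < a') :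
    ((x, -2) : ℤ × ℤ) ∈ D.strip q a a' := by
  rw [mem_strip]
  exact ⟨⟨le_rfl, by linarith⟩, h2, h3⟩

lemma strip_UpSl {R r q a' : ℕ} (hr : 1 ≤ r) (hq : 1 ≤ q) (ha : a' ≤ R) :
    UpSl (R : ℤ) ((r : ℤ) + R) r (-R) 0 (D.strip q 1 a') := by
  refine ⟨?_, fun x y h hy => strip_up h hy⟩
  rintro ⟨x, y⟩ h
  rw [mem_strip] at h
  obtain ⟨h1, h2⟩ := cone_depth hq h.1.1 h.1.2
  refine ⟨mem_slQ.2 ?_, ?_, ?_⟩
  · omega
  · simp only; omega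
  · simp only; omega

end strips

/-- the first entrance of an arm into its cell -/
lemma arm_form {R r : ℕ} (hR : 1 ≤ R) {T Q N : Set D.Z2} (hQT : Q ⊆ T) (hQ : ∀ z ∈ Q, z.2 < 0)
    (h : D.Arm (D.SB R r) T Q N) :
    ∃ z, Cn (adjS (slQ (R : ℤ) ((r : ℤ) + R) r)) (N \ T) (slU (R : ℤ) ((r : ℤ) + R) r) {z} ∧
      ∃ z' ∈ N ∩ Q, adjS (slQ (R : ℤ) ((r : ℤ) + R) r) z z' := by
  have h1 := Cn_ends (X' := slU (R : ℤ) ((r : ℤ) + R) r) (Y' := Q) (Cn_of_Jn h)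
    (fun z hz hz' => upp_slU hR (mem_SB.2 hz.2) hz') (fun z _ hz' => hz')
  have hL : Disjoint (slU (R : ℤ) ((r : ℤ) + R) r) Q := by
    rw [Set.disjoint_left]
    intro z hz hz'
    have := hQ z hz'
    have := hz.2.1
    omega
  obtain ⟨z, hz, z', ⟨⟨hz1, hz2⟩, hz3⟩, hzz⟩ := first_entrance hL Subset.rfl h1
  refine ⟨z, hz.mono ?_, z', ⟨hz1.1, hz3⟩, hzz⟩
  rintro u ⟨⟨⟨hu1, hu2⟩, hu3⟩, hu4⟩
  exact ⟨hu1, fun hu5 => hu2 ⟨hu5, hu4⟩⟩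

/-- **D.SEP** -/
theorem stmtSep : D.StmtSep := by
  intro R r q n a a' a'' hR hq hn ha haa' ha'a'' ha''R hnr hnR hna N hArm hJ
  have hr : 1 ≤ r := by omega
  have hsub : D.strip q a a' ⊆ D.strip q 1 a'' := by
    rintro ⟨x, y⟩ h
    rw [mem_strip] at h ⊢
    exact ⟨h.1, by omega, by omega⟩
  obtain ⟨z, hz, z', ⟨-, hz2⟩, hzz⟩ := arm_form (by omega)
    (T := D.strip q 1 a'' ∪ D.mir r ⁻¹' D.strip q 1 a'' ∪ D.tip n ∪ D.mir r ⁻¹' D.tip n)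
    (fun u hu => Or.inl (Or.inl (Or.inl (hsub hu)))) (fun u hu => by
      have := hu.1.1
      omega) hArm
  have hz3 : (a : ℤ) ≤ -z'.1 ∧ -z'.1 < a' := hz2.2
  have hcell : {w | w ∈ D.strip q 1 a'' ∧ -(a' : ℤ) + 1 ≤ w.1 ∧ w.1 ≤ -(a : ℤ)} =
      D.strip q a a' := by
    ext ⟨x, y⟩
    simp only [mem_setOf_eq]
    rw [mem_strip, mem_strip]
    constructor
    · rintro ⟨h1, h2, h3⟩
      exact ⟨h1.1, by omega, by omega⟩
    · rintro ⟨h1, h2, h3⟩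
      exact ⟨⟨h1, by omega, by omega⟩, by omega, by omega⟩
  have key := sl_sep_x (A := (R : ℤ)) (X := (r : ℤ) + R) (r := (r : ℤ)) (b1 := -(a' : ℤ) + 1)
    (b2 := -(a : ℤ)) (by omega) (by omega) (by omega) (T := N)
    (Lay := D.strip q 1 a'' ∪ D.mir r ⁻¹' D.strip q 1 a'' ∪ D.tip n ∪ D.mir r ⁻¹' D.tip n)
    (strip_UpSl (q := q) hr hq ha''R) (fun u hu => Or.inl (Or.inl (Or.inl hu))) hz
    (hsub hz2) hzz.1 (by omega) (by omega)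
  rw [hcell] at key
  apply key
  have h1 := Cn_of_Jn hJ
  refine Cn_symm symS ((Cn_ends h1 (fun w _ hw => ?_) (fun w _ hw => ?_)).mono
    inter_subset_left)
  · obtain ⟨x, y⟩ := w
    rw [mem_strip] at hw
    refine ⟨mem_strip.2 ⟨hw.1, hw.2.1, by omega⟩, ?_⟩
    show -(a : ℤ) < x
    omega
  · obtain ⟨x, y⟩ := w
    rw [mem_strip] at hw
    refine ⟨mem_strip.2 ⟨hw.1, by omega, hw.2.2⟩, ?_⟩
    show x < -(a' : ℤ) + 1
    omega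

/-- the inner part of the left strip, with the faces near the tip -/
def exL (R r q n a : ℕ) : Set (ℤ × ℤ) :=
  {z | z ∈ slQ (R : ℤ) ((r : ℤ) + R) r ∧ -(a : ℤ) < z.1 ∧ (z ∈ D.strip q 1 a ∨ z ∈ D.tip n)}

/-- the right strip, with the faces near the tip -/
def exR (R r q n a : ℕ) : Set (ℤ × ℤ) :=
  {z | z ∈ slQ (R : ℤ) ((r : ℤ) + R) r ∧ (D.mir r z ∈ D.strip q 1 a ∨ D.mir r z ∈ D.tip n)}

lemma exL_tip {R r q n a : ℕ} (hR : 2 ≤ R) (hr : 1 ≤ r) (hq : 1 ≤ q) (hqn : q < n)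
    (haR : a ≤ R) (hnR : n ≤ R) (hnr : 2 * n ≤ r) {z : ℤ × ℤ} (hz : z ∈ D.strip q 1 a) :
    Cn (adjS (slQ (R : ℤ) ((r : ℤ) + R) r)) (exL R r q n a) {z}
      (slT (R : ℤ) ((r : ℤ) + R) r 0) := by
  obtain ⟨x, y⟩ := z
  have hU := strip_UpSl (R := R) (r := r) hr hq haR
  obtain ⟨h1, h2⟩ := up_sl hU hz
  have hz' := mem_strip.1 hz
  have h3 := mem_strip.1 h2
  have hsub : exL R r q n a ⊆ slQ (R : ℤ) ((r : ℤ) + R) r := fun _ h => h.1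
  have hstr : ∀ u ∈ D.strip q 1 a, u ∈ exL R r q n a := by
    rintro ⟨u1, u2⟩ hu
    have h4 := mem_strip.1 hu
    exact ⟨(hU.1 hu).1, by simp only; omega, Or.inl hu⟩
  have htip : ∀ u1 u2 : ℤ, -(a : ℤ) < u1 → (-(n : ℤ) ≤ u1 ∧ u1 < n ∧ -(n : ℤ) ≤ u2 ∧ u2 < n) →
      ¬ (u2 = -1 ∧ u1 < 0) → (u1, u2) ∈ exL R r q n a := by
    intro u1 u2 g0 g1 g2
    refine ⟨mem_slQ.2 (by omega), g0, Or.inr g1⟩
  refine Cn_of_chn (q := (0, -1)) hsub (chn_trans (q := (x, -2))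
    (chn_mono (fun u hu => hstr u hu.1) h1) (chn_trans (q := (0, -2)) (chn_h fun i hi => ?_)
      (chn_v fun i hi => ?_))) (hstr _ hz) ?_ ?_
  · by_cases h5 : (q : ℤ) ≤ -i
    · exact hstr _ (strip_lip h5 (by omega) (by omega))
    · exact htip _ _ (by omega) (by omega) (by omega)
  · exact htip _ _ (by omega) (by omega) (by omega)
  · exact htip _ _ (by omega) (by omega) (by omega)
  · refine ⟨mem_slQ.2 (by omega), Or.inr rfl, Or.inl rfl⟩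

lemma mem_mir {r q a : ℕ} {x y : ℤ} : D.mir r (x, y) ∈ D.strip q 1 a ↔
    (y ≤ -2 ∧ (q : ℤ) * (-1 - y) ≤ -((r : ℤ) - 1 - x)) ∧ (1 : ℕ) ≤ -((r : ℤ) - 1 - x) ∧
      -((r : ℤ) - 1 - x) < a := Iff.rfl

lemma exR_tip {R r q n a : ℕ} (hR : 2 ≤ R) (hr : 1 ≤ r) (hq : 1 ≤ q) (hqn : q < n)
    (haR : a ≤ R) (hnR : n ≤ R) (hnr : 2 * n ≤ r) {z : ℤ × ℤ} (hz : D.mir r z ∈ D.strip q 1 a) :
    Cn (adjS (slQ (R : ℤ) ((r : ℤ) + R) r)) (exR R r q n a) {z}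
      (slT (R : ℤ) ((r : ℤ) + R) r r) := by
  obtain ⟨x, y⟩ := z
  have hz' := mem_mir.1 hz
  obtain ⟨h3, h4⟩ := cone_depth hq hz'.1.1 hz'.1.2
  have hsub : exR R r q n a ⊆ slQ (R : ℤ) ((r : ℤ) + R) r := fun _ h => h.1
  have hstr : ∀ u : ℤ × ℤ, D.mir r u ∈ D.strip q 1 a → u ∈ exR R r q n a := by
    rintro ⟨u1, u2⟩ hu
    have g1 := mem_mir.1 hu
    obtain ⟨g3, g4⟩ := cone_depth hq g1.1.1 g1.1.2
    exact ⟨mem_slQ.2 (by omega), Or.inl hu⟩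
  have htip : ∀ u1 u2 : ℤ, (-(n : ℤ) ≤ (r : ℤ) - 1 - u1 ∧ (r : ℤ) - 1 - u1 < n ∧ -(n : ℤ) ≤ u2 ∧
      u2 < n) → ¬ (u2 = -1 ∧ (r : ℤ) ≤ u1) → (u1, u2) ∈ exR R r q n a := by
    intro u1 u2 g1 g2
    refine ⟨mem_slQ.2 (by omega), Or.inr g1⟩
  have hlip : D.mir r (x, -2) ∈ D.strip q 1 a := by
    rw [mem_mir]
    exact ⟨⟨le_rfl, by linarith⟩, hz'.2.1, hz'.2.2⟩
  refine Cn_of_chn (q := ((r : ℤ) - 1, -1)) hsub (chn_trans (q := (x, -2)) (chn_v fun i hi => ?_)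
    (chn_trans (q := ((r : ℤ) - 1, -2)) (chn_h fun i hi => ?_)
      (chn_v fun i hi => ?_))) (hstr _ hz) ?_ ?_
  · refine hstr _ (mem_mir.2 ⟨⟨by omega, ?_⟩, hz'.2.1, hz'.2.2⟩)
    have h5 : y ≤ i := by omega
    have h6 : (0 : ℤ) ≤ q := by positivity
    nlinarith [hz'.1.2]
  · by_cases h5 : (q : ℤ) ≤ -((r : ℤ) - 1 - i)
    · refine hstr _ (mem_mir.2 ⟨⟨le_rfl, by linarith⟩, ?_, ?_⟩)
      · push_cast; omega
      · omega
    · exact htip _ _ (by omega) (by omega)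
  · exact htip _ _ (by omega) (by omega)
  · exact htip _ _ (by omega) (by omega)
  · refine ⟨mem_slQ.2 (by omega), Or.inl rfl, Or.inl rfl⟩

/-- a chain between the strips, extended to the tips -/
lemma mid_core {R r q n a a'' : ℕ} (hR : 2 ≤ R) (hr : 1 ≤ r) (hq : 1 ≤ q) (hqn : q < n)
    (haR : a ≤ R) (haR' : a'' ≤ R) (hnR : n ≤ R) (hnr : 2 * n ≤ r) {S Pos : Set (ℤ × ℤ)}
    (hS : Cn (adjS (slQ (R : ℤ) ((r : ℤ) + R) r)) S (slU (R : ℤ) ((r : ℤ) + R) r)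
      (slL (R : ℤ) ((r : ℤ) + R) r))
    (hP : Cn (adjS (slQ (R : ℤ) ((r : ℤ) + R) r)) Pos (D.strip q 1 a)
      (D.mir r ⁻¹' D.strip q 1 a'')) :
    (S ∩ (Pos ∪ (exL R r q n a ∪ exR R r q n a''))).Nonempty := by
  apply sl_cross (A := (R : ℤ)) (X := (r : ℤ) + R) (r := (r : ℤ)) (by omega) (by omega) (by omega)
    _ _ hS
  obtain ⟨x, hx, y, hy, hxy⟩ := hP
  have f1 : Cn (adjS (slQ (R : ℤ) ((r : ℤ) + R) r)) (Pos ∪ (exL R r q n a ∪ exR R r q n a''))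
      (slT (R : ℤ) ((r : ℤ) + R) r 0) {x} :=
    Cn_symm symS ((exL_tip hR hr hq hqn haR hnR hnr hx.2).mono
      (subset_union_left.trans subset_union_right))
  have f2 : Cn (adjS (slQ (R : ℤ) ((r : ℤ) + R) r)) (Pos ∪ (exL R r q n a ∪ exR R r q n a''))
      {x} {y} :=
    Cn.mono ⟨x, ⟨hx.1, rfl⟩, y, ⟨hy.1, rfl⟩, hxy⟩ subset_union_left
  have f3 : Cn (adjS (slQ (R : ℤ) ((r : ℤ) + R) r)) (Pos ∪ (exL R r q n a ∪ exR R r q n a''))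
      {y} (slT (R : ℤ) ((r : ℤ) + R) r r) :=
    (exR_tip hR hr hq hqn haR' hnR hnr hy.2).mono (subset_union_right.trans subset_union_right)
  exact Cn_trans f1 (Cn_trans f2 f3)

/-- a cell of the left strip is joined to the lower lip -/
lemma cell_lip {R r q a a' : ℕ} (hR : 2 ≤ R) (hr : 1 ≤ r) (hq : 1 ≤ q) (ha : 1 ≤ a)
    (ha' : a' ≤ R) {z : ℤ × ℤ} (hz : z ∈ D.strip q a a') :
    Cn (adjS (slQ (R : ℤ) ((r : ℤ) + R) r)) (D.strip q a a') {z}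
      (slL (R : ℤ) ((r : ℤ) + R) r) := by
  obtain ⟨x, y⟩ := z
  have hz' := mem_strip.1 hz
  obtain ⟨h3, h4⟩ := cone_depth hq hz'.1.1 hz'.1.2
  have hsub : D.strip q a a' ⊆ slQ (R : ℤ) ((r : ℤ) + R) r := by
    rintro ⟨u1, u2⟩ hu
    have g1 := mem_strip.1 hu
    obtain ⟨g3, g4⟩ := cone_depth hq g1.1.1 g1.1.2
    exact mem_slQ.2 (by omega)
  have hlip : (x, -2) ∈ D.strip q a a' := strip_lip h4 hz'.2.1 hz'.2.2
  refine Cn_of_chn (q := (x, -2)) hsub (chn_v fun i hi => ?_) hz hlip ?_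
  · refine mem_strip.2 ⟨⟨by omega, ?_⟩, hz'.2⟩
    have h6 : (0 : ℤ) ≤ q := by positivity
    have h5 : y ≤ i := by omega
    nlinarith [hz'.1.2]
  · refine ⟨hsub hlip, by simp, (x, -1), mem_slC.2 (by omega), by simp [nb]⟩

/-- **D.SEPM** -/
theorem stmtSepM : D.StmtSepM := by
  intro R r q n a a' a'' hR hq hn ha haa' ha'a'' ha''R hnr hnR hna N hArm hJ
  have hr : 1 ≤ r := by omega
  have hsub : D.strip q a a' ⊆ D.strip q 1 a'' := by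
    rintro ⟨x, y⟩ h
    rw [mem_strip] at h ⊢
    exact ⟨h.1, by omega, by omega⟩
  obtain ⟨z, hz, z', ⟨-, hz2⟩, hzz⟩ := arm_form (by omega)
    (T := D.strip q 1 a'' ∪ D.mir r ⁻¹' D.strip q 1 a'' ∪ D.tip n ∪ D.mir r ⁻¹' D.tip n)
    (fun u hu => Or.inl (Or.inl (Or.inl (hsub hu)))) (fun u hu => by
      have := hu.1.1
      omega) hArm
  have hS : Cn (adjS (slQ (R : ℤ) ((r : ℤ) + R) r))
      ((N \ (D.strip q 1 a'' ∪ D.mir r ⁻¹' D.strip q 1 a'' ∪ D.tip n ∪ D.mir r ⁻¹' D.tip n)) ∪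
        D.strip q a a') (slU (R : ℤ) ((r : ℤ) + R) r) (slL (R : ℤ) ((r : ℤ) + R) r) :=
    Cn_comp (hz.mono subset_union_left)
      ((cell_lip hR hr hq ha (by omega) hz2).mono subset_union_right) hzz
  obtain ⟨u, hu1, hu2⟩ := mid_core (a := a) (a'' := a'') hR hr hq hn (by omega) ha''R hnR hnr hS
    (Cn_of_Jn hJ)
  obtain ⟨x, y⟩ := u
  rcases hu1 with hu1 | hu1
  · rcases hu2 with hu2 | ⟨-, -, hu2 | hu2⟩ | ⟨-, hu2 | hu2⟩
    · exact hu2.1 (Or.inl hu1.1)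
    · refine hu1.2 (Or.inl (Or.inl (Or.inl ?_)))
      have h3 := mem_strip.1 hu2
      exact mem_strip.2 ⟨h3.1, h3.2.1, by omega⟩
    · exact hu1.2 (Or.inl (Or.inr hu2))
    · exact hu1.2 (Or.inl (Or.inl (Or.inr hu2)))
    · exact hu1.2 (Or.inr hu2)
  · have h1 := mem_strip.1 hu1
    rcases hu2 with hu2 | ⟨-, hu2, -⟩ | ⟨-, hu2 | hu2⟩
    · exact hu2.1 (Or.inr hu1)
    · simp only at hu2
      omega
    · have h3 := mem_mir.1 hu2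
      omega
    · have h3 : -(n : ℤ) ≤ (r : ℤ) - 1 - x ∧ (r : ℤ) - 1 - x < n ∧ -(n : ℤ) ≤ y ∧ y < n := hu2
      omega

/-- the column block of a column -/
lemma block {a : ℕ → ℕ} {K : ℕ} {x : ℤ} (h0 : (a 0 : ℤ) ≤ x) (hK : x < a K) :
    ∃ k < K, (a k : ℤ) ≤ x ∧ x < a (k + 1) := by
  induction K with
  | zero => omega
  | succ K ih =>
    by_cases h : x < a K
    · obtain ⟨k, hk, h1⟩ := ih h
      exact ⟨k, by omega, h1⟩
    · exact ⟨K, by omega, by omega, hK⟩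

/-- **D.COVER** -/
theorem stmtCover : D.StmtCover := by
  intro R r q n K a hR hq hqn ha ha0 haK hnr hnR N hJ
  have hr : 1 ≤ r := by omega
  by_cases hF : ∃ f ∈ D.SB R r, (f ∈ D.tip n ∨ D.mir r f ∈ D.tip n) ∧ f ∈ N
  · exact Or.inr (Or.inr (Or.inl hF))
  have hF' : ∀ f ∈ D.SB R r, f ∈ N → f ∉ D.tip n ∧ D.mir r f ∉ D.tip n := by
    intro f hf hfN
    constructor
    · intro h
      exact hF ⟨f, hf, Or.inl h, hfN⟩
    · intro h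
      exact hF ⟨f, hf, Or.inr h, hfN⟩
  set Q := slQ (R : ℤ) ((r : ℤ) + R) r with hQdef
  set T := D.strip q 1 (a K) ∪ D.mir r ⁻¹' D.strip q 1 (a K) ∪ D.tip n ∪ D.mir r ⁻¹' D.tip n
    with hT
  have h1 := Cn_ends (X' := slU (R : ℤ) ((r : ℤ) + R) r) (Y' := slL (R : ℤ) ((r : ℤ) + R) r)
    (Cn_of_Jn hJ) (fun z hz hz' => upp_slU (by omega) (mem_SB.2 hz.2) hz')
    (fun z hz hz' => low_slL (mem_SB.2 hz.2) hz')
  have hcov := sl_cover (Cc := D.strip q 1 (a K) ∪ D.mir r ⁻¹' D.strip q 1 (a K))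
    (F := D.tip n ∪ D.mir r ⁻¹' D.tip n) (Neg := N ∩ Q) (by
      rintro ⟨x, y⟩ (h | h)
      · have := (mem_strip.1 h).1.1
        simp only; omega
      · have := (mem_mir.1 h).1.1
        simp only; omega) h1
  -- the arms
  have harm : ∀ z z' : ℤ × ℤ, ∀ C : Set (ℤ × ℤ),
      Cn (adjS Q) ((N ∩ Q) \ ((D.strip q 1 (a K) ∪ D.mir r ⁻¹' D.strip q 1 (a K)) ∪
        (D.tip n ∪ D.mir r ⁻¹' D.tip n))) (slU (R : ℤ) ((r : ℤ) + R) r) {z} →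
      z' ∈ N → adjS Q z z' → z' ∈ C → D.Arm (D.SB R r) T C N := by
    intro z z' C hz hz'N hzz hz'C
    obtain ⟨x, ⟨⟨⟨hx1, hx2⟩, hx3⟩, hx4⟩, z0, ⟨hz0, hz1⟩, hxz⟩ := hz
    obtain rfl : z0 = z := hz1
    have hT' : ∀ u, u ∉ ((D.strip q 1 (a K) ∪ D.mir r ⁻¹' D.strip q 1 (a K)) ∪
        (D.tip n ∪ D.mir r ⁻¹' D.tip n)) → u ∉ T := by
      rintro u hu (((h | h) | h) | h)
      · exact hu (Or.inl (Or.inl h))
      · exact hu (Or.inl (Or.inr h))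
      · exact hu (Or.inr (Or.inl h))
      · exact hu (Or.inr (Or.inr h))
    have hxu : x ∈ D.upp (D.SB R r) := by
      obtain ⟨hxQ, hx5, w, hw, hxw⟩ := hx4
      obtain ⟨x1, x2⟩ := x
      obtain ⟨w1, w2⟩ := w
      simp only at hx5
      rcases nb_cases hxw with e | e | e | e <;> simp only [Prod.mk.injEq] at e
      · refine ⟨((x1 + 1, x2), true), by simp [D.sides], hx5, Or.inr ?_⟩
        rw [not_mem_SB]
        simp only [D.rt, if_true]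
        rw [← e.1, ← e.2]
        exact hw
      · refine ⟨((x1, x2), true), by simp [D.sides], hx5, Or.inl ?_⟩
        rw [not_mem_SB]
        simp only [D.lf, if_true]
        rw [show x1 - 1 = w1 by omega, e.2]
        exact hw
      · refine ⟨((x1, x2 + 1), false), by simp [D.sides], by simp only; omega, Or.inl ?_⟩
        rw [not_mem_SB]
        simp only [D.lf]
        rw [← e.1, ← e.2]
        exact hw
      · refine ⟨((x1, x2), false), by simp [D.sides], hx5, Or.inr ?_⟩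
        rw [not_mem_SB]
        simp only [D.rt]
        rw [show x2 - 1 = w2 by omega, e.1]
        exact hw
    refine ⟨x, hxu, z', hz'C, ⟨mem_SB.2 hx2, hx1, fun h => hT' x hx3 h.1⟩, ?_⟩
    have hz0Q : z0 ∈ Q := hzz.2.1
    have g1 : Relation.ReflTransGen (D.adj (D.SB R r) (N \ (T \ C))) x z0 :=
      Relation.ReflTransGen.mono (p := D.adj (D.SB R r) (N \ (T \ C)))
        (fun u v e => adj_iff.2 ⟨⟨mem_SB.2 e.2.1.1.2, e.2.1.1.1, fun h => hT' u e.2.1.2 h.1⟩,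
          ⟨mem_SB.2 e.2.2.1.2, e.2.2.1.1, fun h => hT' v e.2.2.2 h.1⟩, e.1.1⟩) _ _ hxz
    refine g1.tail (adj_iff.2 ⟨⟨mem_SB.2 hz0Q, hz0.1.1, fun h => hT' z0 hz0.2 h.1⟩,
      ⟨mem_SB.2 hzz.2.2, hz'N, fun h => h.2 hz'C⟩, hzz.1⟩)
  rcases hcov with ⟨f, ⟨hf1, hf2⟩, hf3⟩ | ⟨z, hz, z', ⟨⟨hz'N, hz'Q⟩, hz'C⟩, hzz⟩ | hmid
  · exfalso
    have := hF' f (mem_SB.2 hf2) hf1
    rcases hf3 with hf3 | hf3
    · exact this.1 hf3
    · exact this.2 hf3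
  · have hnt := hF' z' (mem_SB.2 hz'Q) hz'N
    obtain ⟨x, y⟩ := z'
    rcases hz'C with hz'C | hz'C
    · left
      have h2 := mem_strip.1 hz'C
      obtain ⟨h3, h4⟩ := cone_depth hq h2.1.1 h2.1.2
      have h5 : ¬ (-(n : ℤ) ≤ x ∧ x < n ∧ -(n : ℤ) ≤ y ∧ y < n) := hnt.1
      obtain ⟨k, hk, h6, h7⟩ := block (a := a) (K := K) (x := -x) (by omega) h2.2.2
      exact ⟨k, hk, harm z (x, y) _ hz hz'N hzz (mem_strip.2 ⟨h2.1, h6, h7⟩)⟩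
    · right
      left
      have h2 := mem_mir.1 hz'C
      obtain ⟨h3, h4⟩ := cone_depth hq h2.1.1 h2.1.2
      have h5 : ¬ (-(n : ℤ) ≤ (r : ℤ) - 1 - x ∧ (r : ℤ) - 1 - x < n ∧ -(n : ℤ) ≤ y ∧ y < n) :=
        hnt.2
      obtain ⟨k, hk, h6, h7⟩ := block (a := a) (K := K) (x := -((r : ℤ) - 1 - x)) (by omega)
        h2.2.2
      exact ⟨k, hk, harm z (x, y) _ hz hz'N hzz ⟨h2.1, h6, h7⟩⟩
  · right
    right
    right
    intro hJ'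
    obtain ⟨u, hu1, hu2⟩ := mid_core (a := a K) (a'' := a K) hR hr hq hqn haK haK hnR hnr hmid
      (Cn_of_Jn hJ')
    rcases hu2 with hu2 | ⟨-, -, hu2 | hu2⟩ | ⟨-, hu2 | hu2⟩
    · exact hu2.1 hu1.1.1
    · exact hu1.2 (Or.inl (Or.inl hu2))
    · exact hu1.2 (Or.inr (Or.inl hu2))
    · exact hu1.2 (Or.inl (Or.inr hu2))
    · exact hu1.2 (Or.inr (Or.inr hu2))

end Vale.Agent.P159.T1.H995
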