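import Vale.Agent.P159.T1.H995.Rows
import Vale.Agent.P159.T1.H664.ArmDefs

/-!
Boxes of quarter planes in the slit box (`StmtBoxes` of `T1/H664/ArmDefs.lean`).
-/

namespace Vale.Agent.P159.T1.H995

open Vale.Agent.P159.T1

/-- **ARM.4, the boxes** -/
theorem stmtBoxes : H664.StmtBoxes := by
  intro q hq R
  refine ⟨R + 2, 1, ?_⟩
  intro A r a hA ha har Q hQ f hf1 hf2 hf3 hf4
  obtain ⟨x, y⟩ := f
  simp only at hf1 hf2 hf3 hf4
  have h12 : 12 * (a : ℤ) ≤ r := by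
    have h1 : (12 * (a : ℝ)) ≤ r := by linarith
    exact_mod_cast h1
  have ha0 : (1 : ℤ) ≤ a := by exact_mod_cast ha
  -- the size of the box
  have hAr : 12 * ((a : ℤ) * R) + 24 * a ≤ (A : ℤ) * r := by
    have h1 : ((R : ℤ) + 2) ≤ A := by exact_mod_cast hA
    have h2 : ((R : ℤ) + 2) * r ≤ A * r := mul_le_mul_of_nonneg_right h1 (by omega)
    have h3 : ((R : ℤ) + 2) * (12 * a) ≤ (R + 2) * r :=
      mul_le_mul_of_nonneg_left h12 (by positivity)
    nlinarith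
  have haR : (0 : ℤ) ≤ (a : ℤ) * R := by positivity
  -- the width of the cell
  have hw : 6 * ((a / q : ℕ) : ℤ) ≤ a := by
    have h1 : 6 * (a / q) ≤ a := by
      calc 6 * (a / q) ≤ q * (a / q) := Nat.mul_le_mul_right _ hq
        _ ≤ a := Nat.mul_div_le a q
    exact_mod_cast h1
  have hw0 : (0 : ℤ) ≤ ((a / q : ℕ) : ℤ) := by positivity
  -- the depth of the third box
  set Dp : ℕ := 6 * a / (5 * q) with hD
  have hdep : 6 * (a : ℤ) < 5 * ((q : ℤ) * ((Dp : ℤ) + 1)) := by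
    have h1 : 6 * a < (5 * q) * (6 * a / (5 * q) + 1) := by
      have := Nat.lt_mul_div_succ (6 * a) (show 0 < 5 * q by omega)
      simpa [Nat.succ_eq_add_one] using this
    have h2 : ((6 * a : ℕ) : ℤ) < (((5 * q) * (Dp + 1) : ℕ) : ℤ) := by
      rw [hD]; exact_mod_cast h1
    push_cast at h2
    nlinarith
  have hDa : (Dp : ℤ) ≤ a := by
    have h1 : 6 * a / (5 * q) ≤ a := by
      calc 6 * a / (5 * q) ≤ 6 * a / 30 := Nat.div_le_div_left (by omega) (by norm_num)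
        _ ≤ a := by omega
    rw [hD]
    exact_mod_cast h1
  have hD0 : (0 : ℤ) ≤ Dp := by positivity
  have key : ∀ u v : ℤ, (-((A : ℤ) * r) ≤ u ∧ u < r + (A : ℤ) * r) →
      (-((A : ℤ) * r) ≤ v ∧ v ≤ -2) →
      ¬ ((v ≤ -2 ∧ (q : ℤ) * (-1 - v) ≤ -u) ∧ (a : ℤ) ≤ -u ∧ -u < ((a + a / q : ℕ) : ℤ)) →
      (u, v) ∈ D.SB (A * r) r \ Q := by
    intro u v h1 h2 h3
    rw [Finset.mem_sdiff, mem_SB, hQ]
    refine ⟨?_, fun h4 => h3 (mem_strip.1 h4)⟩
    rw [mem_slQ]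
    push_cast
    omega
  refine ⟨?_, ?_, ?_⟩
  · have e : D.iso (-(a : ℤ) + 1, -1) true false false (x, y) = (-(a : ℤ) + 1 + x, -2 - y) := by
      simp only [D.iso, if_true, Bool.false_eq_true, if_false, Prod.mk.injEq, true_and]
      ring
    rw [e]
    refine key _ _ ⟨by omega, by omega⟩ ⟨by omega, by omega⟩ ?_
    rintro ⟨-, h1, -⟩
    omega
  · have e : D.iso (-((a + a / q : ℕ) : ℤ) + 1, -1) false false false (x, y) =
        (-((a + a / q : ℕ) : ℤ) - x, -2 - y) := by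
      simp only [D.iso, Bool.false_eq_true, if_false, Prod.mk.injEq]
      constructor <;> ring
    rw [e]
    refine key _ _ ⟨by push_cast; omega, by push_cast; omega⟩ ⟨by omega, by omega⟩ ?_
    rintro ⟨-, -, h1⟩
    omega
  · have e : D.iso (-(2 * a : ℤ), -((Dp + 1 : ℕ) : ℤ)) true false false (x, y) =
        (-(2 * a : ℤ) + x, -(Dp : ℤ) - 2 - y) := by
      simp only [D.iso, if_true, Bool.false_eq_true, if_false, Prod.mk.injEq, true_and]
      push_cast
      ring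
    rw [e]
    refine key _ _ ⟨by omega, by omega⟩ ⟨by omega, by omega⟩ ?_
    rintro ⟨⟨-, h1⟩, -, h2⟩
    have h3 : (q : ℤ) * ((Dp : ℤ) + 1) ≤ q * (-1 - (-(Dp : ℤ) - 2 - y)) :=
      mul_le_mul_of_nonneg_left (by omega) (by positivity)
    push_cast at h2
    omega

end Vale.Agent.P159.T1.H995
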