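import Vale.Agent.P159.T1.H995.Gam

/-!
Potential of a chain of squares which is closed through the outer face, and walks along the
boundary.
-/

namespace Vale.Agent.P159.T1.H995

open Vale.Agent.P159.R2.H729 Set
open scoped Classical

/-- the bond between `p` and `w` is the horizontal bond at `(x, y)` -/
def isH (p w : ℤ × ℤ) (x y : ℤ) : Prop :=
  (p = (x, y - 1) ∧ w = (x, y)) ∨ (w = (x, y - 1) ∧ p = (x, y))

/-- the bond between `p` and `w` is the vertical bond at `(x, y)` -/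
def isK (p w : ℤ × ℤ) (x y : ℤ) : Prop :=
  (p = (x - 1, y) ∧ w = (x, y)) ∨ (w = (x - 1, y) ∧ p = (x, y))

/-- the cochain of one bond -/
lemma bond_cochain {p w : ℤ × ℤ} (h : nb p w) :
    ∃ H K : ℤ → ℤ → ZMod 2, (∀ x y, bdr H K x y = sg p.1 p.2 x y + sg w.1 w.2 x y) ∧
      (∀ x y, H x y = if isH p w x y then 1 else 0) ∧
      (∀ x y, K x y = if isK p w x y then 1 else 0) := by
  obtain ⟨p1, p2⟩ := p
  obtain ⟨w1, w2⟩ := w
  rcases nb_cases h with e | e | e | e <;> simp only [Prod.mk.injEq] at e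
  · obtain ⟨rfl, rfl⟩ := e
    refine ⟨fun _ _ => 0, sg (p1 + 1) w2, fun x y => ?_, fun x y => ?_, fun x y => ?_⟩
    · simp only [bdr, sg_shift_x, add_sub_cancel_right]
      ring
    · rw [if_neg]
      simp only [isH, Prod.mk.injEq]
      omega
    · unfold sg
      simp only [isK, Prod.mk.injEq]
      congr 1
      apply propext
      omega
  · obtain ⟨rfl, rfl⟩ := e
    refine ⟨fun _ _ => 0, sg (w1 + 1) p2, fun x y => ?_, fun x y => ?_, fun x y => ?_⟩
    · simp only [bdr, sg_shift_x, add_sub_cancel_right]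
      ring
    · rw [if_neg]
      simp only [isH, Prod.mk.injEq]
      omega
    · unfold sg
      simp only [isK, Prod.mk.injEq]
      congr 1
      apply propext
      omega
  · obtain ⟨rfl, rfl⟩ := e
    refine ⟨sg w1 (p2 + 1), fun _ _ => 0, fun x y => ?_, fun x y => ?_, fun x y => ?_⟩
    · simp only [bdr, sg_shift_y, add_sub_cancel_right]
      ring
    · unfold sg
      simp only [isH, Prod.mk.injEq]
      congr 1
      apply propext
      omega
    · rw [if_neg]
      simp only [isK, Prod.mk.injEq]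
      omega
  · obtain ⟨rfl, rfl⟩ := e
    refine ⟨sg p1 (w2 + 1), fun _ _ => 0, fun x y => ?_, fun x y => ?_, fun x y => ?_⟩
    · simp only [bdr, sg_shift_y, add_sub_cancel_right]
      ring
    · unfold sg
      simp only [isH, Prod.mk.injEq]
      congr 1
      apply propext
      omega
    · rw [if_neg]
      simp only [isK, Prod.mk.injEq]
      omega

/-- `v` takes one value at the four corners of the square `z` -/
def Flat (v : ℤ → ℤ → ZMod 2) (z : ℤ × ℤ) : Prop :=
  v (z.1 + 1) z.2 = v z.1 z.2 ∧ v z.1 (z.2 + 1) = v z.1 z.2 ∧ v (z.1 + 1) (z.2 + 1) = v z.1 z.2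

/-- `v` is constant along a chain of flat squares -/
lemma flat_chn {v : ℤ → ℤ → ZMod 2} {S : Set (ℤ × ℤ)} (hS : ∀ z ∈ S, Flat v z) {z w : ℤ × ℤ}
    (h : chn S z w) : v z.1 z.2 = v w.1 w.2 := by
  unfold chn at h
  induction h with
  | refl => rfl
  | @tail a b _ hab ih => exact ih.trans (nb_const hab.1 (hS a hab.2.1) (hS b hab.2.2))

/-- **The potential of a chain closed through the outer face `C`.** -/
theorem core {Q C S : Set (ℤ × ℤ)} (hQC : Disjoint Q C) (hC : ∀ z ∈ C, ∀ w ∈ C, chn C z w)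
    {p wp q wq : ℤ × ℤ} (hp : p ∈ S ∩ Q) (hwp : wp ∈ C) (hpw : nb p wp)
    (hq : q ∈ S ∩ Q) (hwq : wq ∈ C) (hqw : nb q wq) (hpq : chn (S ∩ Q) p q) :
    ∃ v : ℤ → ℤ → ZMod 2, (∀ z, z ∉ (S ∩ Q) ∪ C → Flat v z) ∧
      (∀ x y, ((x, y - 1) ∈ Q ∧ (x, y) ∈ C ∨ (x, y - 1) ∈ C ∧ (x, y) ∈ Q) →
        v x y = (if isH p wp x y then 1 else 0) + (if isH q wq x y then 1 else 0) +
          v (x + 1) y) ∧
      (∀ x y, ((x - 1, y) ∈ Q ∧ (x, y) ∈ C ∨ (x - 1, y) ∈ C ∧ (x, y) ∈ Q) →
        v x y = (if isK p wp x y then 1 else 0) + (if isK q wq x y then 1 else 0) +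
          v x (y + 1)) := by
  obtain ⟨H1, K1, b1, c1, d1, M1, m1⟩ := chain_cochain' hpq
  obtain ⟨H2, K2, b2, c2, d2, M2, m2⟩ := chain_cochain' (hC wq hwq wp hwp)
  obtain ⟨H3, K3, b3, c3, d3⟩ := bond_cochain hpw
  obtain ⟨H4, K4, b4, c4, d4⟩ := bond_cochain hqw
  set H' : ℤ → ℤ → ZMod 2 := fun x y => H1 x y + H2 x y + H3 x y + H4 x y with hH'
  set K' : ℤ → ℤ → ZMod 2 := fun x y => K1 x y + K2 x y + K3 x y + K4 x y with hK'
  have hclosed : ∀ x y, bdr H' K' x y = 0 := by
    intro x y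
    have e1 := b1 x y
    have e2 := b2 x y
    have e3 := b3 x y
    have e4 := b4 x y
    simp only [bdr] at e1 e2 e3 e4 ⊢
    simp only [hH', hK']
    have e5 := z2_add_self (sg p.1 p.2 x y)
    have e6 := z2_add_self (sg wp.1 wp.2 x y)
    have e7 := z2_add_self (sg q.1 q.2 x y)
    have e8 := z2_add_self (sg wq.1 wq.2 x y)
    linear_combination e1 + e2 + e3 + e4 + e5 + e6 + e7 + e8
  have hbd : ∀ p w : ℤ × ℤ, ∀ x y, max (p.1 + 1) (w.1 + 1) ≤ x → ¬ isH p w x y ∧ ¬ isK p w x y := by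
    intro p w x y hx
    have g1 : p.1 + 1 ≤ x := le_trans (le_max_left _ _) hx
    have g2 : w.1 + 1 ≤ x := le_trans (le_max_right _ _) hx
    constructor
    · rintro (⟨h1, -⟩ | ⟨h1, -⟩)
      · rw [h1] at g1; simp only at g1; omega
      · rw [h1] at g2; simp only at g2; omega
    · rintro (⟨-, h1⟩ | ⟨-, h1⟩)
      · rw [h1] at g2; simp only at g2; omega
      · rw [h1] at g1; simp only at g1; omega
  obtain ⟨v, hv1, hv2⟩ := potentialZ (H := H') (K := K')
    (M := max (max M1 M2) (max (max (p.1 + 1) (wp.1 + 1)) (max (q.1 + 1) (wq.1 + 1))))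
    (fun x y hx => by
      have h5 : M1 ≤ x := le_trans ((le_max_left _ _).trans (le_max_left _ _)) hx
      have h6 : M2 ≤ x := le_trans ((le_max_right _ _).trans (le_max_left _ _)) hx
      have h7 := le_trans ((le_max_left _ _).trans (le_max_right _ _)) hx
      have h8 := le_trans ((le_max_right _ _).trans (le_max_right _ _)) hx
      simp only [hH']
      rw [(m1 x y h5).1, (m2 x y h6).1, c3, c4, if_neg (hbd p wp x y h7).1,
        if_neg (hbd q wq x y h8).1]
      ring)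
    (fun x y hx => by
      have h5 : M1 ≤ x := le_trans ((le_max_left _ _).trans (le_max_left _ _)) hx
      have h6 : M2 ≤ x := le_trans ((le_max_right _ _).trans (le_max_left _ _)) hx
      have h7 := le_trans ((le_max_left _ _).trans (le_max_right _ _)) hx
      have h8 := le_trans ((le_max_right _ _).trans (le_max_right _ _)) hx
      simp only [hK']
      rw [(m1 x y h5).2, (m2 x y h6).2, d3, d4, if_neg (hbd p wp x y h7).2,
        if_neg (hbd q wq x y h8).2]
      ring) hclosed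
  have hpU : p ∈ (S ∩ Q) ∪ C := Or.inl hp
  have hqU : q ∈ (S ∩ Q) ∪ C := Or.inl hq
  have hwpU : wp ∈ (S ∩ Q) ∪ C := Or.inr hwp
  have hwqU : wq ∈ (S ∩ Q) ∪ C := Or.inr hwq
  have aux : ∀ a b c d : ZMod 2, a + b + c + d ≠ 0 → a ≠ 0 ∨ b ≠ 0 ∨ c ≠ 0 ∨ d ≠ 0 := by decide
  have iH : ∀ p w : ℤ × ℤ, p ∈ (S ∩ Q) ∪ C → w ∈ (S ∩ Q) ∪ C → ∀ x y, isH p w x y →
      (x, y - 1) ∈ (S ∩ Q) ∪ C ∧ (x, y) ∈ (S ∩ Q) ∪ C := by
    rintro p w h1 h2 x y (⟨e1, e2⟩ | ⟨e1, e2⟩)
    · exact ⟨e1 ▸ h1, e2 ▸ h2⟩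
    · exact ⟨e1 ▸ h2, e2 ▸ h1⟩
  have iK : ∀ p w : ℤ × ℤ, p ∈ (S ∩ Q) ∪ C → w ∈ (S ∩ Q) ∪ C → ∀ x y, isK p w x y →
      (x - 1, y) ∈ (S ∩ Q) ∪ C ∧ (x, y) ∈ (S ∩ Q) ∪ C := by
    rintro p w h1 h2 x y (⟨e1, e2⟩ | ⟨e1, e2⟩)
    · exact ⟨e1 ▸ h1, e2 ▸ h2⟩
    · exact ⟨e1 ▸ h2, e2 ▸ h1⟩
  have sH : ∀ x y, H' x y ≠ 0 → (x, y - 1) ∈ (S ∩ Q) ∪ C ∧ (x, y) ∈ (S ∩ Q) ∪ C := by
    intro x y h
    rcases aux _ _ _ _ h with h5 | h5 | h5 | h5
    · exact ⟨Or.inl (c1 x y h5).1, Or.inl (c1 x y h5).2⟩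
    · exact ⟨Or.inr (c2 x y h5).1, Or.inr (c2 x y h5).2⟩
    · rw [c3] at h5
      by_cases h6 : isH p wp x y
      · exact iH _ _ hpU hwpU x y h6
      · rw [if_neg h6] at h5
        exact absurd rfl h5
    · rw [c4] at h5
      by_cases h6 : isH q wq x y
      · exact iH _ _ hqU hwqU x y h6
      · rw [if_neg h6] at h5
        exact absurd rfl h5
  have sK : ∀ x y, K' x y ≠ 0 → (x - 1, y) ∈ (S ∩ Q) ∪ C ∧ (x, y) ∈ (S ∩ Q) ∪ C := by
    intro x y h
    rcases aux _ _ _ _ h with h5 | h5 | h5 | h5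
    · exact ⟨Or.inl (d1 x y h5).1, Or.inl (d1 x y h5).2⟩
    · exact ⟨Or.inr (d2 x y h5).1, Or.inr (d2 x y h5).2⟩
    · rw [d3] at h5
      by_cases h6 : isK p wp x y
      · exact iK _ _ hpU hwpU x y h6
      · rw [if_neg h6] at h5
        exact absurd rfl h5
    · rw [d4] at h5
      by_cases h6 : isK q wq x y
      · exact iK _ _ hqU hwqU x y h6
      · rw [if_neg h6] at h5
        exact absurd rfl h5
  refine ⟨v, ?_, ?_, ?_⟩
  · rintro ⟨x, y⟩ hz
    have k1 : H' x y = 0 := by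
      by_contra h
      exact hz (sH x y h).2
    have k2 : H' x (y + 1) = 0 := by
      by_contra h
      have := (sH x (y + 1) h).1
      rw [show y + 1 - 1 = y by ring] at this
      exact hz this
    have k3 : K' x y = 0 := by
      by_contra h
      exact hz (sK x y h).2
    have k4 : K' (x + 1) y = 0 := by
      by_contra h
      have := (sK (x + 1) y h).1
      rw [show x + 1 - 1 = x by ring] at this
      exact hz this
    have m1 := hv1 x y
    have m2 := hv2 x y
    have m3 := hv2 (x + 1) y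
    rw [k1, zero_add] at m1
    rw [k3, zero_add] at m2
    rw [k4, zero_add] at m3
    refine ⟨m1.symm, m2.symm, ?_⟩
    rw [← m3, ← m1]
  · intro x y h
    have e1 : H1 x y = 0 := by
      by_contra h0
      have h1 := c1 x y h0
      rcases h with ⟨h2, h3⟩ | ⟨h2, h3⟩
      · exact Set.disjoint_left.1 hQC h1.2.2 h3
      · exact Set.disjoint_left.1 hQC h1.1.2 h2
    have e2 : H2 x y = 0 := by
      by_contra h0
      have h1 := c2 x y h0
      rcases h with ⟨h2, h3⟩ | ⟨h2, h3⟩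
      · exact Set.disjoint_left.1 hQC h2 h1.1
      · exact Set.disjoint_left.1 hQC h3 h1.2
    rw [hv1 x y]
    simp only [hH']
    rw [e1, e2, c3, c4]
    ring
  · intro x y h
    have e1 : K1 x y = 0 := by
      by_contra h0
      have h1 := d1 x y h0
      rcases h with ⟨h2, h3⟩ | ⟨h2, h3⟩
      · exact Set.disjoint_left.1 hQC h1.2.2 h3
      · exact Set.disjoint_left.1 hQC h1.1.2 h2
    have e2 : K2 x y = 0 := by
      by_contra h0
      have h1 := d2 x y h0
      rcases h with ⟨h2, h3⟩ | ⟨h2, h3⟩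
      · exact Set.disjoint_left.1 hQC h2 h1.1
      · exact Set.disjoint_left.1 hQC h3 h1.2
    rw [hv2 x y]
    simp only [hK']
    rw [e1, e2, d3, d4]
    ring

/-- walking along a horizontal part of the boundary -/
lemma walk_h {v : ℤ → ℤ → ZMod 2} {p w : ℤ × ℤ} {a b y0 : ℤ} (hab : a ≤ b)
    (h : ∀ i, a ≤ i → i < b → v i y0 = (if isH p w i y0 then 1 else 0) + v (i + 1) y0) :
    v a y0 = v b y0 + if a ≤ p.1 ∧ p.1 < b ∧ isH p w p.1 y0 then 1 else 0 := by
  have key : ∀ k : ℕ, ∀ x : ℤ, a ≤ x → x + k = b →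
      v x y0 = v b y0 + if x ≤ p.1 ∧ p.1 < b ∧ isH p w p.1 y0 then 1 else 0 := by
    intro k
    induction k with
    | zero =>
      intro x _ hk
      rw [show x = b by simpa using hk, if_neg (by omega), add_zero]
    | succ k ih =>
      intro x hx hk
      push_cast at hk
      rw [h x hx (by omega), ih (x + 1) (by omega) (by omega)]
      by_cases h1 : isH p w x y0
      · have h2 : p.1 = x := by
          rcases h1 with ⟨h1, -⟩ | ⟨-, h1⟩ <;> rw [h1]
        rw [if_pos h1, if_neg (by omega), if_pos ⟨by omega, by omega, by rw [h2]; exact h1⟩]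
        ring
      · rw [if_neg h1]
        by_cases h3 : x + 1 ≤ p.1 ∧ p.1 < b ∧ isH p w p.1 y0
        · rw [if_pos h3, if_pos ⟨by omega, h3.2⟩]
          ring
        · rw [if_neg h3, if_neg]
          · ring
          · rintro ⟨g1, g2, g3⟩
            have g4 : p.1 ≠ x := by
              rintro g4
              rw [g4] at g3
              exact h1 g3
            exact h3 ⟨by omega, g2, g3⟩
  exact key (b - a).toNat a le_rfl (by omega)

/-- walking along a vertical part of the boundary -/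
lemma walk_v {v : ℤ → ℤ → ZMod 2} {p w : ℤ × ℤ} {a b x0 : ℤ} (hab : a ≤ b)
    (h : ∀ i, a ≤ i → i < b → v x0 i = (if isK p w x0 i then 1 else 0) + v x0 (i + 1)) :
    v x0 a = v x0 b + if a ≤ p.2 ∧ p.2 < b ∧ isK p w x0 p.2 then 1 else 0 := by
  have key : ∀ k : ℕ, ∀ y : ℤ, a ≤ y → y + k = b →
      v x0 y = v x0 b + if y ≤ p.2 ∧ p.2 < b ∧ isK p w x0 p.2 then 1 else 0 := by
    intro k
    induction k with
    | zero =>
      intro y _ hk
      rw [show y = b by simpa using hk, if_neg (by omega), add_zero]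
    | succ k ih =>
      intro y hy hk
      push_cast at hk
      rw [h y hy (by omega), ih (y + 1) (by omega) (by omega)]
      by_cases h1 : isK p w x0 y
      · have h2 : p.2 = y := by
          rcases h1 with ⟨h1, -⟩ | ⟨-, h1⟩ <;> rw [h1]
        rw [if_pos h1, if_neg (by omega), if_pos ⟨by omega, by omega, by rw [h2]; exact h1⟩]
        ring
      · rw [if_neg h1]
        by_cases h3 : y + 1 ≤ p.2 ∧ p.2 < b ∧ isK p w x0 p.2
        · rw [if_pos h3, if_pos ⟨by omega, h3.2⟩]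
          ring
        · rw [if_neg h3, if_neg]
          · ring
          · rintro ⟨g1, g2, g3⟩
            have g4 : p.2 ≠ y := by
              rintro g4
              rw [g4] at g3
              exact h1 g3
            exact h3 ⟨by omega, g2, g3⟩
  exact key (b - a).toNat a le_rfl (by omega)

end Vale.Agent.P159.T1.H995
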