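import Vale.Agent.P159.T1.H995.Incl

/-!
The separation hypothesis of helper619's `arm_box`: an arm from the left lip to the cell `Q`
outside the layer, together with `Q`, separates the part of the layer below `Q` from the part
above `Q`.
-/

namespace Vale.Agent.P159.T1.H995

open Vale.Agent.P159.R2.H729 Set

/-- abstract form: `T` contains an arm `L -> Q` outside `Lay`; then no chain outside `T ∪ Q` joins
`DL` to `DU`. -/
theorem sep_abs {V : Type*} {adj : V → V → Prop} {L R B U : Set V}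
    (hc : Cross adj L R B U) (hs : ∀ a b, adj a b → adj b a)
    {T Lay Q DL DU : Set V} (hDL : DL ⊆ Lay) (hDU : DU ⊆ Lay)
    (h1 : Disjoint Q DL) (h2 : Disjoint Q DU)
    (hQR : ∀ z ∈ Q, Cn adj Q {z} R) (hDLB : ∀ a ∈ DL, Cn adj DL {a} B)
    (hDUU : ∀ a ∈ DU, Cn adj DU {a} U)
    (arm : Cn adj (T \ Lay) L Q) : ¬ Cn adj ((T ∪ Q)ᶜ) DL DU := by
  refine incl hc hs (Neg := T) (Far := univ) ?_ hDL hDU h1 h2 hQR hDLB hDUU (subset_univ _) arm ?_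
  · rw [Set.disjoint_left]
    intro z hz hz'
    exact hz (Or.inl hz')
  · rintro ⟨x, ⟨hx1, hx2⟩, -⟩
    exact hx1 (Or.inr hx2)

/-- abstract form at a corner -/
theorem sep_abs_end {V : Type*} {adj : V → V → Prop} {L R B U : Set V}
    (hc : Cross adj L R B U) (hs : ∀ a b, adj a b → adj b a)
    {T Lay Q DL : Set V} (hDL : DL ⊆ Lay) (h1 : Disjoint Q DL)
    (hQR : ∀ z ∈ Q, Cn adj Q {z} R) (hDLB : ∀ a ∈ DL, Cn adj DL {a} B)
    (arm : Cn adj (T \ Lay) L Q) : ¬ Cn adj ((T ∪ Q)ᶜ) DL U := by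
  refine incl_end hc hs (Neg := T) (Far := univ) ?_ hDL h1 hQR hDLB (subset_univ _) arm ?_
  · rw [Set.disjoint_left]
    intro z hz hz'
    exact hz (Or.inl hz')
  · rintro ⟨x, ⟨hx1, hx2⟩, -⟩
    exact hx1 (Or.inr hx2)

/-- **Separation in the slit annulus**: layer = columns `1, …, w` above the hole, cell
`Q = ` columns `1, …, w1` in the rows `[c1, c2]`. -/
theorem sep_slit {n N w w1 b1 c1 c2 a2 : ℤ} (hn : 1 ≤ n) (hN : n < N) (hw : w < n)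
    (hw1 : w1 < N) (hb : b1 < c1) (hc : c2 < a2) {T : Set (ℤ × ℤ)}
    (arm : Cn (adjQ n N) (T \ lay n N w n N) (lipL n N) (lay n N w1 c1 c2)) :
    ¬ Cn (adjQ n N) ((T ∪ lay n N w1 c1 c2)ᶜ) (lay n N w n b1) (lay n N w a2 N) := by
  refine incl_slit hn hN hw hw1 hb hc (Neg := T) (Far := univ) ?_ (subset_univ _) arm ?_
  · rw [Set.disjoint_left]
    intro z hz hz'
    exact hz (Or.inl hz')
  · rintro ⟨x, ⟨hx1, hx2⟩, -⟩
    exact hx1 (Or.inr hx2)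

/-- separation from the whole outer end -/
theorem sep_slit_out {n N w w1 b1 c1 c2 : ℤ} (hn : 1 ≤ n) (hN : n < N) (hw : w < n)
    (hw1 : w1 < N) (hb : b1 < c1) {T : Set (ℤ × ℤ)}
    (arm : Cn (adjQ n N) (T \ lay n N w n N) (lipL n N) (lay n N w1 c1 c2)) :
    ¬ Cn (adjQ n N) ((T ∪ lay n N w1 c1 c2)ᶜ) (lay n N w n b1) (outS n N) := by
  refine incl_slit_out hn hN hw hw1 hb (Neg := T) (Far := univ) ?_ (subset_univ _) arm ?_
  · rw [Set.disjoint_left]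
    intro z hz hz'
    exact hz (Or.inl hz')
  · rintro ⟨x, ⟨hx1, hx2⟩, -⟩
    exact hx1 (Or.inr hx2)

/-- separation from the whole inner end -/
theorem sep_slit_in {n N w w1 c1 c2 a2 : ℤ} (hn : 1 ≤ n) (hN : n < N) (hw : w < N)
    (hw1 : w1 < N) (hc : c2 < a2) {T : Set (ℤ × ℤ)}
    (arm : Cn (adjQ n N) (T \ lay n N w n N) (lipL n N) (lay n N w1 c1 c2)) :
    ¬ Cn (adjQ n N) ((T ∪ lay n N w1 c1 c2)ᶜ) (lay n N w a2 N) (inS n N) := by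
  refine incl_slit_in hn hN hw hw1 hc (Neg := T) (Far := univ) ?_ (subset_univ _) arm ?_
  · rw [Set.disjoint_left]
    intro z hz hz'
    exact hz (Or.inl hz')
  · rintro ⟨x, ⟨hx1, hx2⟩, -⟩
    exact hx1 (Or.inr hx2)

/-- first entrance into a set -/
lemma first_entrance {V : Type*} {adj : V → V → Prop} {T Lay L Y : Set V}
    (hL : Disjoint L Lay) (hY : Y ⊆ Lay) (h : Cn adj T L Y) :
    ∃ z, Cn adj (T \ Lay) L {z} ∧ ∃ z' ∈ T ∩ Lay, adj z z' := by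
  obtain ⟨x, hx, y, hy, hxy⟩ := h
  have key : ∀ w, Relation.ReflTransGen (fun a b => adj a b ∧ a ∈ T ∧ b ∈ T) x w →
      Cn adj (T \ Lay) L {w} ∨ ∃ z, Cn adj (T \ Lay) L {z} ∧ ∃ z' ∈ T ∩ Lay, adj z z' := by
    intro w hw
    induction hw with
    | refl =>
      exact Or.inl ⟨x, ⟨⟨hx.1, fun h => Set.disjoint_left.1 hL hx.2 h⟩, hx.2⟩, x,
        ⟨⟨hx.1, fun h => Set.disjoint_left.1 hL hx.2 h⟩, rfl⟩, .refl⟩
    | @tail a b _ hab ih =>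
      rcases ih with ih | ih
      · by_cases hb : b ∈ Lay
        · exact Or.inr ⟨a, ih, b, ⟨hab.2.2, hb⟩, hab.1⟩
        · left
          refine Cn_trans ih ?_
          obtain ⟨_, _, a', ⟨ha1, ha2⟩, _⟩ := ih
          obtain rfl : a' = a := ha2
          exact ⟨a', ⟨ha1, rfl⟩, b, ⟨⟨hab.2.2, hb⟩, rfl⟩,
            .single ⟨hab.1, ha1, ⟨hab.2.2, hb⟩⟩⟩
      · exact Or.inr ih
  rcases key y hxy with h1 | h1
  · obtain ⟨_, _, y', ⟨h2, h3⟩, _⟩ := h1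
    obtain rfl : y' = y := h3
    exact absurd (hY hy.2) h2.2
  · exact h1

/-- **The cells cover the layer**: if `T` joins the left lip to the layer, it contains an arm to
one of the cells `lay n N (w + 1) y y`. -/
theorem cover_slit {n N w : ℤ} (hn : 1 ≤ n) (hw : w < n) {T Y : Set (ℤ × ℤ)}
    (hY : Y ⊆ lay n N w n N) (h : Cn (adjQ n N) T (lipL n N) Y) :
    ∃ y, n ≤ y ∧ y < N ∧
      Cn (adjQ n N) (T \ lay n N w n N) (lipL n N) (lay n N (w + 1) y y) := by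
  have hLL : Disjoint (lipL n N) (lay n N w n N) := by
    rw [Set.disjoint_left]
    rintro ⟨x, y⟩ ⟨h1, -⟩ ⟨⟨h2, -⟩, -⟩
    simp only at h1 h2
    omega
  obtain ⟨⟨x, y⟩, hz, ⟨x', y'⟩, ⟨hz1, hz2⟩, hzz⟩ := first_entrance hLL hY h
  obtain ⟨⟨h1, h2, h3, h4⟩, h5, h6⟩ := hz2
  simp only at h1 h2 h3 h4 h5 h6
  obtain ⟨u, hu, q, ⟨hq1, hq2⟩, huq⟩ := hz
  obtain rfl : q = (x, y) := hq2
  obtain ⟨hnb, ⟨⟨g1, g2, g3, g4⟩, g5, g6⟩, g7⟩ := hzz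
  unfold nb at hnb
  simp only at hnb g1 g2 g3 g4
  have hl : ¬ (1 ≤ x ∧ x ≤ w ∧ n ≤ y ∧ y < N) := fun hl =>
    hq1.2 ⟨⟨hl.1, hl.2.1, hl.2.2.1, hl.2.2.2⟩, hl.2.2.1, hl.2.2.2.le⟩
  have hs1 : ¬ (x = 0 ∧ n ≤ y ∧ y < N) := fun hl => g6 ⟨hl.1, hl.2.1, hl.2.2⟩
  have hs2 : ¬ (-n ≤ x ∧ x < n ∧ -n ≤ y ∧ y < n) := fun hl =>
    g5 ⟨hl.1, hl.2.1, hl.2.2.1, hl.2.2.2⟩
  have habs : (x = x' ∧ (y = y' + 1 ∨ y' = y + 1)) ∨ (y = y' ∧ (x = x' + 1 ∨ x' = x + 1)) := by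
    rcases abs_cases (x - x') with ⟨e1, e2⟩ | ⟨e1, e2⟩ <;>
      rcases abs_cases (y - y') with ⟨e3, e4⟩ | ⟨e3, e4⟩ <;> omega
  have hx : x = w + 1 ∧ y = y' := by
    rcases habs with ⟨e1, e2⟩ | ⟨e1, e2⟩ <;> omega
  obtain ⟨rfl, rfl⟩ := hx
  exact ⟨y, h3, h4, u, hu, (w + 1, y), ⟨hq1, ⟨⟨by omega, le_rfl, h3, h4⟩, le_rfl, le_rfl⟩⟩, huq⟩

end Vale.Agent.P159.T1.H995
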