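import Vale.Agent.P159.T1.H995.Gen
import Vale.Agent.P159.T1.H995.HSep

/-!
The domain GAMMA of helper148 (P159 T1): the box `[-N, N]²` without the wedge
`{x > 0, 1 ≤ y, m y ≤ x}` and with two wired blobs `[a1, b1] × [-c1, 0]`, `[a2, b2] × [-c2, 0]`.
Faces are unit squares, named by their lower left corners. The right lip is the segment
`{y = 0, b1 ≤ x ≤ a2}`, the left lip is all the rest of the boundary which is not on a blob.
-/

namespace Vale.Agent.P159.T1.H995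

open Vale.Agent.P159.R2.H729 Set

section moves

lemma chn_symm {S : Set (ℤ × ℤ)} {p q : ℤ × ℤ} (h : chn S p q) : chn S q p := by
  unfold chn at h ⊢
  induction h with
  | refl => exact .refl
  | @tail a b _ hab ih => exact Relation.ReflTransGen.head ⟨nb_symm hab.1, hab.2.2, hab.2.1⟩ ih

lemma chn_right {S : Set (ℤ × ℤ)} {x y : ℤ} (k : ℕ)
    (h : ∀ i, x ≤ i → i ≤ x + k → (i, y) ∈ S) : chn S (x, y) (x + k, y) := by
  unfold chn
  induction k with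
  | zero => simpa using Relation.ReflTransGen.refl
  | succ k ih =>
    push_cast at h ⊢
    refine (ih fun i h1 h2 => h i h1 (by omega)).tail ⟨?_, h _ (by omega) (by omega),
      h _ (by omega) (by omega)⟩
    unfold nb
    simp only [sub_self, abs_zero, add_zero]
    rw [show x + (k : ℤ) - (x + ((k : ℤ) + 1)) = -1 by ring, abs_neg, abs_one]

lemma chn_up {S : Set (ℤ × ℤ)} {x y : ℤ} (k : ℕ)
    (h : ∀ i, y ≤ i → i ≤ y + k → (x, i) ∈ S) : chn S (x, y) (x, y + k) := by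
  unfold chn
  induction k with
  | zero => simpa using Relation.ReflTransGen.refl
  | succ k ih =>
    push_cast at h ⊢
    refine (ih fun i h1 h2 => h i h1 (by omega)).tail ⟨?_, h _ (by omega) (by omega),
      h _ (by omega) (by omega)⟩
    unfold nb
    simp only [sub_self, abs_zero, zero_add]
    rw [show y + (k : ℤ) - (y + ((k : ℤ) + 1)) = -1 by ring, abs_neg, abs_one]

/-- horizontal moves -/
lemma chn_h {S : Set (ℤ × ℤ)} {x x' y : ℤ}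
    (h : ∀ i, (x ≤ i ∧ i ≤ x' ∨ x' ≤ i ∧ i ≤ x) → (i, y) ∈ S) : chn S (x, y) (x', y) := by
  rcases le_total x x' with hx | hx
  · have := chn_right (S := S) (x := x) (y := y) (x' - x).toNat
      (fun i h1 h2 => h i (Or.inl ⟨h1, by omega⟩))
    rwa [show x + ((x' - x).toNat : ℤ) = x' by omega] at this
  · have := chn_right (S := S) (x := x') (y := y) (x - x').toNat
      (fun i h1 h2 => h i (Or.inr ⟨h1, by omega⟩))
    rw [show x' + ((x - x').toNat : ℤ) = x by omega] at this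
    exact chn_symm this

/-- vertical moves -/
lemma chn_v {S : Set (ℤ × ℤ)} {x y y' : ℤ}
    (h : ∀ i, (y ≤ i ∧ i ≤ y' ∨ y' ≤ i ∧ i ≤ y) → (x, i) ∈ S) : chn S (x, y) (x, y') := by
  rcases le_total y y' with hx | hx
  · have := chn_up (S := S) (x := x) (y := y) (y' - y).toNat
      (fun i h1 h2 => h i (Or.inl ⟨h1, by omega⟩))
    rwa [show y + ((y' - y).toNat : ℤ) = y' by omega] at this
  · have := chn_up (S := S) (x := x) (y := y') (y - y').toNat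
      (fun i h1 h2 => h i (Or.inr ⟨h1, by omega⟩))
    rw [show y' + ((y - y').toNat : ℤ) = y by omega] at this
    exact chn_symm this

lemma chn_trans {S : Set (ℤ × ℤ)} {p q r : ℤ × ℤ} (h1 : chn S p q) (h2 : chn S q r) :
    chn S p r := Relation.ReflTransGen.trans h1 h2

/-- a chain inside a subset of `Q` is a chain of `adjS Q` -/
lemma Cn_of_chn {Q S : Set (ℤ × ℤ)} (hS : S ⊆ Q) {p q : ℤ × ℤ} {Y : Set (ℤ × ℤ)}
    (h : chn S p q) (hp : p ∈ S) (hq : q ∈ S) (hY : q ∈ Y) : Cn (adjS Q) S {p} Y :=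
  ⟨p, ⟨hp, rfl⟩, q, ⟨hq, hY⟩, Relation.ReflTransGen.mono
    (p := fun a b => adjS Q a b ∧ a ∈ S ∧ b ∈ S)
    (fun _ _ e => ⟨⟨e.1, hS e.2.1, hS e.2.2⟩, e.2.1, e.2.2⟩) _ _ h⟩

lemma symS {Q : Set (ℤ × ℤ)} (z w : ℤ × ℤ) (h : adjS Q z w) : adjS Q w z :=
  ⟨nb_symm h.1, h.2.2, h.2.1⟩

end moves

/-- the vertices of the wedge -/
def wedgeV (m : ℤ) : Set (ℤ × ℤ) := {v | 0 < v.1 ∧ 1 ≤ v.2 ∧ m * v.2 ≤ v.1}

/-- the squares with a corner in the wedge -/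
def gamW (m : ℤ) : Set (ℤ × ℤ) :=
  {z | z ∈ wedgeV m ∨ (z.1 + 1, z.2) ∈ wedgeV m ∨ (z.1, z.2 + 1) ∈ wedgeV m ∨
    (z.1 + 1, z.2 + 1) ∈ wedgeV m}

lemma mem_gamW {m : ℤ} (hm : 1 ≤ m) {x y : ℤ} :
    (x, y) ∈ gamW m ↔ (1 ≤ y ∧ m * y ≤ x + 1) ∨ (y = 0 ∧ m ≤ x + 1) := by
  have hpos : ∀ t : ℤ, 1 ≤ t → m ≤ m * t := fun t ht => by nlinarith
  simp only [gamW, wedgeV, mem_setOf_eq]
  constructor
  · rintro (⟨h1, h2, h3⟩ | ⟨h1, h2, h3⟩ | ⟨h1, h2, h3⟩ | ⟨h1, h2, h3⟩)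
    · exact Or.inl ⟨h2, by omega⟩
    · exact Or.inl ⟨h2, h3⟩
    · rcases (show 0 ≤ y by omega).eq_or_lt with h4 | h4
      · subst h4
        right
        exact ⟨rfl, by omega⟩
      · left
        refine ⟨by omega, ?_⟩
        nlinarith
    · rcases (show 0 ≤ y by omega).eq_or_lt with h4 | h4
      · subst h4
        right
        exact ⟨rfl, by omega⟩
      · left
        refine ⟨by omega, ?_⟩
        nlinarith
  · rintro (⟨h1, h2⟩ | ⟨rfl, h2⟩)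
    · exact Or.inr (Or.inl ⟨by have := hpos y h1; omega, h1, h2⟩)
    · exact Or.inr (Or.inr (Or.inr ⟨by omega, by omega, by omega⟩))

lemma gamW_right {m : ℤ} (hm : 1 ≤ m) {x x' y : ℤ} (h : (x, y) ∈ gamW m) (hx : x ≤ x') :
    (x', y) ∈ gamW m := by
  rw [mem_gamW hm] at h ⊢
  omega

lemma gamW_nonneg {m : ℤ} (hm : 1 ≤ m) {z : ℤ × ℤ} (h : z ∈ gamW m) : 0 ≤ z.2 := by
  obtain ⟨x, y⟩ := z
  rw [mem_gamW hm] at h
  simp only
  omega

/-- the squares of the blob `[a, b] × [-c, 0]` -/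
def gamB (a b c : ℤ) : Set (ℤ × ℤ) := {z | a ≤ z.1 ∧ z.1 < b ∧ -c ≤ z.2 ∧ z.2 < 0}

/-- the outer face: squares outside the box or with a corner in the wedge -/
def gamC (N m : ℤ) : Set (ℤ × ℤ) := {z | z ∉ boxS N ∨ z ∈ gamW m}

/-- the faces of the domain -/
def gamQ (N m a1 b1 c1 a2 b2 c2 : ℤ) : Set (ℤ × ℤ) :=
  {z | z ∈ boxS N ∧ z ∉ gamW m ∧ z ∉ gamB a1 b1 c1 ∧ z ∉ gamB a2 b2 c2}

/-- the parameters: the blobs are in the box, the segment between them is below the wedge -/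
structure GamPar (N m a1 b1 c1 a2 b2 c2 : ℤ) : Prop where
  hm : 1 ≤ m
  hab1 : a1 < b1
  hab2 : a2 < b2
  hc1 : 1 ≤ c1
  hc2 : 1 ≤ c2
  hmb : m ≤ b1 + 1
  hba : b1 ≤ a2
  haN : -N ≤ a1
  hbN : b2 ≤ N
  hcN1 : c1 ≤ N
  hcN2 : c2 ≤ N

section

variable {N m a1 b1 c1 a2 b2 c2 : ℤ}

/-- the outer face is connected -/
lemma gamC_conn (hm : 1 ≤ m) {z w : ℤ × ℤ} (hz : z ∈ gamC N m) (hw : w ∈ gamC N m) :
    chn (gamC N m) z w := by
  have hout1 : ∀ x y : ℤ, N ≤ x → (x, y) ∈ gamC N m := fun x y h => Or.inl fun h1 => by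
    have h2 : x < N := h1.2.1
    omega
  have hout2 : ∀ x y : ℤ, N ≤ y → (x, y) ∈ gamC N m := fun x y h => Or.inl fun h1 => by
    have h2 : y < N := h1.2.2.2
    omega
  have hout3 : ∀ x y : ℤ, y < -N → (x, y) ∈ gamC N m := fun x y h => Or.inl fun h1 => by
    have h2 : -N ≤ y := h1.2.2.1
    omega
  have hout4 : ∀ x y : ℤ, x < -N → (x, y) ∈ gamC N m := fun x y h => Or.inl fun h1 => by
    have h2 : -N ≤ x := h1.1
    omega
  have hA : ∀ x y : ℤ, N ≤ x → chn (gamC N m) (x, y) (N, N) := fun x y h =>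
    chn_trans (chn_v (y' := N) fun i _ => hout1 x i h) (chn_h fun i _ => hout2 i N le_rfl)
  have key : ∀ z ∈ gamC N m, chn (gamC N m) z (N, N) := by
    rintro ⟨x, y⟩ hz
    by_cases h1 : N ≤ x
    · exact hA x y h1
    by_cases h2 : N ≤ y
    · exact chn_trans (chn_h (x' := N) fun i _ => hout2 i y h2) (hA N y le_rfl)
    by_cases h3 : y < -N
    · exact chn_trans (chn_h (x' := N) fun i _ => hout3 i y h3) (hA N y le_rfl)
    by_cases h4 : x < -N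
    · exact chn_trans (chn_v (y' := N) fun i _ => hout4 x i h4)
        (chn_h fun i _ => hout2 i N le_rfl)
    have h5 : (x, y) ∈ gamW m := by
      rcases hz with h5 | h5
      · refine absurd ⟨?_, ?_, ?_, ?_⟩ h5
        · simp only; omega
        · simp only; omega
        · simp only; omega
        · simp only; omega
      · exact h5
    refine chn_trans (chn_h (x' := N) fun i hi => Or.inr (gamW_right hm h5 ?_)) (hA N y le_rfl)
    rcases hi with hi | hi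
    · exact hi.1
    · omega
  exact chn_trans (key z hz) (chn_symm (key w hw))

/-- a blob is connected -/
lemma gamB_conn {a b c : ℤ} {z w : ℤ × ℤ} (hz : z ∈ gamB a b c) (hw : w ∈ gamB a b c) :
    chn (gamB a b c) z w := by
  obtain ⟨x, y⟩ := z
  obtain ⟨x', y'⟩ := w
  obtain ⟨h1, h2, h3, h4⟩ := hz
  obtain ⟨g1, g2, g3, g4⟩ := hw
  simp only at h1 h2 h3 h4 g1 g2 g3 g4
  refine chn_trans (q := (x', y)) (chn_h fun i hi => ?_) (chn_v fun i hi => ?_)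
  · exact ⟨by simp only; omega, by simp only; omega, h3, h4⟩
  · exact ⟨g1, g2, by simp only; omega, by simp only; omega⟩

/-- **Crossing chains of GAMMA share a face.** -/
theorem cross_gam (hP : GamPar N m a1 b1 c1 a2 b2 c2) :
    Cross (adjS (gamQ N m a1 b1 c1 a2 b2 c2))
      (lsq (gamQ N m a1 b1 c1 a2 b2 c2) (gamC N m) b1 a2 0) (rsq b1 a2 0)
      (esq (gamQ N m a1 b1 c1 a2 b2 c2) (gamB a1 b1 c1))
      (esq (gamQ N m a1 b1 c1 a2 b2 c2) (gamB a2 b2 c2)) := by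
  obtain ⟨hm, hab1, hab2, hc1, hc2, hmb, hba, haN, hbN, hcN1, hcN2⟩ := hP
  have g1 : ((b1 - 1, 0 - 1) : ℤ × ℤ) ∈ gamB a1 b1 c1 := by
    refine ⟨?_, ?_, ?_, ?_⟩ <;> simp only <;> omega
  have g2 : ((a2, 0 - 1) : ℤ × ℤ) ∈ gamB a2 b2 c2 := by
    refine ⟨?_, ?_, ?_, ?_⟩ <;> simp only <;> omega
  refine cross_gen ?_ ?_ ?_ ?_ ?_ (fun z hz w hw => gamC_conn hm hz hw)
    (fun z hz => gamB_conn hz g1) (fun z hz => gamB_conn hz g2) ?_ g1 g2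
  · rw [Set.disjoint_left]
    rintro z ⟨h1, h2, -, -⟩ (h3 | h3)
    · exact h3 h1
    · exact h2 h3
  · rw [Set.disjoint_left]
    rintro z ⟨h1, h2, h3, -⟩ h4
    exact h3 h4
  · rw [Set.disjoint_left]
    rintro z ⟨h1, h2, -, h3⟩ h4
    exact h3 h4
  · rw [Set.disjoint_left]
    rintro z (h1 | h1) ⟨e1, e2, e3, e4⟩
    · exact h1 ⟨by omega, by omega, by omega, by omega⟩
    · have := gamW_nonneg hm h1
      omega
  · rw [Set.disjoint_left]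
    rintro z (h1 | h1) ⟨e1, e2, e3, e4⟩
    · exact h1 ⟨by omega, by omega, by omega, by omega⟩
    · have := gamW_nonneg hm h1
      omega
  · intro x hx1 hx2
    refine ⟨⟨⟨?_, ?_, ?_, ?_⟩, ?_, ?_, ?_⟩, Or.inr ?_⟩
    · simp only; omega
    · simp only; omega
    · simp only; omega
    · simp only; omega
    · intro h
      have := gamW_nonneg hm h
      simp only at this
      omega
    · rintro ⟨-, h, -⟩
      simp only at h
      omega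
    · rintro ⟨h, -⟩
      simp only at h
      omega
    · rw [mem_gamW hm]
      right
      exact ⟨rfl, by omega⟩

/-! ### the strip below the right lip -/

/-- the squares of the strip `b1 ≤ x < a2`, `-w ≤ y < 0` in the columns `a ≤ x ≤ b` -/
def str (b1 a2 w a b : ℤ) : Set (ℤ × ℤ) :=
  {z | (b1 ≤ z.1 ∧ z.1 < a2 ∧ -w ≤ z.2 ∧ z.2 < 0) ∧ a ≤ z.1 ∧ z.1 ≤ b}

lemma str_sub (hP : GamPar N m a1 b1 c1 a2 b2 c2) {w a b : ℤ} (hw : w ≤ N) :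
    str b1 a2 w a b ⊆ gamQ N m a1 b1 c1 a2 b2 c2 := by
  obtain ⟨hm, hab1, hab2, hc1, hc2, hmb, hba, haN, hbN, hcN1, hcN2⟩ := hP
  rintro ⟨x, y⟩ ⟨⟨h1, h2, h3, h4⟩, -, -⟩
  simp only at h1 h2 h3 h4
  refine ⟨⟨?_, ?_, ?_, ?_⟩, ?_, ?_, ?_⟩
  · simp only; omega
  · simp only; omega
  · simp only; omega
  · simp only; omega
  · intro h
    have := gamW_nonneg hm h
    simp only at this
    omega
  · rintro ⟨-, h, -⟩
    simp only at h
    omega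
  · rintro ⟨h, -⟩
    simp only at h
    omega

/-- moving straight up to the right lip -/
lemma str_lip (hP : GamPar N m a1 b1 c1 a2 b2 c2) {w a b : ℤ} (hw : w ≤ N) {z : ℤ × ℤ}
    (hz : z ∈ str b1 a2 w a b) :
    Cn (adjS (gamQ N m a1 b1 c1 a2 b2 c2)) (str b1 a2 w a b) {z} (rsq b1 a2 0) := by
  obtain ⟨x, y⟩ := z
  have hz0 := hz
  obtain ⟨⟨h1, h2, h3, h4⟩, h5, h6⟩ := hz
  simp only at h1 h2 h3 h4 h5 h6
  refine Cn_of_chn (q := (x, -1)) (str_sub hP hw) (chn_v fun i hi => ?_) hz0 ?_ ?_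
  · exact ⟨⟨h1, h2, by simp only; omega, by simp only; omega⟩, h5, h6⟩
  · exact ⟨⟨h1, h2, by simp only; omega, by simp only; omega⟩, h5, h6⟩
  · exact ⟨by simp, h1, h2⟩

/-- moving left to the first blob -/
lemma str_e1 (hP : GamPar N m a1 b1 c1 a2 b2 c2) {w b : ℤ} (hw : w ≤ N) (hwc : w ≤ c1)
    {z : ℤ × ℤ} (hz : z ∈ str b1 a2 w b1 b) :
    Cn (adjS (gamQ N m a1 b1 c1 a2 b2 c2)) (str b1 a2 w b1 b) {z}
      (esq (gamQ N m a1 b1 c1 a2 b2 c2) (gamB a1 b1 c1)) := by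
  obtain ⟨x, y⟩ := z
  have hz0 := hz
  obtain ⟨⟨h1, h2, h3, h4⟩, h5, h6⟩ := hz
  simp only at h1 h2 h3 h4 h5 h6
  have hm' : (b1, y) ∈ str b1 a2 w b1 b := ⟨⟨le_rfl, by simp only; omega, h3, h4⟩, le_rfl,
    by simp only; omega⟩
  refine Cn_of_chn (q := (b1, y)) (str_sub hP hw) (chn_h fun i hi => ?_) hz0 hm' ?_
  · exact ⟨⟨by simp only; omega, by simp only; omega, h3, h4⟩, by simp only; omega,
      by simp only; omega⟩
  · refine ⟨str_sub hP hw hm', (b1 - 1, y), ⟨?_, ?_, ?_, h4⟩, ?_⟩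
    · have := hP.hab1
      simp only; omega
    · simp only; omega
    · simp only; omega
    · unfold nb
      simp

/-- moving right to the second blob -/
lemma str_e2 (hP : GamPar N m a1 b1 c1 a2 b2 c2) {w a : ℤ} (hw : w ≤ N) (hwc : w ≤ c2)
    {z : ℤ × ℤ} (hz : z ∈ str b1 a2 w a a2) :
    Cn (adjS (gamQ N m a1 b1 c1 a2 b2 c2)) (str b1 a2 w a a2) {z}
      (esq (gamQ N m a1 b1 c1 a2 b2 c2) (gamB a2 b2 c2)) := by
  obtain ⟨x, y⟩ := z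
  have hz0 := hz
  obtain ⟨⟨h1, h2, h3, h4⟩, h5, h6⟩ := hz
  simp only at h1 h2 h3 h4 h5 h6
  have hm' : (a2 - 1, y) ∈ str b1 a2 w a a2 := ⟨⟨by simp only; omega, by simp only; omega, h3, h4⟩,
    by simp only; omega, by simp only; omega⟩
  refine Cn_of_chn (q := (a2 - 1, y)) (str_sub hP hw) (chn_h fun i hi => ?_) hz0 hm' ?_
  · exact ⟨⟨by simp only; omega, by simp only; omega, h3, h4⟩, by simp only; omega,
      by simp only; omega⟩
  · refine ⟨str_sub hP hw hm', (a2, y), ⟨le_rfl, ?_, ?_, h4⟩, ?_⟩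
    · have := hP.hab2
      simp only; omega
    · simp only; omega
    · unfold nb
      simp

/-- a square of the left lip is not in the strip -/
lemma lsq_str (hP : GamPar N m a1 b1 c1 a2 b2 c2) {w : ℤ} (hw : w < N) :
    Disjoint (lsq (gamQ N m a1 b1 c1 a2 b2 c2) (gamC N m) b1 a2 0) (str b1 a2 w b1 a2) := by
  rw [Set.disjoint_left]
  rintro ⟨x, y⟩ ⟨-, ⟨x', y'⟩, hC, hnb, hR⟩ ⟨⟨h1, h2, h3, h4⟩, -, -⟩
  obtain ⟨hm, hab1, hab2, hc1, hc2, hmb, hba, haN, hbN, hcN1, hcN2⟩ := hP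
  simp only at h1 h2 h3 h4
  have hc := nb_cases hnb
  simp only [Prod.mk.injEq] at hc
  rcases hC with hC | hC
  · refine hC ⟨?_, ?_, ?_, ?_⟩ <;> simp only <;> omega
  · have := gamW_nonneg hm hC
    simp only at this
    refine hR ⟨by simp only; omega, ?_, h1, h2⟩
    simp only [Prod.mk.injEq]
    omega

/-- **The planar inclusion in GAMMA** (plans 108, 110): arm from the left lip to the cell
`str b1 a2 w1 d1 d2`, no chain of `Pos` from the cell to `Far` => no chain of `Pos` between the two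
parts of the strip. -/
theorem incl_gam (hP : GamPar N m a1 b1 c1 a2 b2 c2) {w w1 e1 d1 d2 e2 : ℤ} (hw : w ≤ N)
    (hw1 : w1 ≤ N) (hwc1 : w ≤ c1) (hwc2 : w ≤ c2) (he : e1 < d1) (hd : d2 < e2)
    {Pos Neg Far : Set (ℤ × ℤ)} (hPN : Disjoint Pos Neg) (hfar : str b1 a2 w b1 e1 ⊆ Far)
    (arm : Cn (adjS (gamQ N m a1 b1 c1 a2 b2 c2)) (Neg \ str b1 a2 w b1 a2)
      (lsq (gamQ N m a1 b1 c1 a2 b2 c2) (gamC N m) b1 a2 0) (str b1 a2 w1 d1 d2))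
    (hH : ¬ Cn (adjS (gamQ N m a1 b1 c1 a2 b2 c2)) Pos (str b1 a2 w1 d1 d2) Far) :
    ¬ Cn (adjS (gamQ N m a1 b1 c1 a2 b2 c2)) Pos (str b1 a2 w b1 e1) (str b1 a2 w e2 a2) := by
  refine incl (cross_gam hP) symS hPN (Lay := str b1 a2 w b1 a2) ?_ ?_ ?_ ?_
    (fun z hz => str_lip hP hw1 hz) (fun z hz => str_e1 hP hw hwc1 hz)
    (fun z hz => str_e2 hP hw hwc2 hz) hfar arm hH
  · rintro z ⟨h1, h2, h3⟩
    exact ⟨h1, h2, h1.2.1.le⟩
  · rintro z ⟨h1, h2, h3⟩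
    exact ⟨h1, h1.1, h3⟩
  · rw [Set.disjoint_left]
    rintro z ⟨-, h2, -⟩ ⟨-, -, h3⟩
    omega
  · rw [Set.disjoint_left]
    rintro z ⟨-, -, h2⟩ ⟨-, h3, -⟩
    omega

/-- the planar inclusion at the second blob -/
theorem incl_gam_e2 (hP : GamPar N m a1 b1 c1 a2 b2 c2) {w w1 e1 d1 d2 : ℤ} (hw : w ≤ N)
    (hw1 : w1 ≤ N) (hwc1 : w ≤ c1) (he : e1 < d1)
    {Pos Neg Far : Set (ℤ × ℤ)} (hPN : Disjoint Pos Neg) (hfar : str b1 a2 w b1 e1 ⊆ Far)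
    (arm : Cn (adjS (gamQ N m a1 b1 c1 a2 b2 c2)) (Neg \ str b1 a2 w b1 a2)
      (lsq (gamQ N m a1 b1 c1 a2 b2 c2) (gamC N m) b1 a2 0) (str b1 a2 w1 d1 d2))
    (hH : ¬ Cn (adjS (gamQ N m a1 b1 c1 a2 b2 c2)) Pos (str b1 a2 w1 d1 d2) Far) :
    ¬ Cn (adjS (gamQ N m a1 b1 c1 a2 b2 c2)) Pos (str b1 a2 w b1 e1)
      (esq (gamQ N m a1 b1 c1 a2 b2 c2) (gamB a2 b2 c2)) := by
  refine incl_end (cross_gam hP) symS hPN (Lay := str b1 a2 w b1 a2) ?_ ?_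
    (fun z hz => str_lip hP hw1 hz) (fun z hz => str_e1 hP hw hwc1 hz) hfar arm hH
  · rintro z ⟨h1, h2, h3⟩
    exact ⟨h1, h2, h1.2.1.le⟩
  · rw [Set.disjoint_left]
    rintro z ⟨-, h2, -⟩ ⟨-, -, h3⟩
    omega

/-- the planar inclusion at the first blob -/
theorem incl_gam_e1 (hP : GamPar N m a1 b1 c1 a2 b2 c2) {w w1 d1 d2 e2 : ℤ} (hw : w ≤ N)
    (hw1 : w1 ≤ N) (hwc2 : w ≤ c2) (hd : d2 < e2)
    {Pos Neg Far : Set (ℤ × ℤ)} (hPN : Disjoint Pos Neg) (hfar : str b1 a2 w e2 a2 ⊆ Far)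
    (arm : Cn (adjS (gamQ N m a1 b1 c1 a2 b2 c2)) (Neg \ str b1 a2 w b1 a2)
      (lsq (gamQ N m a1 b1 c1 a2 b2 c2) (gamC N m) b1 a2 0) (str b1 a2 w1 d1 d2))
    (hH : ¬ Cn (adjS (gamQ N m a1 b1 c1 a2 b2 c2)) Pos (str b1 a2 w1 d1 d2) Far) :
    ¬ Cn (adjS (gamQ N m a1 b1 c1 a2 b2 c2)) Pos (str b1 a2 w e2 a2)
      (esq (gamQ N m a1 b1 c1 a2 b2 c2) (gamB a1 b1 c1)) := by
  have hX : Cross (adjS (gamQ N m a1 b1 c1 a2 b2 c2))
      (lsq (gamQ N m a1 b1 c1 a2 b2 c2) (gamC N m) b1 a2 0) (rsq b1 a2 0)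
      (esq (gamQ N m a1 b1 c1 a2 b2 c2) (gamB a2 b2 c2))
      (esq (gamQ N m a1 b1 c1 a2 b2 c2) (gamB a1 b1 c1)) := by
    intro S S' h1 h2
    exact cross_gam hP S S' h1 (Cn_symm symS h2)
  refine incl_end hX symS hPN (Lay := str b1 a2 w b1 a2) ?_ ?_
    (fun z hz => str_lip hP hw1 hz) (fun z hz => str_e2 hP hw hwc2 hz) hfar arm hH
  · rintro z ⟨h1, h2, h3⟩
    exact ⟨h1, h1.1, h3⟩
  · rw [Set.disjoint_left]
    rintro z ⟨-, -, h2⟩ ⟨-, h3, -⟩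
    omega

/-- **Separation in GAMMA by an arm and a cell** (helper619's `hsep`). -/
theorem sep_gam (hP : GamPar N m a1 b1 c1 a2 b2 c2) {w w1 e1 d1 d2 e2 : ℤ} (hw : w ≤ N)
    (hw1 : w1 ≤ N) (hwc1 : w ≤ c1) (hwc2 : w ≤ c2) (he : e1 < d1) (hd : d2 < e2)
    {T : Set (ℤ × ℤ)}
    (arm : Cn (adjS (gamQ N m a1 b1 c1 a2 b2 c2)) (T \ str b1 a2 w b1 a2)
      (lsq (gamQ N m a1 b1 c1 a2 b2 c2) (gamC N m) b1 a2 0) (str b1 a2 w1 d1 d2)) :
    ¬ Cn (adjS (gamQ N m a1 b1 c1 a2 b2 c2)) ((T ∪ str b1 a2 w1 d1 d2)ᶜ)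
      (str b1 a2 w b1 e1) (str b1 a2 w e2 a2) := by
  refine incl_gam hP hw hw1 hwc1 hwc2 he hd (Neg := T) (Far := univ) ?_ (subset_univ _) arm ?_
  · rw [Set.disjoint_left]
    intro z hz hz'
    exact hz (Or.inl hz')
  · rintro ⟨x, ⟨hx1, hx2⟩, -⟩
    exact hx1 (Or.inr hx2)

/-- separation from the second blob -/
theorem sep_gam_e2 (hP : GamPar N m a1 b1 c1 a2 b2 c2) {w w1 e1 d1 d2 : ℤ} (hw : w ≤ N)
    (hw1 : w1 ≤ N) (hwc1 : w ≤ c1) (he : e1 < d1) {T : Set (ℤ × ℤ)}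
    (arm : Cn (adjS (gamQ N m a1 b1 c1 a2 b2 c2)) (T \ str b1 a2 w b1 a2)
      (lsq (gamQ N m a1 b1 c1 a2 b2 c2) (gamC N m) b1 a2 0) (str b1 a2 w1 d1 d2)) :
    ¬ Cn (adjS (gamQ N m a1 b1 c1 a2 b2 c2)) ((T ∪ str b1 a2 w1 d1 d2)ᶜ)
      (str b1 a2 w b1 e1) (esq (gamQ N m a1 b1 c1 a2 b2 c2) (gamB a2 b2 c2)) := by
  refine incl_gam_e2 hP hw hw1 hwc1 he (Neg := T) (Far := univ) ?_ (subset_univ _) arm ?_
  · rw [Set.disjoint_left]
    intro z hz hz'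
    exact hz (Or.inl hz')
  · rintro ⟨x, ⟨hx1, hx2⟩, -⟩
    exact hx1 (Or.inr hx2)

/-- separation from the first blob -/
theorem sep_gam_e1 (hP : GamPar N m a1 b1 c1 a2 b2 c2) {w w1 d1 d2 e2 : ℤ} (hw : w ≤ N)
    (hw1 : w1 ≤ N) (hwc2 : w ≤ c2) (hd : d2 < e2) {T : Set (ℤ × ℤ)}
    (arm : Cn (adjS (gamQ N m a1 b1 c1 a2 b2 c2)) (T \ str b1 a2 w b1 a2)
      (lsq (gamQ N m a1 b1 c1 a2 b2 c2) (gamC N m) b1 a2 0) (str b1 a2 w1 d1 d2)) :
    ¬ Cn (adjS (gamQ N m a1 b1 c1 a2 b2 c2)) ((T ∪ str b1 a2 w1 d1 d2)ᶜ)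
      (str b1 a2 w e2 a2) (esq (gamQ N m a1 b1 c1 a2 b2 c2) (gamB a1 b1 c1)) := by
  refine incl_gam_e1 hP hw hw1 hwc2 hd (Neg := T) (Far := univ) ?_ (subset_univ _) arm ?_
  · rw [Set.disjoint_left]
    intro z hz hz'
    exact hz (Or.inl hz')
  · rintro ⟨x, ⟨hx1, hx2⟩, -⟩
    exact hx1 (Or.inr hx2)

/-- **The cells cover the strip**: a set which joins the left lip to a part of the strip contains an
arm to one of the cells `str b1 a2 (w + 1) x x`. -/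
theorem cover_gam (hP : GamPar N m a1 b1 c1 a2 b2 c2) {w : ℤ} (hw : w < N) (hwc1 : w ≤ c1)
    (hwc2 : w ≤ c2) {T Y : Set (ℤ × ℤ)} (hY : Y ⊆ str b1 a2 w b1 a2)
    (h : Cn (adjS (gamQ N m a1 b1 c1 a2 b2 c2)) T
      (lsq (gamQ N m a1 b1 c1 a2 b2 c2) (gamC N m) b1 a2 0) Y) :
    ∃ x, b1 ≤ x ∧ x < a2 ∧ Cn (adjS (gamQ N m a1 b1 c1 a2 b2 c2)) (T \ str b1 a2 w b1 a2)
      (lsq (gamQ N m a1 b1 c1 a2 b2 c2) (gamC N m) b1 a2 0) (str b1 a2 (w + 1) x x) := by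
  obtain ⟨⟨x, y⟩, hz, ⟨x', y'⟩, ⟨hz1, hz2⟩, hzz⟩ := first_entrance (lsq_str hP hw) hY h
  obtain ⟨⟨h1, h2, h3, h4⟩, h5, h6⟩ := hz2
  simp only at h1 h2 h3 h4 h5 h6
  obtain ⟨u, hu, q, ⟨hq1, hq2⟩, huq⟩ := hz
  obtain rfl : q = (x, y) := hq2
  obtain ⟨hnb, ⟨g1, g2, g3, g4⟩, -⟩ := hzz
  have hc := nb_cases hnb
  simp only [Prod.mk.injEq] at hc
  obtain ⟨hm, hab1, hab2, hc1, hc2, hmb, hba, haN, hbN, hcN1, hcN2⟩ := hP
  have hl : ¬ (b1 ≤ x ∧ x < a2 ∧ -w ≤ y ∧ y < 0) := fun hl =>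
    hq1.2 ⟨hl, hl.1, hl.2.1.le⟩
  have k1 : ¬ (a1 ≤ x ∧ x < b1 ∧ -c1 ≤ y ∧ y < 0) := g3
  have k2 : ¬ (a2 ≤ x ∧ x < b2 ∧ -c2 ≤ y ∧ y < 0) := g4
  rw [mem_gamW hm] at g2
  obtain ⟨rfl, rfl⟩ : x = x' ∧ y = -w - 1 := by omega
  exact ⟨x, h1, h2, u, hu, (x, -w - 1), ⟨hq1, ⟨⟨h1, h2, by simp only; omega,
    by simp only; omega⟩, le_rfl, le_rfl⟩⟩, huq⟩

/-- the parameters of helper148: `GAMMA(n; m, p, K)` -/
theorem gamPar_std {n m p K : ℤ} (hm : 1 ≤ m) (hn : 1 ≤ n) (hp : 2 ≤ p) (hK : 3 ≤ K)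
    (hmp : m ≤ p + 2) :
    GamPar (2 * K * (p + 1) * n) m (n * (p - 1)) (n * (p + 1)) n
      (n * K * (p - 1)) (n * K * (p + 1)) (n * K) := by
  have e1 : 0 ≤ (n - 1) * (p + 1) := mul_nonneg (by omega) (by omega)
  have e2 : 0 < n * K := by positivity
  have e3 : 0 ≤ (n * K) * (p + 1) := mul_nonneg e2.le (by omega)
  have e4 : 0 ≤ n * ((K - 3) * (p - 1)) :=
    mul_nonneg (by omega) (mul_nonneg (by omega) (by omega))
  have e5 : 0 ≤ n * (p - 2) := mul_nonneg (by omega) (by omega)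
  have e6 : 0 ≤ n * (K - 1) := mul_nonneg (by omega) (by omega)
  have e7 : 0 ≤ (n * K) * p := mul_nonneg e2.le (by omega)
  refine ⟨hm, by nlinarith, by nlinarith, hn, by omega, by nlinarith, by nlinarith, ?_, ?_, ?_, ?_⟩
  · have : 0 ≤ n * (p - 1) := mul_nonneg (by omega) (by omega)
    nlinarith
  · nlinarith
  · nlinarith
  · nlinarith

end

end Vale.Agent.P159.T1.H995
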