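import Vale.Agent.P159.T1.H995.M3

/-!
A general crossing theorem for faces of the square lattice.

`Q` is a set of unit squares (the domain), `C` is a connected set of squares outside `Q`, `B1`, `B2`
are connected sets of squares outside `Q` and `C` (the wired blobs). The right side of the domain is
the horizontal segment `{y = y0, α ≤ x ≤ β}` from a corner of `B1` to a corner of `B2`, with squares
of `Q` below and squares of `C` above; the left side consists of all other bonds between `Q` and `C`.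
-/

namespace Vale.Agent.P159.T1.H995

open Vale.Agent.P159.R2.H729 Set

/-- adjacency inside `Q` -/
def adjS (Q : Set (ℤ × ℤ)) (z w : ℤ × ℤ) : Prop := nb z w ∧ z ∈ Q ∧ w ∈ Q

/-- chains inside a set -/
def chn (S : Set (ℤ × ℤ)) : ℤ × ℤ → ℤ × ℤ → Prop :=
  Relation.ReflTransGen fun a b => nb a b ∧ a ∈ S ∧ b ∈ S

/-- potential of a closed cochain in the plane -/
lemma potentialZ {H K : ℤ → ℤ → ZMod 2} {M : ℤ} (hH : ∀ x y, M ≤ x → H x y = 0)
    (hK : ∀ x y, M ≤ x → K x y = 0) (h : ∀ x y, bdr H K x y = 0) :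
    ∃ v : ℤ → ℤ → ZMod 2, (∀ x y, v x y = H x y + v (x + 1) y) ∧
      (∀ x y, v x y = K x y + v x (y + 1)) := by
  refine ⟨fun x y => ∑ i ∈ Finset.Ico x M, H i y, ?_, ?_⟩
  · intro x y
    show ∑ i ∈ Finset.Ico x M, H i y = H x y + ∑ i ∈ Finset.Ico (x + 1) M, H i y
    by_cases hx : x < M
    · have h1 : Finset.Ico x M = insert x (Finset.Ico (x + 1) M) := by
        ext i
        simp only [Finset.mem_Ico, Finset.mem_insert]
        omega
      rw [h1, Finset.sum_insert (by simp)]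
    · rw [hH x y (by omega), Finset.Ico_eq_empty (by omega), Finset.Ico_eq_empty (by omega)]
      simp
  · intro x y
    show ∑ i ∈ Finset.Ico x M, H i y = K x y + ∑ i ∈ Finset.Ico x M, H i (y + 1)
    by_cases hx : x < M
    · have key : ∀ k : ℕ, ∀ x : ℤ, x + k = M →
          ∑ i ∈ Finset.Ico x M, H i y = K x y + ∑ i ∈ Finset.Ico x M, H i (y + 1) := by
        intro k
        induction k with
        | zero =>
          intro x hk
          have : x = M := by simpa using hk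
          subst this
          simp [hK]
        | succ k ih =>
          intro x hk
          have hxM : x < M := by push_cast at hk; omega
          have h2 := ih (x + 1) (by push_cast at hk; omega)
          have h3 : Finset.Ico x M = insert x (Finset.Ico (x + 1) M) := by
            ext i
            simp only [Finset.mem_Ico, Finset.mem_insert]
            omega
          rw [h3, Finset.sum_insert (by simp), Finset.sum_insert (by simp)]
          have h4 := h x y
          unfold bdr at h4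
          have h5 := z2_add_self (K x y)
          have h6 := z2_add_self (H x (y + 1))
          have h7 := z2_add_self (K (x + 1) y)
          linear_combination h2 + h4 - h5 - h6
      exact key (M - x).toNat x (by omega)
    · rw [hK x y (by omega), Finset.Ico_eq_empty (by omega)]
      simp

lemma chn_mono {S S' : Set (ℤ × ℤ)} (h : S ⊆ S') {p q : ℤ × ℤ} (hpq : chn S p q) :
    chn S' p q :=
  Relation.ReflTransGen.mono (p := fun a b => nb a b ∧ a ∈ S' ∧ b ∈ S')
    (fun _ _ e => ⟨e.1, h e.2.1, h e.2.2⟩) _ _ hpq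

/-- a chain is bounded -/
lemma chn_bdd {S : Set (ℤ × ℤ)} {p q : ℤ × ℤ} (h : chn S p q) :
    ∃ M : ℤ, chn (S ∩ {z | z.1 < M}) p q := by
  unfold chn at h
  induction h with
  | refl => exact ⟨0, .refl⟩
  | @tail b c _ hbc ih =>
    obtain ⟨M, hM⟩ := ih
    refine ⟨max M (max (b.1 + 1) (c.1 + 1)), ?_⟩
    refine Relation.ReflTransGen.tail (b := b) (chn_mono ?_ hM) ⟨hbc.1, ⟨hbc.2.1, ?_⟩, hbc.2.2, ?_⟩
    · rintro z ⟨h1, h2⟩
      have h2' : z.1 < M := h2
      refine ⟨h1, ?_⟩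
      show z.1 < _
      exact lt_of_lt_of_le h2' (le_max_left _ _)
    · show b.1 < _
      exact lt_of_lt_of_le (by omega : b.1 < b.1 + 1)
        ((le_max_left _ _).trans (le_max_right _ _))
    · show c.1 < _
      exact lt_of_lt_of_le (by omega : c.1 < c.1 + 1)
        ((le_max_right _ _).trans (le_max_right _ _))

/-- a chain of squares gives a bounded cochain -/
lemma chain_cochain' {S : Set (ℤ × ℤ)} {p q : ℤ × ℤ} (h : chn S p q) :
    ∃ H K : ℤ → ℤ → ZMod 2, (∀ x y, bdr H K x y = sg p.1 p.2 x y + sg q.1 q.2 x y) ∧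
      (∀ x y, H x y ≠ 0 → (x, y - 1) ∈ S ∧ (x, y) ∈ S) ∧
      (∀ x y, K x y ≠ 0 → (x - 1, y) ∈ S ∧ (x, y) ∈ S) ∧
      ∃ M : ℤ, ∀ x y, M ≤ x → H x y = 0 ∧ K x y = 0 := by
  obtain ⟨M, hM⟩ := chn_bdd h
  obtain ⟨H, K, h1, h2, h3⟩ := chain_cochain hM
  refine ⟨H, K, h1, fun x y e => ⟨(h2 x y e).1.1, (h2 x y e).2.1⟩,
    fun x y e => ⟨(h3 x y e).1.1, (h3 x y e).2.1⟩, M, fun x y hx => ⟨?_, ?_⟩⟩
  · by_contra e
    have : x < M := (h2 x y e).2.2
    omega
  · by_contra e
    have : x < M := (h3 x y e).2.2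
    omega

/-- values of a function on neighbouring squares on which it is constant -/
lemma nb_const {v : ℤ → ℤ → ZMod 2} {z w : ℤ × ℤ} (h : nb z w)
    (hz : v (z.1 + 1) z.2 = v z.1 z.2 ∧ v z.1 (z.2 + 1) = v z.1 z.2 ∧
      v (z.1 + 1) (z.2 + 1) = v z.1 z.2)
    (hw : v (w.1 + 1) w.2 = v w.1 w.2 ∧ v w.1 (w.2 + 1) = v w.1 w.2 ∧
      v (w.1 + 1) (w.2 + 1) = v w.1 w.2) : v z.1 z.2 = v w.1 w.2 := by
  rcases nb_cases h with h8 | h8 | h8 | h8
  · rw [h8]; exact hz.1.symm
  · rw [h8]; exact hw.1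
  · rw [h8]; exact hz.2.1.symm
  · rw [h8]; exact hw.2.1

/-- the right side: squares of the row below the segment -/
def rsq (α β y0 : ℤ) : Set (ℤ × ℤ) := {z | z.2 = y0 - 1 ∧ α ≤ z.1 ∧ z.1 < β}

/-- the left side: squares of `Q` next to `C`, not across the segment -/
def lsq (Q C : Set (ℤ × ℤ)) (α β y0 : ℤ) : Set (ℤ × ℤ) :=
  {z | z ∈ Q ∧ ∃ w ∈ C, nb z w ∧ ¬ (z.2 = y0 - 1 ∧ w = (z.1, y0) ∧ α ≤ z.1 ∧ z.1 < β)}

/-- the squares of `Q` next to `B` -/
def esq (Q B : Set (ℤ × ℤ)) : Set (ℤ × ℤ) := {z | z ∈ Q ∧ ∃ w ∈ B, nb z w}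

/-- **The general crossing theorem.** -/
theorem cross_gen {Q C B1 B2 : Set (ℤ × ℤ)} {α β y0 : ℤ}
    (hQC : Disjoint Q C) (hQ1 : Disjoint Q B1) (hQ2 : Disjoint Q B2)
    (hC1 : Disjoint C B1) (hC2 : Disjoint C B2)
    (hC : ∀ z ∈ C, ∀ w ∈ C, chn C z w)
    (hB1 : ∀ z ∈ B1, chn B1 z (α - 1, y0 - 1)) (hB2 : ∀ z ∈ B2, chn B2 z (β, y0 - 1))
    (hR : ∀ x, α ≤ x → x < β → (x, y0 - 1) ∈ Q ∧ (x, y0) ∈ C)
    (h1 : (α - 1, y0 - 1) ∈ B1) (h2 : (β, y0 - 1) ∈ B2) :
    Cross (adjS Q) (lsq Q C α β y0) (rsq α β y0) (esq Q B1) (esq Q B2) := by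
  intro S S' hS hS'
  by_contra hdis
  rw [not_nonempty_iff_eq_empty] at hdis
  have hd : ∀ z, z ∈ S → z ∉ S' := fun z hz hz' => by
    have : z ∈ S ∩ S' := ⟨hz, hz'⟩
    rw [hdis] at this
    exact this
  obtain ⟨p, ⟨hpS, hpQ, wp, hwp, hpwp, hpR⟩, q, ⟨hqS, hqR⟩, hpq⟩ := hS
  obtain ⟨q1, q2⟩ := q
  obtain ⟨rfl, hq1, hq2⟩ : q2 = y0 - 1 ∧ α ≤ q1 ∧ q1 < β := hqR
  -- the four cochains
  obtain ⟨H1, K1, b1, c1, d1, M1, m1⟩ := chain_cochain' (S := S ∩ Q) (p := p) (q := (q1, y0 - 1))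
    (Relation.ReflTransGen.mono (p := fun a b => nb a b ∧ a ∈ S ∩ Q ∧ b ∈ S ∩ Q)
      (fun _ _ h => ⟨h.1.1, ⟨h.2.1, h.1.2.1⟩, ⟨h.2.2, h.1.2.2⟩⟩) _ _ hpq)
  obtain ⟨H2, K2, b2, c2, d2, M2, m2⟩ := chain_cochain' (hC (q1, y0) (hR q1 hq1 hq2).2 wp hwp)
  obtain ⟨H3, K3, b3, c3, d3, M3, m3⟩ := chain_cochain' (S := {p, wp}) (p := p) (q := wp)
    (.single ⟨hpwp, Or.inl rfl, Or.inr rfl⟩)
  have b4 : ∀ x y, bdr (sg q1 y0) (fun _ _ => 0) x y =
      sg q1 (y0 - 1) x y + sg q1 y0 x y := by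
    intro x y
    simp only [bdr, sg_shift_y]
    ring
  set H' : ℤ → ℤ → ZMod 2 := fun x y => H1 x y + H2 x y + H3 x y + sg q1 y0 x y with hH'
  set K' : ℤ → ℤ → ZMod 2 := fun x y => K1 x y + K2 x y + K3 x y with hK'
  have hclosed : ∀ x y, bdr H' K' x y = 0 := by
    intro x y
    have e1 := b1 x y
    have e2 := b2 x y
    have e3 := b3 x y
    have e4 := b4 x y
    simp only [bdr] at e1 e2 e3 e4 ⊢
    simp only [hH', hK']
    have e5 := z2_add_self (sg p.1 p.2 x y)
    have e6 := z2_add_self (sg wp.1 wp.2 x y)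
    have e7 := z2_add_self (sg q1 y0 x y)
    have e8 := z2_add_self (sg q1 (y0 - 1) x y)
    linear_combination e1 + e2 + e3 + e4 + e5 + e6 + e7 + e8
  obtain ⟨v, hv1, hv2⟩ := potentialZ (H := H') (K := K') (M := max (max M1 M2) (max M3 (q1 + 1)))
    (fun x y hx => by
      have h5 : M1 ≤ x := le_trans ((le_max_left _ _).trans (le_max_left _ _)) hx
      have h6 : M2 ≤ x := le_trans ((le_max_right _ _).trans (le_max_left _ _)) hx
      have h7 : M3 ≤ x := le_trans ((le_max_left _ _).trans (le_max_right _ _)) hx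
      have h8 : q1 + 1 ≤ x := le_trans ((le_max_right _ _).trans (le_max_right _ _)) hx
      simp only [hH']
      rw [(m1 x y h5).1, (m2 x y h6).1, (m3 x y h7).1]
      unfold sg
      rw [if_neg (by omega)]
      ring)
    (fun x y hx => by
      have h5 : M1 ≤ x := le_trans ((le_max_left _ _).trans (le_max_left _ _)) hx
      have h6 : M2 ≤ x := le_trans ((le_max_right _ _).trans (le_max_left _ _)) hx
      have h7 : M3 ≤ x := le_trans ((le_max_left _ _).trans (le_max_right _ _)) hx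
      simp only [hK']
      rw [(m1 x y h5).2, (m2 x y h6).2, (m3 x y h7).2]
      ring) hclosed
  have hqC : (q1, y0) ∈ C := (hR q1 hq1 hq2).2
  have hqQ : (q1, y0 - 1) ∈ Q := (hR q1 hq1 hq2).1
  -- supports
  have sH : ∀ x y, H' x y ≠ 0 → (x, y - 1) ∈ (S ∩ Q) ∪ C ∧ (x, y) ∈ (S ∩ Q) ∪ C := by
    intro x y h
    have aux : ∀ a b c d : ZMod 2, a + b + c + d ≠ 0 → a ≠ 0 ∨ b ≠ 0 ∨ c ≠ 0 ∨ d ≠ 0 := by decide
    rcases aux _ _ _ _ h with h5 | h5 | h5 | h5
    · exact ⟨Or.inl (c1 x y h5).1, Or.inl (c1 x y h5).2⟩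
    · exact ⟨Or.inr (c2 x y h5).1, Or.inr (c2 x y h5).2⟩
    · have h6 := c3 x y h5
      have h7 : ∀ z ∈ ({p, wp} : Set (ℤ × ℤ)), z ∈ (S ∩ Q) ∪ C := by
        rintro z (rfl | rfl)
        · exact Or.inl ⟨hpS, hpQ⟩
        · exact Or.inr hwp
      exact ⟨h7 _ h6.1, h7 _ h6.2⟩
    · obtain ⟨rfl, rfl⟩ := sg_ne h5
      exact ⟨Or.inl ⟨hqS, hqQ⟩, Or.inr hqC⟩
  have sK : ∀ x y, K' x y ≠ 0 → (x - 1, y) ∈ (S ∩ Q) ∪ C ∧ (x, y) ∈ (S ∩ Q) ∪ C := by
    intro x y h
    have aux : ∀ a b c : ZMod 2, a + b + c ≠ 0 → a ≠ 0 ∨ b ≠ 0 ∨ c ≠ 0 := by decide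
    rcases aux _ _ _ h with h5 | h5 | h5
    · exact ⟨Or.inl (d1 x y h5).1, Or.inl (d1 x y h5).2⟩
    · exact ⟨Or.inr (d2 x y h5).1, Or.inr (d2 x y h5).2⟩
    · have h6 := d3 x y h5
      have h7 : ∀ z ∈ ({p, wp} : Set (ℤ × ℤ)), z ∈ (S ∩ Q) ∪ C := by
        rintro z (rfl | rfl)
        · exact Or.inl ⟨hpS, hpQ⟩
        · exact Or.inr hwp
      exact ⟨h7 _ h6.1, h7 _ h6.2⟩
  have hfree : ∀ z : ℤ × ℤ, z ∉ (S ∩ Q) ∪ C → v (z.1 + 1) z.2 = v z.1 z.2 ∧
      v z.1 (z.2 + 1) = v z.1 z.2 ∧ v (z.1 + 1) (z.2 + 1) = v z.1 z.2 := by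
    rintro ⟨x, y⟩ hz
    have k1 : H' x y = 0 := by
      by_contra h
      exact hz (sH x y h).2
    have k2 : H' x (y + 1) = 0 := by
      by_contra h
      have := (sH x (y + 1) h).1
      rw [show y + 1 - 1 = y by ring] at this
      exact hz this
    have k3 : K' x y = 0 := by
      by_contra h
      exact hz (sK x y h).2
    have k4 : K' (x + 1) y = 0 := by
      by_contra h
      have := (sK (x + 1) y h).1
      rw [show x + 1 - 1 = x by ring] at this
      exact hz this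
    have m1 := hv1 x y
    have m2 := hv2 x y
    have m3 := hv2 (x + 1) y
    rw [k1, zero_add] at m1
    rw [k3, zero_add] at m2
    rw [k4, zero_add] at m3
    refine ⟨m1.symm, m2.symm, ?_⟩
    rw [← m3, ← m1]
  -- blobs
  have hblob : ∀ B : Set (ℤ × ℤ), Disjoint Q B → Disjoint C B → ∀ z w, chn B z w →
      z ∈ B → v z.1 z.2 = v w.1 w.2 ∧ w ∈ B := by
    intro B e1 e2 z w hzw hz
    unfold chn at hzw
    induction hzw with
    | refl => exact ⟨rfl, hz⟩
    | @tail a b _ hab ih =>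
      have hfB : ∀ z ∈ B, z ∉ (S ∩ Q) ∪ C := by
        rintro z hz (h5 | h5)
        · exact Set.disjoint_left.1 e1 h5.2 hz
        · exact Set.disjoint_left.1 e2 h5 hz
      exact ⟨ih.1.trans (nb_const hab.1 (hfree a (hfB a hab.2.1)) (hfree b (hfB b hab.2.2))),
        hab.2.2⟩
  have hfB1 : ∀ z ∈ B1, z ∉ (S ∩ Q) ∪ C := by
    rintro z hz (h5 | h5)
    · exact Set.disjoint_left.1 hQ1 h5.2 hz
    · exact Set.disjoint_left.1 hC1 h5 hz
  have hfB2 : ∀ z ∈ B2, z ∉ (S ∩ Q) ∪ C := by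
    rintro z hz (h5 | h5)
    · exact Set.disjoint_left.1 hQ2 h5.2 hz
    · exact Set.disjoint_left.1 hC2 h5 hz
  -- the right side
  have hrow : ∀ k : ℕ, ∀ x : ℤ, α ≤ x → x + k = β →
      v x y0 = v β y0 + if x ≤ q1 then 1 else 0 := by
    intro k
    induction k with
    | zero =>
      intro x _ hk
      rw [show x = β by simpa using hk, if_neg (by omega), add_zero]
    | succ k ih =>
      intro x hx hk
      push_cast at hk
      obtain ⟨g1, g2⟩ := hR x hx (by omega)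
      have h3 := hv1 x y0
      have h4 : H' x y0 = if x = q1 then 1 else 0 := by
        simp only [hH']
        have e1 : H1 x y0 = 0 := by
          by_contra h
          exact Set.disjoint_left.1 hQC (c1 x y0 h).2.2 g2
        have e2 : H2 x y0 = 0 := by
          by_contra h
          exact Set.disjoint_left.1 hQC g1 (c2 x y0 h).1
        have e3 : H3 x y0 = 0 := by
          by_contra h
          obtain ⟨h5, h6⟩ := c3 x y0 h
          have h7 : (x, y0 - 1) = p := by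
            rcases h5 with h5 | h5
            · exact h5
            · exact absurd (h5 ▸ g1) (Set.disjoint_right.1 hQC hwp)
          have h8 : (x, y0) = wp := by
            rcases h6 with h6 | h6
            · exact absurd (h6 ▸ g2) (Set.disjoint_left.1 hQC hpQ)
            · exact h6
          refine hpR ⟨by rw [← h7], ?_, by rw [← h7]; exact hx, by rw [← h7]; simp only; omega⟩
          rw [← h7, ← h8]
        rw [e1, e2, e3]
        unfold sg
        simp
      rw [h4] at h3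
      rw [h3, ih (x + 1) (by omega) (by omega)]
      rcases lt_trichotomy x q1 with h5 | h5 | h5
      · rw [if_neg (by omega), if_pos (by omega), if_pos (by omega), zero_add]
      · rw [if_pos h5, if_neg (by omega), if_pos (by omega)]
        ring
      · rw [if_neg (by omega), if_neg (by omega), if_neg (by omega), zero_add]
  have hone : v α y0 = v β y0 + 1 := by
    have := hrow (β - α).toNat α le_rfl (by omega)
    rw [if_pos hq1] at this
    exact this
  have hα : v (α - 1) (y0 - 1) = v α y0 := by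
    have := (hfree _ (hfB1 _ h1)).2.2
    simp only [sub_add_cancel] at this
    exact this.symm
  have hβ : v β (y0 - 1) = v β y0 := by
    have := (hfree _ (hfB2 _ h2)).2.1
    simp only [sub_add_cancel] at this
    exact this.symm
  -- the second chain
  obtain ⟨c, ⟨hcS, hcQ, w, hw, hcw⟩, d, ⟨hdS, hdQ, w', hw', hdw⟩, hcd⟩ := hS'
  have hfree' : ∀ z : ℤ × ℤ, z ∈ S' → z ∈ Q → z ∉ (S ∩ Q) ∪ C := by
    rintro z hz hzQ (h5 | h5)
    · exact hd z h5.1 hz
    · exact Set.disjoint_left.1 hQC hzQ h5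
  have hchain : v c.1 c.2 = v d.1 d.2 := by
    have hcc : ∀ z, Relation.ReflTransGen (fun a b => adjS Q a b ∧ a ∈ S' ∧ b ∈ S') c z →
        v c.1 c.2 = v z.1 z.2 := by
      intro z hz
      induction hz with
      | refl => rfl
      | @tail e f _ hef ih =>
        obtain ⟨⟨h3, h4, h5⟩, h6, h7⟩ := hef
        exact ih.trans (nb_const h3 (hfree e (hfree' e h6 h4)) (hfree f (hfree' f h7 h5)))
    exact hcc d hcd
  have hc : v c.1 c.2 = v α y0 := by
    rw [nb_const hcw (hfree c (hfree' c hcS hcQ)) (hfree w (hfB1 w hw)),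
      (hblob B1 hQ1 hC1 w _ (hB1 w hw) hw).1]
    exact hα
  have hdd : v d.1 d.2 = v β y0 := by
    rw [nb_const hdw (hfree d (hfree' d hdS hdQ)) (hfree w' (hfB2 w' hw')),
      (hblob B2 hQ2 hC2 w' _ (hB2 w' hw') hw').1]
    exact hβ
  have : v β y0 + 1 = v β y0 := by rw [← hone, ← hc, hchain, hdd]
  have h9 : (1 : ZMod 2) = 0 := by linear_combination this
  revert h9
  decide

end Vale.Agent.P159.T1.H995
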