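import Vale.Agent.P159.T1.H995.M3

/-!
Planar inclusions for plans 108 and 110 of P159 T1.

`incl` : on any graph with the crossing property, an arm of `Neg` vertices from the side `L` to the
cell `C1` outside the layer `Lay` and the absence of a chain of `Pos` vertices from `C1` to `Far`
exclude a chain of `Pos` vertices from the lower part `DL` to the upper part `DU` of the layer.
`incl_end` : the same with a whole side instead of `DU`.
-/

namespace Vale.Agent.P159.T1.H995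

open Vale.Agent.P159.R2.H729 Set

section abs

variable {V : Type*} {adj : V → V → Prop}

/-- chains can be composed -/
lemma Cn_trans {S X Y : Set V} {z : V} (h1 : Cn adj S X {z}) (h2 : Cn adj S {z} Y) :
    Cn adj S X Y := by
  obtain ⟨x, hx, z', ⟨_, hz'⟩, h3⟩ := h1
  obtain ⟨z'', ⟨_, hz''⟩, y, hy, h4⟩ := h2
  obtain rfl : z' = z := hz'
  obtain rfl : z'' = z' := hz''
  exact ⟨x, hx, y, hy, h3.trans h4⟩

lemma Cn_symm (hs : ∀ a b, adj a b → adj b a) {S X Y : Set V} (h : Cn adj S X Y) :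
    Cn adj S Y X := by
  obtain ⟨x, hx, y, hy, h1⟩ := h
  refine ⟨y, hy, x, hx, ?_⟩
  clear hy
  induction h1 with
  | refl => exact .refl
  | @tail a b _ hab ih => exact Relation.ReflTransGen.head ⟨hs _ _ hab.1, hab.2.2, hab.2.1⟩ ih

/-- the cluster of a set -/
def Clu (adj : V → V → Prop) (S X : Set V) : Set V := {v | Cn adj S X {v}}

lemma Cn_Clu {S X Y : Set V} (h : Cn adj S X Y) : Cn adj (Clu adj S X) X Y := by
  obtain ⟨x, hx, y, hy, h1⟩ := h
  have hx' : x ∈ Clu adj S X := ⟨x, hx, x, ⟨hx.1, rfl⟩, .refl⟩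
  have key : ∀ z, Relation.ReflTransGen (fun a b => adj a b ∧ a ∈ S ∧ b ∈ S) x z →
      z ∈ Clu adj S X ∧ Relation.ReflTransGen (fun a b => adj a b ∧ a ∈ Clu adj S X ∧
        b ∈ Clu adj S X) x z := by
    intro z hz
    induction hz with
    | refl => exact ⟨hx', .refl⟩
    | @tail a b hxa hab ih =>
      have hb : b ∈ Clu adj S X := ⟨x, hx, b, ⟨hab.2.2, rfl⟩, hxa.tail hab⟩
      exact ⟨hb, ih.2.tail ⟨hab.1, ih.1, hb⟩⟩
  obtain ⟨h2, h3⟩ := key y h1
  exact ⟨x, ⟨hx', hx.2⟩, y, ⟨h2, hy.2⟩, h3⟩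

lemma Clu_sub {S X : Set V} : Clu adj S X ⊆ S := by
  rintro v ⟨x, hx, v', ⟨h1, h2⟩, _⟩
  obtain rfl : v' = v := h2
  exact h1

variable {L R B U : Set V}

/-- **The planar inclusion**, abstract form. -/
theorem incl (hc : Cross adj L R B U) (hs : ∀ a b, adj a b → adj b a)
    {Pos Neg Lay C1 DL DU Far : Set V} (hPN : Disjoint Pos Neg) (hDL : DL ⊆ Lay)
    (hDU : DU ⊆ Lay) (h1 : Disjoint C1 DL) (h2 : Disjoint C1 DU)
    (hC1R : ∀ z ∈ C1, Cn adj C1 {z} R) (hDLB : ∀ a ∈ DL, Cn adj DL {a} B)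
    (hDUU : ∀ a ∈ DU, Cn adj DU {a} U) (hfar : DL ⊆ Far)
    (arm : Cn adj (Neg \ Lay) L C1) (hH : ¬ Cn adj Pos C1 Far) : ¬ Cn adj Pos DL DU := by
  intro hP
  -- the left-right chain
  have e1 : Cn adj ((Neg \ Lay) ∪ C1) L R := by
    obtain ⟨x, hx, z, hz, hxz⟩ := arm
    have e2 : Cn adj ((Neg \ Lay) ∪ C1) L {z} :=
      Cn.mono ⟨x, hx, z, ⟨hz.1, rfl⟩, hxz⟩ subset_union_left
    exact Cn_trans e2 ((hC1R z hz.2).mono subset_union_right)
  -- the bottom-top chain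
  have e2 : Cn adj (Clu adj Pos DL ∪ DL ∪ DU) B U := by
    obtain ⟨x, hx, y, hy, hxy⟩ := Cn_Clu hP
    have e3 : Cn adj (Clu adj Pos DL ∪ DL ∪ DU) B {x} :=
      Cn_symm hs ((hDLB x hx.2).mono (subset_union_right.trans subset_union_left))
    have e4 : Cn adj (Clu adj Pos DL ∪ DL ∪ DU) {x} {y} :=
      Cn.mono ⟨x, ⟨hx.1, rfl⟩, y, ⟨hy.1, rfl⟩, hxy⟩
        (subset_union_left.trans subset_union_left)
    have e5 : Cn adj (Clu adj Pos DL ∪ DL ∪ DU) {y} U := (hDUU y hy.2).mono subset_union_right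
    exact Cn_trans e3 (Cn_trans e4 e5)
  obtain ⟨q, hq1, hq2⟩ := hc _ _ e1 e2
  rcases hq1 with hq1 | hq1
  · rcases hq2 with (hq2 | hq2) | hq2
    · exact Set.disjoint_left.1 hPN (Clu_sub hq2) hq1.1
    · exact hq1.2 (hDL hq2)
    · exact hq1.2 (hDU hq2)
  · rcases hq2 with (hq2 | hq2) | hq2
    · refine hH (Cn_symm hs ?_)
      obtain ⟨x, hx, y, ⟨hy1, hy2⟩, hxy⟩ := hq2
      obtain rfl : y = q := hy2
      exact ⟨x, ⟨hx.1, hfar hx.2⟩, y, ⟨hy1, hq1⟩, hxy⟩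
    · exact Set.disjoint_left.1 h1 hq1 hq2
    · exact Set.disjoint_left.1 h2 hq1 hq2

/-- **The planar inclusion** at a corner: `U` is a whole side. -/
theorem incl_end (hc : Cross adj L R B U) (hs : ∀ a b, adj a b → adj b a)
    {Pos Neg Lay C1 DL Far : Set V} (hPN : Disjoint Pos Neg) (hDL : DL ⊆ Lay)
    (h1 : Disjoint C1 DL) (hC1R : ∀ z ∈ C1, Cn adj C1 {z} R)
    (hDLB : ∀ a ∈ DL, Cn adj DL {a} B) (hfar : DL ⊆ Far)
    (arm : Cn adj (Neg \ Lay) L C1) (hH : ¬ Cn adj Pos C1 Far) : ¬ Cn adj Pos DL U := by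
  intro hP
  have e1 : Cn adj ((Neg \ Lay) ∪ C1) L R := by
    obtain ⟨x, hx, z, hz, hxz⟩ := arm
    have e2 : Cn adj ((Neg \ Lay) ∪ C1) L {z} :=
      Cn.mono ⟨x, hx, z, ⟨hz.1, rfl⟩, hxz⟩ subset_union_left
    exact Cn_trans e2 ((hC1R z hz.2).mono subset_union_right)
  have e2 : Cn adj (Clu adj Pos DL ∪ DL) B U := by
    obtain ⟨x, hx, y, hy, hxy⟩ := Cn_Clu hP
    have e3 : Cn adj (Clu adj Pos DL ∪ DL) B {x} :=
      Cn_symm hs ((hDLB x hx.2).mono subset_union_right)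
    have e4 : Cn adj (Clu adj Pos DL ∪ DL) {x} U :=
      Cn.mono ⟨x, ⟨hx.1, rfl⟩, y, hy, hxy⟩ subset_union_left
    exact Cn_trans e3 e4
  obtain ⟨q, hq1, hq2⟩ := hc _ _ e1 e2
  rcases hq1 with hq1 | hq1
  · rcases hq2 with hq2 | hq2
    · exact Set.disjoint_left.1 hPN (Clu_sub hq2) hq1.1
    · exact hq1.2 (hDL hq2)
  · rcases hq2 with hq2 | hq2
    · refine hH (Cn_symm hs ?_)
      obtain ⟨x, hx, y, ⟨hy1, hy2⟩, hxy⟩ := hq2
      obtain rfl : y = q := hy2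
      exact ⟨x, ⟨hx.1, hfar hx.2⟩, y, ⟨hy1, hq1⟩, hxy⟩
    · exact Set.disjoint_left.1 h1 hq1 hq2

end abs

section conc

/-! ### the layer at the right lip of the slit annulus -/

lemma nb_symm {z w : ℤ × ℤ} (h : nb z w) : nb w z := by
  unfold nb at h ⊢
  rw [abs_sub_comm w.1 z.1, abs_sub_comm w.2 z.2]
  exact h

lemma adjQ_symm {n N : ℤ} (z w : ℤ × ℤ) (h : adjQ n N z w) : adjQ n N w z :=
  ⟨nb_symm h.1, h.2.2, h.2.1⟩

/-- the squares of the columns `1, …, w` above the hole, in the rows `a ≤ y ≤ b` -/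
def lay (n N w a b : ℤ) : Set (ℤ × ℤ) :=
  {z | (1 ≤ z.1 ∧ z.1 ≤ w ∧ n ≤ z.2 ∧ z.2 < N) ∧ a ≤ z.2 ∧ z.2 ≤ b}

lemma lay_sub_QS {n N w a b : ℤ} (hn : 1 ≤ n) (hw : w < N) :
    lay n N w a b ⊆ QS n N := by
  rintro ⟨x, y⟩ ⟨⟨h1, h2, h3, h4⟩, -, -⟩
  simp only at h1 h2 h3 h4
  refine ⟨⟨?_, ?_, ?_, ?_⟩, ?_, ?_⟩
  · simp only; omega
  · simp only; omega
  · simp only; omega
  · simp only; omega
  · rintro ⟨-, -, -, h5⟩
    simp only at h5
    omega
  · rintro ⟨h5, -⟩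
    simp only at h5
    omega

/-- moving straight to the lip -/
lemma lay_lip {n N w a b : ℤ} (hn : 1 ≤ n) (hw : w < N) {z : ℤ × ℤ}
    (hz : z ∈ lay n N w a b) : Cn (adjQ n N) (lay n N w a b) {z} (lipR n N) := by
  obtain ⟨x, y⟩ := z
  obtain ⟨⟨h1, h2, h3, h4⟩, h5, h6⟩ := hz
  simp only at h1 h2 h3 h4 h5 h6
  have hm : ∀ i, 1 ≤ i → i ≤ x → (i, y) ∈ lay n N w a b := fun i hi hix =>
    ⟨⟨hi, le_trans hix h2, h3, h4⟩, h5, h6⟩
  have key : ∀ k : ℕ, (k : ℤ) + 1 ≤ x →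
      Relation.ReflTransGen (fun a' b' => adjQ n N a' b' ∧ a' ∈ lay n N w a b ∧
        b' ∈ lay n N w a b) (x, y) (x - k, y) := by
    intro k
    induction k with
    | zero => intro _; simpa using Relation.ReflTransGen.refl
    | succ k ih =>
      intro hk
      push_cast at hk ⊢
      refine (ih (by omega)).tail ⟨⟨?_, lay_sub_QS hn hw (hm _ (by omega) (by omega)),
        lay_sub_QS hn hw (hm _ (by omega) (by omega))⟩, hm _ (by omega) (by omega),
        hm _ (by omega) (by omega)⟩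
      unfold nb
      simp only [sub_self, abs_zero, add_zero]
      rw [show x - (k : ℤ) - (x - ((k : ℤ) + 1)) = 1 by ring, abs_one]
  have h7 := key (x - 1).toNat (by omega)
  rw [show x - ((x - 1).toNat : ℤ) = 1 by omega] at h7
  exact ⟨(x, y), ⟨hm x h1 le_rfl, rfl⟩, (1, y), ⟨hm 1 le_rfl h1, rfl, h3, h4⟩, h7⟩

/-- moving straight down to the inner end -/
lemma lay_in {n N w b : ℤ} (hn : 1 ≤ n) (hw : w < n) (hN : n < N) {z : ℤ × ℤ}
    (hz : z ∈ lay n N w n b) : Cn (adjQ n N) (lay n N w n b) {z} (inS n N) := by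
  obtain ⟨x, y⟩ := z
  obtain ⟨⟨h1, h2, h3, h4⟩, h5, h6⟩ := hz
  simp only at h1 h2 h3 h4 h5 h6
  have hm : ∀ j, n ≤ j → j ≤ y → (x, j) ∈ lay n N w n b := fun j hj hjy =>
    ⟨⟨h1, h2, hj, lt_of_le_of_lt hjy h4⟩, hj, le_trans hjy h6⟩
  have key : ∀ k : ℕ, n + (k : ℤ) ≤ y →
      Relation.ReflTransGen (fun a' b' => adjQ n N a' b' ∧ a' ∈ lay n N w n b ∧
        b' ∈ lay n N w n b) (x, y) (x, y - k) := by
    intro k
    induction k with
    | zero => intro _; simpa using Relation.ReflTransGen.refl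
    | succ k ih =>
      intro hk
      push_cast at hk ⊢
      refine (ih (by omega)).tail ⟨⟨?_, lay_sub_QS hn (by omega) (hm _ (by omega) (by omega)),
        lay_sub_QS hn (by omega) (hm _ (by omega) (by omega))⟩, hm _ (by omega) (by omega),
        hm _ (by omega) (by omega)⟩
      unfold nb
      simp only [sub_self, abs_zero, zero_add]
      rw [show y - (k : ℤ) - (y - ((k : ℤ) + 1)) = 1 by ring, abs_one]
  have h7 := key (y - n).toNat (by omega)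
  rw [show y - ((y - n).toNat : ℤ) = n by omega] at h7
  refine ⟨(x, y), ⟨hm y h3 le_rfl, rfl⟩, (x, n), ⟨hm n le_rfl h3,
    lay_sub_QS hn (by omega) (hm n le_rfl h3), (x, n - 1), ⟨?_, ?_, ?_, ?_⟩, ?_⟩, h7⟩
  · simp only; omega
  · simp only; omega
  · simp only; omega
  · simp only; omega
  · unfold nb
    simp

/-- moving straight up to the outer end -/
lemma lay_out {n N w a : ℤ} (hn : 1 ≤ n) (hw : w < N) {z : ℤ × ℤ}
    (hz : z ∈ lay n N w a N) : Cn (adjQ n N) (lay n N w a N) {z} (outS n N) := by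
  obtain ⟨x, y⟩ := z
  obtain ⟨⟨h1, h2, h3, h4⟩, h5, h6⟩ := hz
  simp only at h1 h2 h3 h4 h5 h6
  have hm : ∀ j, y ≤ j → j < N → (x, j) ∈ lay n N w a N := fun j hj hjN =>
    ⟨⟨h1, h2, le_trans h3 hj, hjN⟩, le_trans h5 hj, hjN.le⟩
  have key : ∀ k : ℕ, y + (k : ℤ) < N →
      Relation.ReflTransGen (fun a' b' => adjQ n N a' b' ∧ a' ∈ lay n N w a N ∧
        b' ∈ lay n N w a N) (x, y) (x, y + k) := by
    intro k
    induction k with
    | zero => intro _; simpa using Relation.ReflTransGen.refl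
    | succ k ih =>
      intro hk
      push_cast at hk ⊢
      refine (ih (by omega)).tail ⟨⟨?_, lay_sub_QS hn hw (hm _ (by omega) (by omega)),
        lay_sub_QS hn hw (hm _ (by omega) (by omega))⟩, hm _ (by omega) (by omega),
        hm _ (by omega) (by omega)⟩
      unfold nb
      simp only [sub_self, abs_zero, zero_add]
      rw [show y + (k : ℤ) - (y + ((k : ℤ) + 1)) = -1 by ring, abs_neg, abs_one]
  have h7 := key (N - 1 - y).toNat (by omega)
  rw [show y + ((N - 1 - y).toNat : ℤ) = N - 1 by omega] at h7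
  refine ⟨(x, y), ⟨hm y le_rfl h4, rfl⟩, (x, N - 1), ⟨hm (N - 1) (by omega) (by omega),
    lay_sub_QS hn hw (hm (N - 1) (by omega) (by omega)), (x, N), ?_, ?_⟩, h7⟩
  · rintro ⟨-, -, -, h8⟩
    simp only at h8
    omega
  · unfold nb
    simp

/-- **The planar inclusion in the slit annulus.** `lay n N w n N` is the layer, the charges are
carried by the rows `y ≤ b1` and `y ≥ a2`, the cell `C1` consists of the columns `1, …, w1` in the
rows `[c1, c2]`, `b1 < c1`, `c2 < a2`; `Far` contains the carrier of the lower charges. -/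
theorem incl_slit {n N w w1 b1 c1 c2 a2 : ℤ} (hn : 1 ≤ n) (hN : n < N) (hw : w < n)
    (hw1 : w1 < N) (hb : b1 < c1) (hc : c2 < a2) {Pos Neg Far : Set (ℤ × ℤ)}
    (hPN : Disjoint Pos Neg) (hfar : lay n N w n b1 ⊆ Far)
    (arm : Cn (adjQ n N) (Neg \ lay n N w n N) (lipL n N) (lay n N w1 c1 c2))
    (hH : ¬ Cn (adjQ n N) Pos (lay n N w1 c1 c2) Far) :
    ¬ Cn (adjQ n N) Pos (lay n N w n b1) (lay n N w a2 N) := by
  refine incl (cross_slit hn hN) adjQ_symm hPN (Lay := lay n N w n N) ?_ ?_ ?_ ?_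
    (fun z hz => lay_lip hn hw1 hz) (fun z hz => lay_in hn hw hN hz)
    (fun z hz => lay_out hn (by omega) hz) hfar arm hH
  · rintro z ⟨h1, h2, h3⟩
    exact ⟨h1, h2, h1.2.2.2.le⟩
  · rintro z ⟨h1, h2, h3⟩
    exact ⟨h1, h1.2.2.1, h3⟩
  · rw [Set.disjoint_left]
    rintro z ⟨-, h2, -⟩ ⟨-, -, h3⟩
    omega
  · rw [Set.disjoint_left]
    rintro z ⟨-, -, h2⟩ ⟨-, h3, -⟩
    omega

/-- **The planar inclusion at the outer end.** -/
theorem incl_slit_out {n N w w1 b1 c1 c2 : ℤ} (hn : 1 ≤ n) (hN : n < N) (hw : w < n)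
    (hw1 : w1 < N) (hb : b1 < c1) {Pos Neg Far : Set (ℤ × ℤ)}
    (hPN : Disjoint Pos Neg) (hfar : lay n N w n b1 ⊆ Far)
    (arm : Cn (adjQ n N) (Neg \ lay n N w n N) (lipL n N) (lay n N w1 c1 c2))
    (hH : ¬ Cn (adjQ n N) Pos (lay n N w1 c1 c2) Far) :
    ¬ Cn (adjQ n N) Pos (lay n N w n b1) (outS n N) := by
  refine incl_end (cross_slit hn hN) adjQ_symm hPN (Lay := lay n N w n N) ?_ ?_
    (fun z hz => lay_lip hn hw1 hz) (fun z hz => lay_in hn hw hN hz) hfar arm hH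
  · rintro z ⟨h1, h2, h3⟩
    exact ⟨h1, h2, h1.2.2.2.le⟩
  · rw [Set.disjoint_left]
    rintro z ⟨-, h2, -⟩ ⟨-, -, h3⟩
    omega

/-- **The planar inclusion at the inner end.** -/
theorem incl_slit_in {n N w w1 c1 c2 a2 : ℤ} (hn : 1 ≤ n) (hN : n < N) (hw : w < N)
    (hw1 : w1 < N) (hc : c2 < a2) {Pos Neg Far : Set (ℤ × ℤ)}
    (hPN : Disjoint Pos Neg) (hfar : lay n N w a2 N ⊆ Far)
    (arm : Cn (adjQ n N) (Neg \ lay n N w n N) (lipL n N) (lay n N w1 c1 c2))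
    (hH : ¬ Cn (adjQ n N) Pos (lay n N w1 c1 c2) Far) :
    ¬ Cn (adjQ n N) Pos (lay n N w a2 N) (inS n N) := by
  have hX : Cross (adjQ n N) (lipL n N) (lipR n N) (outS n N) (inS n N) := by
    intro S S' h1 h2
    exact cross_slit hn hN S S' h1 (Cn_symm adjQ_symm h2)
  refine incl_end hX adjQ_symm hPN (Lay := lay n N w n N) ?_ ?_
    (fun z hz => lay_lip hn hw1 hz) (fun z hz => lay_out hn hw hz) hfar arm hH
  · rintro z ⟨h1, h2, h3⟩
    exact ⟨h1, h1.2.2.1, h3⟩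
  · rw [Set.disjoint_left]
    rintro z ⟨-, -, h2⟩ ⟨-, h3, -⟩
    omega

end conc

end Vale.Agent.P159.T1.H995
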