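import Vale.Agent.P159.T1.H254.UWDefs

/-!
Row M2 of P159 T1: symmetric exploration of the `{h ≠ 0}` clusters.
-/

open Filter Topology

namespace Vale.Agent.P159.T1.H995

open Vale.Agent.P159.T1.H254

section defs

variable {V E : Type} [DecidableEq V]

/-- adjacency outside `S` restricted to the set `X` -/
def adjX (s t : E → V) (S : Finset V) (X : Set V) (x y : V) : Prop :=
  x ∈ X ∧ y ∈ X ∧ adjS s t S x y

/-- some vertex of `A` is joined to some vertex of `B` inside `X` and outside `S` -/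
def Jn (s t : E → V) (S : Finset V) (X A B : Set V) : Prop :=
  ∃ a ∈ A, ∃ b ∈ B, a ∈ X ∧ a ∉ S ∧ Relation.ReflTransGen (adjX s t S X) a b

/-- the weight of a height function, the vertices of `S` are deleted (the summand of
`H254.ZS`) -/
noncomputable def Wt [Fintype E] (s t : E → V) (w : E → ℤ → ℝ) (S : Finset V)
    (h : V → ℤ) : ℝ :=
  ∏ e, if s e ∈ S ∨ t e ∈ S then 1 else w e (h (t e) - h (s e))

open Classical in
/-- flip outside the `{h ≠ 0}` clusters of `A` -/
noncomputable def flip (s t : E → V) (S : Finset V) (A : Set V) (h : V → ℤ) (v : V) : ℤ :=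
  if Jn s t S {u | h u ≠ 0} A {v} then h v else - h v

end defs

section lem

variable {V E : Type} [DecidableEq V] {s t : E → V} {S : Finset V} {A B X : Set V} {h : V → ℤ}

lemma flip_ne_zero {v : V} : flip s t S A h v ≠ 0 ↔ h v ≠ 0 := by
  unfold flip
  split_ifs <;> simp

lemma flip_zero {v : V} (hv : h v = 0) : flip s t S A h v = 0 := by
  unfold flip
  split_ifs <;> simp [hv]

lemma flip_set : {u | flip s t S A h u ≠ 0} = {u | h u ≠ 0} := by
  ext u
  exact flip_ne_zero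

lemma flip_flip : flip s t S A (flip s t S A h) = h := by
  funext v
  by_cases hJ : Jn s t S {u | h u ≠ 0} A {v}
  · have hJ' : Jn s t S {u | flip s t S A h u ≠ 0} A {v} := by rw [flip_set]; exact hJ
    have h1 : flip s t S A (flip s t S A h) v = flip s t S A h v := if_pos hJ'
    have h2 : flip s t S A h v = h v := if_pos hJ
    rw [h1, h2]
  · have hJ' : ¬ Jn s t S {u | flip s t S A h u ≠ 0} A {v} := by rw [flip_set]; exact hJ
    have h1 : flip s t S A (flip s t S A h) v = - flip s t S A h v := if_neg hJ'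
    have h2 : flip s t S A h v = - h v := if_neg hJ
    rw [h1, h2, neg_neg]

lemma Jn_step {u v : V} (hu : Jn s t S X A {u}) (hX : v ∈ X) (hadj : adjS s t S u v) :
    Jn s t S X A {v} := by
  obtain ⟨a, ha, b, hb, haX, haS, hab⟩ := hu
  obtain rfl : b = u := hb
  refine ⟨a, ha, v, rfl, haX, haS, hab.tail ⟨?_, hX, hadj⟩⟩
  rcases Relation.ReflTransGen.cases_tail hab with h1 | ⟨c, _, hc⟩
  · rw [h1]; exact haX
  · exact hc.2.1

lemma adjS_symm {u v : V} (h1 : adjS s t S u v) : adjS s t S v u := by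
  obtain ⟨hu, hv, e, he⟩ := h1
  exact ⟨hv, hu, e, he.symm⟩

/-- the height outside an explored cluster next to it is zero -/
lemma zero_of_bd {u v : V} (hu : Jn s t S {u | h u ≠ 0} A {u})
    (hv : ¬ Jn s t S {u | h u ≠ 0} A {v}) (hadj : adjS s t S u v) : h v = 0 := by
  by_contra hne
  exact hv (Jn_step hu hne hadj)

lemma Wt_flip [Fintype E] {w : E → ℤ → ℝ} (hev : ∀ e n, w e (-n) = w e n) :
    Wt s t w S (flip s t S A h) = Wt s t w S h := by
  unfold Wt
  refine Finset.prod_congr rfl fun e _ => ?_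
  by_cases hS : s e ∈ S ∨ t e ∈ S
  · rw [if_pos hS, if_pos hS]
  rw [if_neg hS, if_neg hS]
  push Not at hS
  have hadj : adjS s t S (s e) (t e) := ⟨hS.1, hS.2, e, Or.inl ⟨rfl, rfl⟩⟩
  by_cases h1 : Jn s t S {u | h u ≠ 0} A {s e}
  · by_cases h2 : Jn s t S {u | h u ≠ 0} A {t e}
    · unfold flip
      rw [if_pos h1, if_pos h2]
    · have h3 := zero_of_bd h1 h2 hadj
      rw [flip_zero h3, h3]
      unfold flip
      rw [if_pos h1]
  · by_cases h2 : Jn s t S {u | h u ≠ 0} A {t e}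
    · have h3 := zero_of_bd h2 h1 (adjS_symm hadj)
      rw [flip_zero h3, h3]
      unfold flip
      rw [if_pos h2]
    · unfold flip
      rw [if_neg h1, if_neg h2, ← hev]
      congr 1
      ring

/-- the flip as an involution of the heights which vanish on `P` -/
noncomputable def flipE (s t : E → V) (S : Finset V) (A : Set V) (P : Set V) :
    {h : V → ℤ // ∀ v ∈ P, h v = 0} ≃ {h : V → ℤ // ∀ v ∈ P, h v = 0} where
  toFun h := ⟨flip s t S A h.1, fun v hv => flip_zero (h.2 v hv)⟩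
  invFun h := ⟨flip s t S A h.1, fun v hv => flip_zero (h.2 v hv)⟩
  left_inv h := Subtype.ext flip_flip
  right_inv h := Subtype.ext flip_flip

/-- `h ↦ -h` -/
def negE (P : Set V) :
    {h : V → ℤ // ∀ v ∈ P, h v = 0} ≃ {h : V → ℤ // ∀ v ∈ P, h v = 0} where
  toFun h := ⟨-h.1, fun v hv => by simp [h.2 v hv]⟩
  invFun h := ⟨-h.1, fun v hv => by simp [h.2 v hv]⟩
  left_inv h := Subtype.ext (neg_neg _)
  right_inv h := Subtype.ext (neg_neg _)

open Classical in
/-- if the two sets are not joined in `{h ≠ 0}`, the product averages to zero -/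
theorem m2_zero [Fintype E] {w : E → ℤ → ℝ} (hev : ∀ e n, w e (-n) = w e n)
    {P : Set V} (hSP : ∀ v ∈ S, v ∈ P) {f g : (V → ℤ) → ℝ}
    (hf : ∀ h k : V → ℤ, (∀ v ∈ A, k v = h v) → f k = f h)
    (hg : ∀ h k : V → ℤ, (∀ v ∈ B, k v = - h v) → g k = - g h) :
    ∑' h : {h : V → ℤ // ∀ v ∈ P, h v = 0},
      Wt s t w S h.1 * (f h.1 * g h.1) *
        (if Jn s t S {v | h.1 v ≠ 0} A B then 0 else 1) = 0 := by
  have key : ∀ h : {h : V → ℤ // ∀ v ∈ P, h v = 0},
      Wt s t w S (flipE s t S A P h).1 * (f (flipE s t S A P h).1 * g (flipE s t S A P h).1) *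
        (if Jn s t S {v | (flipE s t S A P h).1 v ≠ 0} A B then 0 else 1) =
      -(Wt s t w S h.1 * (f h.1 * g h.1) *
        (if Jn s t S {v | h.1 v ≠ 0} A B then 0 else 1)) := by
    intro h
    show Wt s t w S (flip s t S A h.1) * (f (flip s t S A h.1) * g (flip s t S A h.1)) *
        (if Jn s t S {v | flip s t S A h.1 v ≠ 0} A B then 0 else 1) = _
    rw [flip_set, Wt_flip hev]
    by_cases hJ : Jn s t S {v | h.1 v ≠ 0} A B
    · simp only [hJ, if_true, mul_zero, neg_zero]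
    · simp only [hJ, if_false, mul_one]
      have h1 : f (flip s t S A h.1) = f h.1 := by
        refine hf _ _ fun v hv => ?_
        by_cases h0 : h.1 v = 0
        · rw [flip_zero h0, h0]
        · have hvS : v ∉ S := fun hS => h0 (h.2 v (hSP v hS))
          unfold flip
          rw [if_pos ⟨v, hv, v, rfl, h0, hvS, .refl⟩]
      have h2 : g (flip s t S A h.1) = - g h.1 := by
        refine hg _ _ fun v hv => ?_
        unfold flip
        rw [if_neg]
        rintro ⟨a, ha, b, hb, haX, haS, hab⟩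
        obtain rfl : b = v := hb
        exact hJ ⟨a, ha, b, hv, haX, haS, hab⟩
      rw [h1, h2]
      ring
  have h1 := (flipE s t S A P).tsum_eq (fun h : {h : V → ℤ // ∀ v ∈ P, h v = 0} =>
    Wt s t w S h.1 * (f h.1 * g h.1) * (if Jn s t S {v | h.1 v ≠ 0} A B then 0 else 1))
  simp only [key] at h1
  rw [tsum_neg] at h1
  linarith

/-- a nearest neighbour path in `{h ≠ 0}` with unit steps has a constant sign -/
lemma sign_path {a b : V}
    (hu : ∀ e, s e ∉ S → t e ∉ S → |h (t e) - h (s e)| ≤ 1)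
    (hab : Relation.ReflTransGen (adjX s t S {v | h v ≠ 0}) a b) (ha : 1 ≤ h a) :
    1 ≤ h b ∧ Relation.ReflTransGen (adjX s t S {v | 1 ≤ h v}) a b := by
  induction hab with
  | refl => exact ⟨ha, .refl⟩
  | @tail b c _ hbc ih =>
    obtain ⟨hb0, hc0, hbS, hcS, e, he⟩ := hbc
    have hc : 1 ≤ h c := by
      have hc0' : h c ≠ 0 := hc0
      have h2 := ih.1
      rcases he with ⟨h3, h4⟩ | ⟨h3, h4⟩
      · have h5 := hu e (by rw [h3]; exact hbS) (by rw [h4]; exact hcS)
        rw [h3, h4, abs_le] at h5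
        omega
      · have h5 := hu e (by rw [h3]; exact hcS) (by rw [h4]; exact hbS)
        rw [h3, h4, abs_le] at h5
        omega
    exact ⟨hc, ih.2.tail ⟨ih.1, hc, hbS, hcS, e, he⟩⟩

lemma adjX_congr {X Y : Set V} (hXY : X = Y) : adjX s t S X = adjX s t S Y := by rw [hXY]

/-- with unit steps: joined in `{h ≠ 0}` means joined in `{h ≥ 1}` or in `{-h ≥ 1}` -/
lemma Jn_sign (hu : ∀ e, s e ∉ S → t e ∉ S → |h (t e) - h (s e)| ≤ 1)
    (hJ : Jn s t S {v | h v ≠ 0} A B) :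
    Jn s t S {v | 1 ≤ h v} A B ∨ Jn s t S {v | 1 ≤ (-h) v} A B := by
  obtain ⟨a, ha, b, hb, haX, haS, hab⟩ := hJ
  have haX' : h a ≠ 0 := haX
  rcases lt_or_gt_of_ne haX' with hneg | hpos
  · right
    have hset : {v | (-h) v ≠ 0} = {v | h v ≠ 0} := by
      ext v; simp
    have hu' : ∀ e, s e ∉ S → t e ∉ S → |(-h) (t e) - (-h) (s e)| ≤ 1 := by
      intro e h1 h2
      have := hu e h1 h2
      simp only [Pi.neg_apply]
      rw [abs_le] at this ⊢
      omega
    have h1 : 1 ≤ (-h) a := by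
      simp only [Pi.neg_apply]
      omega
    rw [← adjX_congr hset] at hab
    obtain ⟨-, h3⟩ := sign_path hu' hab h1
    exact ⟨a, ha, b, hb, h1, haS, h3⟩
  · left
    have h1 : 1 ≤ h a := by omega
    obtain ⟨-, h3⟩ := sign_path hu hab h1
    exact ⟨a, ha, b, hb, h1, haS, h3⟩

lemma Wt_neg [Fintype E] {w : E → ℤ → ℝ} (hev : ∀ e n, w e (-n) = w e n) :
    Wt s t w S (-h) = Wt s t w S h := by
  unfold Wt
  refine Finset.prod_congr rfl fun e _ => ?_
  by_cases hS : s e ∈ S ∨ t e ∈ S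
  · rw [if_pos hS, if_pos hS]
  rw [if_neg hS, if_neg hS, ← hev]
  congr 1
  simp only [Pi.neg_apply]
  ring

end lem

section holder

/-- weighted Hölder inequality with integer exponents -/
lemma holder_fin {ι : Type*} (F : Finset ι) (W J f g : ι → ℝ) (hW : ∀ i ∈ F, 0 ≤ W i)
    (hJ : ∀ i ∈ F, J i = 0 ∨ J i = 1) (p : ℕ) (hp : 1 ≤ p) :
    (∑ i ∈ F, W i * (f i * g i) * J i) ^ (2 * p) ≤
      (∑ i ∈ F, W i * f i ^ (2 * p)) * (∑ i ∈ F, W i * g i ^ (2 * p)) *
        (∑ i ∈ F, W i * J i) ^ (2 * p - 2) := by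
  have hJ0 : ∀ i ∈ F, 0 ≤ J i := fun i hi => by
    rcases hJ i hi with h | h <;> rw [h] <;> norm_num
  have hJ1 : ∀ i ∈ F, J i ≤ 1 := fun i hi => by
    rcases hJ i hi with h | h <;> rw [h] <;> norm_num
  set T := ∑ i ∈ F, W i * J i with hT
  have hWJ : ∀ i ∈ F, 0 ≤ W i * J i := fun i hi => mul_nonneg (hW i hi) (hJ0 i hi)
  have hT0 : 0 ≤ T := Finset.sum_nonneg hWJ
  have hm1 : 0 ≤ ∑ i ∈ F, W i * f i ^ (2 * p) :=
    Finset.sum_nonneg fun i hi => mul_nonneg (hW i hi) (by rw [pow_mul]; positivity)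
  have hm2 : 0 ≤ ∑ i ∈ F, W i * g i ^ (2 * p) :=
    Finset.sum_nonneg fun i hi => mul_nonneg (hW i hi) (by rw [pow_mul]; positivity)
  -- first step
  have h1 : |∑ i ∈ F, W i * (f i * g i) * J i| ≤ ∑ i ∈ F, (W i * J i) * |f i * g i| := by
    refine (Finset.abs_sum_le_sum_abs _ _).trans (Finset.sum_le_sum fun i hi => ?_)
    rw [abs_mul, abs_mul, abs_of_nonneg (hW i hi), abs_of_nonneg (hJ0 i hi)]
    nlinarith [hW i hi, hJ0 i hi]
  -- Jensen
  have h2 : (∑ i ∈ F, (W i * J i) * |f i * g i|) ^ p ≤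
      T ^ (p - 1) * ∑ i ∈ F, (W i * J i) * |f i * g i| ^ p := by
    rcases eq_or_lt_of_le hT0 with h0 | h0
    · have h3 : ∀ i ∈ F, W i * J i = 0 :=
        (Finset.sum_eq_zero_iff_of_nonneg hWJ).1 (by rw [← hT, ← h0])
      have h4 : ∑ i ∈ F, (W i * J i) * |f i * g i| = 0 :=
        Finset.sum_eq_zero fun i hi => by rw [h3 i hi, zero_mul]
      rw [h4, zero_pow (by omega)]
      exact mul_nonneg (pow_nonneg hT0 _) (Finset.sum_nonneg fun i hi =>
        mul_nonneg (hWJ i hi) (by positivity))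
    · have h3 := Real.pow_arith_mean_le_arith_mean_pow F (fun i => W i * J i / T)
        (fun i => |f i * g i|) (fun i hi => div_nonneg (hWJ i hi) hT0)
        (by rw [← Finset.sum_div, ← hT, div_self h0.ne']) (fun i _ => abs_nonneg _) p
      have h4 : ∑ i ∈ F, (W i * J i) * |f i * g i| =
          T * ∑ i ∈ F, W i * J i / T * |f i * g i| := by
        rw [Finset.mul_sum]
        refine Finset.sum_congr rfl fun i _ => ?_
        field_simp
      have h5 : ∑ i ∈ F, (W i * J i) * |f i * g i| ^ p =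
          T * ∑ i ∈ F, W i * J i / T * |f i * g i| ^ p := by
        rw [Finset.mul_sum]
        refine Finset.sum_congr rfl fun i _ => ?_
        field_simp
      rw [h4, h5, mul_pow]
      obtain ⟨q, rfl⟩ : ∃ q, p = q + 1 := ⟨p - 1, by omega⟩
      rw [show q + 1 - 1 = q by omega]
      calc T ^ (q + 1) * (∑ i ∈ F, W i * J i / T * |f i * g i|) ^ (q + 1)
          ≤ T ^ (q + 1) * ∑ i ∈ F, W i * J i / T * |f i * g i| ^ (q + 1) :=
            mul_le_mul_of_nonneg_left h3 (pow_nonneg hT0 _)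
        _ = _ := by ring
  -- Cauchy-Schwarz
  have h3 : (∑ i ∈ F, (W i * J i) * |f i * g i| ^ p) ^ 2 ≤
      (∑ i ∈ F, W i * f i ^ (2 * p)) * (∑ i ∈ F, W i * g i ^ (2 * p)) := by
    have h4 : (∑ i ∈ F, (W i * J i) * |f i * g i| ^ p) ^ 2 ≤
        (∑ i ∈ F, (Real.sqrt (W i) * |f i| ^ p) * (Real.sqrt (W i) * |g i| ^ p)) ^ 2 := by
      refine pow_le_pow_left₀ (Finset.sum_nonneg fun i hi =>
        mul_nonneg (hWJ i hi) (by positivity)) (Finset.sum_le_sum fun i hi => ?_) 2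
      rw [abs_mul, mul_pow]
      have h6 : Real.sqrt (W i) * |f i| ^ p * (Real.sqrt (W i) * |g i| ^ p) =
          W i * (|f i| ^ p * |g i| ^ p) := by
        have := Real.mul_self_sqrt (hW i hi)
        calc _ = (Real.sqrt (W i) * Real.sqrt (W i)) * (|f i| ^ p * |g i| ^ p) := by ring
          _ = _ := by rw [this]
      rw [h6]
      have h7 : 0 ≤ |f i| ^ p * |g i| ^ p := by positivity
      nlinarith [hW i hi, hJ1 i hi, mul_nonneg (hW i hi) h7,
        mul_nonneg (mul_nonneg (hW i hi) h7) (sub_nonneg.2 (hJ1 i hi))]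
    refine h4.trans ((Finset.sum_mul_sq_le_sq_mul_sq F _ _).trans (le_of_eq ?_))
    congr 1
    · refine Finset.sum_congr rfl fun i hi => ?_
      rw [mul_pow, Real.sq_sqrt (hW i hi), ← pow_mul, mul_comm p 2, pow_mul, sq_abs, ← pow_mul]
    · refine Finset.sum_congr rfl fun i hi => ?_
      rw [mul_pow, Real.sq_sqrt (hW i hi), ← pow_mul, mul_comm p 2, pow_mul, sq_abs, ← pow_mul]
  have hA : 0 ≤ ∑ i ∈ F, (W i * J i) * |f i * g i| :=
    Finset.sum_nonneg fun i hi => mul_nonneg (hWJ i hi) (by positivity)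
  calc (∑ i ∈ F, W i * (f i * g i) * J i) ^ (2 * p)
      = |∑ i ∈ F, W i * (f i * g i) * J i| ^ (2 * p) := by
        rw [pow_mul, pow_mul, sq_abs]
    _ ≤ (∑ i ∈ F, (W i * J i) * |f i * g i|) ^ (2 * p) :=
        pow_le_pow_left₀ (abs_nonneg _) h1 _
    _ = ((∑ i ∈ F, (W i * J i) * |f i * g i|) ^ p) ^ 2 := by
        rw [← pow_mul, mul_comm p 2]
    _ ≤ (T ^ (p - 1) * ∑ i ∈ F, (W i * J i) * |f i * g i| ^ p) ^ 2 :=
        pow_le_pow_left₀ (pow_nonneg hA _) h2 2
    _ = T ^ (2 * p - 2) * (∑ i ∈ F, (W i * J i) * |f i * g i| ^ p) ^ 2 := by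
        rw [mul_pow, ← pow_mul, show (p - 1) * 2 = 2 * p - 2 by omega]
    _ ≤ T ^ (2 * p - 2) * ((∑ i ∈ F, W i * f i ^ (2 * p)) * (∑ i ∈ F, W i * g i ^ (2 * p))) :=
        mul_le_mul_of_nonneg_left h3 (pow_nonneg hT0 _)
    _ = _ := by ring

end holder

section main

variable {V E : Type} [DecidableEq V] {s t : E → V} {S : Finset V} {A B : Set V}

open Classical in
/-- the sum of the weights of the heights with `A`, `B` joined in `{h ≥ 1}` -/
noncomputable def ZJ [Fintype E] (s t : E → V) (w : E → ℤ → ℝ) (S : Finset V) (P A B : Set V) : ℝ :=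
  ∑' h : {h : V → ℤ // ∀ v ∈ P, h v = 0},
    Wt s t w S h.1 * (if Jn s t S {v | 1 ≤ h.1 v} A B then 1 else 0)

open Classical in
/-- **M2**: the two sets are joined in `{h ≥ 1}` with a probability bounded below by a
correlation -/
theorem m2 [Fintype E] {w : E → ℤ → ℝ} (hw : ∀ e n, 0 ≤ w e n)
    (hev : ∀ e n, w e (-n) = w e n) (hunit : ∀ e n, w e n ≠ 0 → |n| ≤ 1)
    {P : Set V} (hSP : ∀ v ∈ S, v ∈ P)
    (hfin : (Function.support fun h : {h : V → ℤ // ∀ v ∈ P, h v = 0} => Wt s t w S h.1).Finite)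
    {f g : (V → ℤ) → ℝ}
    (hf : ∀ h k : V → ℤ, (∀ v ∈ A, k v = h v) → f k = f h)
    (hg : ∀ h k : V → ℤ, (∀ v ∈ B, k v = - h v) → g k = - g h) (p : ℕ) (hp : 1 ≤ p) :
    (∑' h : {h : V → ℤ // ∀ v ∈ P, h v = 0}, Wt s t w S h.1 * (f h.1 * g h.1)) ^ (2 * p) ≤
      (∑' h : {h : V → ℤ // ∀ v ∈ P, h v = 0}, Wt s t w S h.1 * f h.1 ^ (2 * p)) *
      (∑' h : {h : V → ℤ // ∀ v ∈ P, h v = 0}, Wt s t w S h.1 * g h.1 ^ (2 * p)) *
        (2 * ZJ s t w S P A B) ^ (2 * p - 2) := by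
  set F := hfin.toFinset with hF
  have hWnn : ∀ h : V → ℤ, 0 ≤ Wt s t w S h := fun h => by
    unfold Wt
    refine Finset.prod_nonneg fun e _ => ?_
    split_ifs
    · exact zero_le_one
    · exact hw _ _
  have hout : ∀ h : {h : V → ℤ // ∀ v ∈ P, h v = 0}, h ∉ F → Wt s t w S h.1 = 0 := by
    intro h hh
    rw [hF, Set.Finite.mem_toFinset, Function.mem_support, not_not] at hh
    exact hh
  have hfinsum : ∀ φ : {h : V → ℤ // ∀ v ∈ P, h v = 0} → ℝ,
      ∑' h, Wt s t w S h.1 * φ h = ∑ h ∈ F, Wt s t w S h.1 * φ h := fun φ =>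
    tsum_eq_sum fun h hh => by rw [hout h hh, zero_mul]
  -- the part with not joined sets vanishes
  have hz := m2_zero (A := A) (B := B) (S := S) (s := s) (t := t) hev hSP hf hg
  have hz' : ∑ h ∈ F, Wt s t w S h.1 * (f h.1 * g h.1) *
      (if Jn s t S {v | h.1 v ≠ 0} A B then 0 else 1) = 0 := by
    refine Eq.trans ?_ hz
    symm
    refine tsum_eq_sum fun h hh => ?_
    rw [hout h hh]
    ring
  have hsplit : ∑' h : {h : V → ℤ // ∀ v ∈ P, h v = 0}, Wt s t w S h.1 * (f h.1 * g h.1) =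
      ∑ h ∈ F, Wt s t w S h.1 * (f h.1 * g h.1) *
        (if Jn s t S {v | h.1 v ≠ 0} A B then 1 else 0) := by
    rw [hfinsum, ← sub_eq_zero, ← Finset.sum_sub_distrib]
    refine Eq.trans ?_ hz'
    refine Finset.sum_congr rfl fun h _ => ?_
    split_ifs <;> ring
  -- joined in {h ≠ 0} costs twice joined in {h ≥ 1}
  have hJ2 : ∑ h ∈ F, Wt s t w S h.1 * (if Jn s t S {v | h.1 v ≠ 0} A B then (1 : ℝ) else 0) ≤
      2 * ZJ s t w S P A B := by
    have h1 : ZJ s t w S P A B = ∑ h ∈ F, Wt s t w S h.1 *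
        (if Jn s t S {v | 1 ≤ h.1 v} A B then 1 else 0) := hfinsum _
    have h2 : ZJ s t w S P A B = ∑ h ∈ F, Wt s t w S h.1 *
        (if Jn s t S {v | 1 ≤ (-h.1) v} A B then 1 else 0) := by
      rw [← hfinsum]
      unfold ZJ
      rw [← (negE P).tsum_eq]
      refine tsum_congr fun h => ?_
      show Wt s t w S (-h.1) * (if Jn s t S {v | 1 ≤ (-h.1) v} A B then 1 else 0) = _
      rw [Wt_neg hev]
    rw [two_mul]
    nth_rewrite 1 [h1]
    rw [h2, ← Finset.sum_add_distrib]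
    refine Finset.sum_le_sum fun h hh => ?_
    by_cases hJ : Jn s t S {v | h.1 v ≠ 0} A B
    · have hne : Wt s t w S h.1 ≠ 0 := by
        rw [hF, Set.Finite.mem_toFinset, Function.mem_support] at hh
        exact hh
      have hu : ∀ e, s e ∉ S → t e ∉ S → |h.1 (t e) - h.1 (s e)| ≤ 1 := by
        intro e h3 h4
        refine hunit e _ fun h5 => hne ?_
        unfold Wt
        refine Finset.prod_eq_zero (Finset.mem_univ e) ?_
        rw [if_neg (by push Not; exact ⟨h3, h4⟩)]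
        exact h5
      rw [if_pos hJ]
      rcases Jn_sign hu hJ with h3 | h3
      · rw [if_pos h3]
        have : 0 ≤ Wt s t w S h.1 * (if Jn s t S {v | 1 ≤ (-h.1) v} A B then (1:ℝ) else 0) :=
          mul_nonneg (hWnn _) (by split_ifs <;> norm_num)
        linarith
      · rw [if_pos h3]
        have : 0 ≤ Wt s t w S h.1 * (if Jn s t S {v | 1 ≤ h.1 v} A B then (1:ℝ) else 0) :=
          mul_nonneg (hWnn _) (by split_ifs <;> norm_num)
        linarith
    · rw [if_neg hJ, mul_zero]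
      have h3 : 0 ≤ Wt s t w S h.1 * (if Jn s t S {v | 1 ≤ (-h.1) v} A B then (1:ℝ) else 0) :=
        mul_nonneg (hWnn _) (by split_ifs <;> norm_num)
      have h4 : 0 ≤ Wt s t w S h.1 * (if Jn s t S {v | 1 ≤ h.1 v} A B then (1:ℝ) else 0) :=
        mul_nonneg (hWnn _) (by split_ifs <;> norm_num)
      linarith
  have hJnn : 0 ≤ ∑ h ∈ F, Wt s t w S h.1 *
      (if Jn s t S {v | h.1 v ≠ 0} A B then (1 : ℝ) else 0) :=
    Finset.sum_nonneg fun h _ => mul_nonneg (hWnn _) (by split_ifs <;> norm_num)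
  rw [hsplit, hfinsum, hfinsum]
  refine (holder_fin F (fun h => Wt s t w S h.1)
    (fun h => if Jn s t S {v | h.1 v ≠ 0} A B then (1 : ℝ) else 0)
    (fun h => f h.1) (fun h => g h.1) (fun h _ => hWnn _)
    (fun h _ => by split_ifs <;> simp) p hp).trans ?_
  refine mul_le_mul_of_nonneg_left (pow_le_pow_left₀ hJnn hJ2 _) (mul_nonneg ?_ ?_)
  · exact Finset.sum_nonneg fun h _ => mul_nonneg (hWnn _) (by rw [pow_mul]; positivity)
  · exact Finset.sum_nonneg fun h _ => mul_nonneg (hWnn _) (by rw [pow_mul]; positivity)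

/-- unit step weights have finite support if every vertex outside `P` is joined to `P` -/
theorem support_finite [Fintype V] [Fintype E] {w : E → ℤ → ℝ}
    (hunit : ∀ e n, w e n ≠ 0 → |n| ≤ 1) {P : Set V}
    (hjoin : ∀ v, v ∉ P → ∃ a ∈ P, Relation.ReflTransGen (adjS s t S) a v) :
    (Function.support fun h : {h : V → ℤ // ∀ v ∈ P, h v = 0} => Wt s t w S h.1).Finite := by
  classical
  -- every height is bounded by the number of steps of a fixed path
  have hlen : ∀ v, v ∉ P → ∃ N : ℕ, ∀ h : {h : V → ℤ // ∀ v ∈ P, h v = 0},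
      Wt s t w S h.1 ≠ 0 → |h.1 v| ≤ N := by
    intro v hv
    obtain ⟨a, ha, hav⟩ := hjoin v hv
    clear hv
    induction hav with
    | refl => exact ⟨0, fun h _ => by rw [h.2 _ ha]; simp⟩
    | @tail b c _ hbc ih =>
      obtain ⟨N, hN⟩ := ih
      refine ⟨N + 1, fun h hh => ?_⟩
      have h1 := hN h hh
      obtain ⟨hbS, hcS, e, he⟩ := hbc
      have hu : |h.1 (t e) - h.1 (s e)| ≤ 1 := by
        refine hunit e _ fun h5 => hh ?_
        unfold Wt
        refine Finset.prod_eq_zero (Finset.mem_univ e) ?_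
        rw [if_neg]
        · exact h5
        · rcases he with ⟨h3, h4⟩ | ⟨h3, h4⟩ <;> rw [h3, h4] <;> push Not <;>
            first | exact ⟨hbS, hcS⟩ | exact ⟨hcS, hbS⟩
      rw [abs_le] at h1 hu ⊢
      push_cast
      rcases he with ⟨h3, h4⟩ | ⟨h3, h4⟩ <;> rw [h3, h4] at hu <;>
        constructor <;> linarith [h1.1, h1.2, hu.1, hu.2]
  choose! N hN using hlen
  refine Set.Finite.subset (s := {h | ∀ v, |h.1 v| ≤ if v ∈ P then 0 else (N v : ℤ)}) ?_ ?_
  · refine Set.Finite.of_finite_image (f := fun h : {h : V → ℤ // ∀ v ∈ P, h v = 0} => h.1) ?_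
      (Subtype.val_injective.injOn)
    refine Set.Finite.subset (Set.Finite.pi' (fun v : V =>
      Set.finite_Icc (-(if v ∈ P then 0 else (N v : ℤ))) (if v ∈ P then 0 else (N v : ℤ)))) ?_
    rintro _ ⟨h, hh, rfl⟩ v
    exact abs_le.1 (hh v)
  · intro h hh v
    rw [Function.mem_support] at hh
    by_cases hv : v ∈ P
    · rw [if_pos hv, h.2 v hv]; simp
    · rw [if_neg hv]
      exact hN v hv h hh

/-- linear functionals -/
noncomputable def lin [Fintype V] (x : V → ℝ) (h : V → ℤ) : ℝ := ∑ v, x v * (h v : ℝ)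

open Classical in
/-- **M2** for two linear functionals carried by `A` and by `B` -/
theorem m2_lin [Fintype V] [Fintype E] {w : E → ℤ → ℝ} (hw : ∀ e n, 0 ≤ w e n)
    (hev : ∀ e n, w e (-n) = w e n) (hunit : ∀ e n, w e n ≠ 0 → |n| ≤ 1)
    {P : Set V} (hSP : ∀ v ∈ S, v ∈ P)
    (hjoin : ∀ v, v ∉ P → ∃ a ∈ P, Relation.ReflTransGen (adjS s t S) a v)
    {x y : V → ℝ} (hx : ∀ v, v ∉ A → x v = 0) (hy : ∀ v, v ∉ B → y v = 0)
    (p : ℕ) (hp : 1 ≤ p) :
    (∑' h : {h : V → ℤ // ∀ v ∈ P, h v = 0}, Wt s t w S h.1 * (lin x h.1 * lin y h.1)) ^ (2 * p) ≤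
      (∑' h : {h : V → ℤ // ∀ v ∈ P, h v = 0}, Wt s t w S h.1 * lin x h.1 ^ (2 * p)) *
      (∑' h : {h : V → ℤ // ∀ v ∈ P, h v = 0}, Wt s t w S h.1 * lin y h.1 ^ (2 * p)) *
        (2 * ZJ s t w S P A B) ^ (2 * p - 2) := by
  refine m2 hw hev hunit hSP (support_finite hunit hjoin) (f := lin x) (g := lin y) ?_ ?_ p hp
  · intro h k hk
    unfold lin
    refine Finset.sum_congr rfl fun v _ => ?_
    by_cases hv : v ∈ A
    · rw [hk v hv]
    · rw [hx v hv, zero_mul, zero_mul]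
  · intro h k hk
    unfold lin
    rw [← Finset.sum_neg_distrib]
    refine Finset.sum_congr rfl fun v _ => ?_
    by_cases hv : v ∈ B
    · rw [hk v hv]; push_cast; ring
    · rw [hy v hv]; ring

lemma ker_nonneg {β : ℝ} (hβ : 0 ≤ β) (n : ℤ) : 0 ≤ H254.ker 1 β n := by
  unfold H254.ker
  split_ifs <;> first | exact zero_le_one | exact hβ | exact le_rfl

lemma ker_even (α β : ℝ) (n : ℤ) : H254.ker α β (-n) = H254.ker α β n := by
  unfold H254.ker
  simp only [neg_eq_zero, abs_neg]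

lemma ker_unit (α β : ℝ) (n : ℤ) (h : H254.ker α β n ≠ 0) : |n| ≤ 1 := by
  unfold H254.ker at h
  by_cases h0 : n = 0
  · rw [h0]; simp
  · rw [if_neg h0] at h
    by_contra hn
    rw [if_neg (by omega)] at h
    exact h rfl

/-- the pinned vertices of `H254.ZS` -/
def PP (om op : V) (S : Finset V) : Set V := {v | v = om ∨ v = op ∨ v ∈ S}

/-- the index type of `H254.ZS` (value `0` at `op`) and the one used here -/
def ixE (om op : V) (S : Finset V) :
    {h : V → ℤ // h om = 0 ∧ h op = 0 ∧ ∀ v ∈ S, h v = 0} ≃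
      {h : V → ℤ // ∀ v ∈ PP om op S, h v = 0} where
  toFun h := ⟨h.1, fun v hv => by
    rcases hv with rfl | rfl | hv
    · exact h.2.1
    · exact h.2.2.1
    · exact h.2.2.2 v hv⟩
  invFun h := ⟨h.1, h.2 om (Or.inl rfl), h.2 op (Or.inr (Or.inl rfl)),
    fun v hv => h.2 v (Or.inr (Or.inr hv))⟩
  left_inv _ := rfl
  right_inv _ := rfl

theorem ZS_zero [Fintype V] [Fintype E] [DecidableEq E] {w : E → ℤ → ℝ} (om op : V)
    (S : Finset V) :
    ZS s t w om op S 0 = ∑' h : {h : V → ℤ // ∀ v ∈ PP om op S, h v = 0}, Wt s t w S h.1 := by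
  rw [← (ixE om op S).tsum_eq]
  rfl

end main

end Vale.Agent.P159.T1.H995
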