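import Vale.Agent.P159.R2.H729.Grid

/-!
Row M3 of P159 T1: crossing chains in the slit square annulus share a face.

Spins are the points of `ℤ × ℤ`, faces are the unit squares, named by their lower left corners.
`H x y` is the bond from `(x, y)` to `(x + 1, y)`, between the squares `(x, y - 1)` and `(x, y)`;
`K x y` is the bond from `(x, y)` to `(x, y + 1)`, between the squares `(x - 1, y)` and `(x, y)`.
-/

namespace Vale.Agent.P159.T1.H995

open Vale.Agent.P159.R2.H729 Set

/-- nearest neighbours -/
def nb (z w : ℤ × ℤ) : Prop := |z.1 - w.1| + |z.2 - w.2| = 1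

/-- indicator -/
def sg (a b x y : ℤ) : ZMod 2 := if x = a ∧ y = b then 1 else 0

/-- the sum of a cochain over the four bonds of a square -/
def bdr (H K : ℤ → ℤ → ZMod 2) (x y : ℤ) : ZMod 2 := H x y + H x (y + 1) + K x y + K (x + 1) y

lemma sg_shift_x (a b x y : ℤ) : sg a b (x + 1) y = sg (a - 1) b x y := by
  unfold sg
  congr 1
  apply propext
  constructor <;> rintro ⟨h1, h2⟩ <;> exact ⟨by omega, h2⟩

lemma sg_shift_y (a b x y : ℤ) : sg a b x (y + 1) = sg a (b - 1) x y := by
  unfold sg
  congr 1
  apply propext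
  constructor <;> rintro ⟨h1, h2⟩ <;> exact ⟨h1, by omega⟩

lemma z2_add_self (a : ZMod 2) : a + a = 0 := by
  revert a; decide

lemma sg_ne {a b x y : ℤ} (h : sg a b x y ≠ 0) : x = a ∧ y = b := by
  unfold sg at h
  by_contra hc
  rw [if_neg hc] at h
  exact h rfl

lemma nb_cases {b c : ℤ × ℤ} (h : nb b c) :
    c = (b.1 + 1, b.2) ∨ b = (c.1 + 1, c.2) ∨ c = (b.1, b.2 + 1) ∨ b = (c.1, c.2 + 1) := by
  obtain ⟨b1, b2⟩ := b
  obtain ⟨c1, c2⟩ := c
  unfold nb at h
  simp only [Prod.mk.injEq] at h ⊢
  rcases abs_cases (b1 - c1) with ⟨h1, h2⟩ | ⟨h1, h2⟩ <;>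
    rcases abs_cases (b2 - c2) with ⟨h3, h4⟩ | ⟨h3, h4⟩ <;> omega

/-- a chain of squares gives a cochain -/
lemma chain_cochain {S : Set (ℤ × ℤ)} {p q : ℤ × ℤ}
    (h : Relation.ReflTransGen (fun a b => nb a b ∧ a ∈ S ∧ b ∈ S) p q) :
    ∃ H K : ℤ → ℤ → ZMod 2, (∀ x y, bdr H K x y = sg p.1 p.2 x y + sg q.1 q.2 x y) ∧
      (∀ x y, H x y ≠ 0 → (x, y - 1) ∈ S ∧ (x, y) ∈ S) ∧
      (∀ x y, K x y ≠ 0 → (x - 1, y) ∈ S ∧ (x, y) ∈ S) := by
  induction h with
  | refl =>
    refine ⟨fun _ _ => 0, fun _ _ => 0, fun x y => ?_, fun x y h => absurd rfl h,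
      fun x y h => absurd rfl h⟩
    rw [z2_add_self]
    simp [bdr]
  | @tail b c _ hbc ih =>
    obtain ⟨H, K, h1, h2, h3⟩ := ih
    obtain ⟨hnb, hb, hc⟩ := hbc
    have aux : ∀ a b : ZMod 2, a + b ≠ 0 → a ≠ 0 ∨ b ≠ 0 := by decide
    rcases nb_cases hnb with rfl | rfl | rfl | rfl
    · refine ⟨H, fun x y => K x y + sg (b.1 + 1) b.2 x y, fun x y => ?_, h2, fun x y h => ?_⟩
      · have := h1 x y
        simp only [bdr] at this ⊢
        rw [sg_shift_x, show b.1 + 1 - 1 = b.1 by ring]
        calc _ = (H x y + H x (y + 1) + K x y + K (x + 1) y) +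
              (sg (b.1 + 1) b.2 x y + sg b.1 b.2 x y) := by ring
          _ = _ := by
            rw [this]
            have h4 := z2_add_self (sg b.1 b.2 x y)
            linear_combination h4
      · rcases aux _ _ h with h4 | h4
        · exact h3 x y h4
        · obtain ⟨rfl, rfl⟩ := sg_ne h4
          exact ⟨by simpa using hb, hc⟩
    · refine ⟨H, fun x y => K x y + sg (c.1 + 1) c.2 x y, fun x y => ?_, h2, fun x y h => ?_⟩
      · have := h1 x y
        simp only [bdr] at this ⊢
        rw [sg_shift_x, show c.1 + 1 - 1 = c.1 by ring]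
        calc _ = (H x y + H x (y + 1) + K x y + K (x + 1) y) +
              (sg (c.1 + 1) c.2 x y + sg c.1 c.2 x y) := by ring
          _ = _ := by
            rw [this]
            have h4 := z2_add_self (sg (c.1 + 1) c.2 x y)
            linear_combination h4
      · rcases aux _ _ h with h4 | h4
        · exact h3 x y h4
        · obtain ⟨rfl, rfl⟩ := sg_ne h4
          exact ⟨by simpa using hc, hb⟩
    · refine ⟨fun x y => H x y + sg b.1 (b.2 + 1) x y, K, fun x y => ?_, fun x y h => ?_, h3⟩
      · have := h1 x y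
        simp only [bdr] at this ⊢
        rw [sg_shift_y, show b.2 + 1 - 1 = b.2 by ring]
        calc _ = (H x y + H x (y + 1) + K x y + K (x + 1) y) +
              (sg b.1 (b.2 + 1) x y + sg b.1 b.2 x y) := by ring
          _ = _ := by
            rw [this]
            have h4 := z2_add_self (sg b.1 b.2 x y)
            linear_combination h4
      · rcases aux _ _ h with h4 | h4
        · exact h2 x y h4
        · obtain ⟨rfl, rfl⟩ := sg_ne h4
          exact ⟨by simpa using hb, hc⟩
    · refine ⟨fun x y => H x y + sg c.1 (c.2 + 1) x y, K, fun x y => ?_, fun x y h => ?_, h3⟩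
      · have := h1 x y
        simp only [bdr] at this ⊢
        rw [sg_shift_y, show c.2 + 1 - 1 = c.2 by ring]
        calc _ = (H x y + H x (y + 1) + K x y + K (x + 1) y) +
              (sg c.1 (c.2 + 1) x y + sg c.1 c.2 x y) := by ring
          _ = _ := by
            rw [this]
            have h4 := z2_add_self (sg c.1 (c.2 + 1) x y)
            linear_combination h4
      · rcases aux _ _ h with h4 | h4
        · exact h2 x y h4
        · obtain ⟨rfl, rfl⟩ := sg_ne h4
          exact ⟨by simpa using hc, hb⟩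

/-- potential of a closed cochain on the square `[-N, N]²` -/
lemma potential {H K : ℤ → ℤ → ZMod 2} {N : ℤ}
    (h : ∀ x y, -N ≤ x → x < N → -N ≤ y → y < N → bdr H K x y = 0) :
    ∃ v : ℤ → ℤ → ZMod 2, (∀ x y, x < N → v x y = H x y + v (x + 1) y) ∧
      (∀ x y, -N ≤ x → x ≤ N → -N ≤ y → y < N → v x y = K x y + v x (y + 1)) := by
  refine ⟨fun x y => ∑ i ∈ Finset.Ico x N, H i y + ∑ j ∈ Finset.Ico y N, K N j, ?_, ?_⟩
  · intro x y hx
    show ∑ i ∈ Finset.Ico x N, H i y + ∑ j ∈ Finset.Ico y N, K N j =
      H x y + (∑ i ∈ Finset.Ico (x + 1) N, H i y + ∑ j ∈ Finset.Ico y N, K N j)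
    have h1 : Finset.Ico x N = insert x (Finset.Ico (x + 1) N) := by
      ext i
      simp only [Finset.mem_Ico, Finset.mem_insert]
      omega
    rw [h1, Finset.sum_insert (by simp)]
    ring
  · intro x y hx0 hx hy0 hy
    show ∑ i ∈ Finset.Ico x N, H i y + ∑ j ∈ Finset.Ico y N, K N j =
      K x y + (∑ i ∈ Finset.Ico x N, H i (y + 1) + ∑ j ∈ Finset.Ico (y + 1) N, K N j)
    have h1 : Finset.Ico y N = insert y (Finset.Ico (y + 1) N) := by
      ext i
      simp only [Finset.mem_Ico, Finset.mem_insert]
      omega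
    rw [h1, Finset.sum_insert (by simp)]
    -- telescoping in `x`
    have key : ∀ k : ℕ, ∀ x : ℤ, -N ≤ x → x + k = N →
        ∑ i ∈ Finset.Ico x N, H i y + K N y = K x y + ∑ i ∈ Finset.Ico x N, H i (y + 1) := by
      intro k
      induction k with
      | zero =>
        intro x _ hk
        have : x = N := by simpa using hk
        subst this
        simp
      | succ k ih =>
        intro x hx0 hk
        have hxN : x < N := by push_cast at hk; omega
        have h2 := ih (x + 1) (by omega) (by push_cast at hk; omega)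
        have h3 : Finset.Ico x N = insert x (Finset.Ico (x + 1) N) := by
          ext i
          simp only [Finset.mem_Ico, Finset.mem_insert]
          omega
        rw [h3, Finset.sum_insert (by simp), Finset.sum_insert (by simp)]
        have h4 := h x y hx0 hxN hy0 hy
        unfold bdr at h4
        have h5 := z2_add_self (H x y)
        have h6 := z2_add_self (H x (y + 1))
        have h7 := z2_add_self (K x y)
        have h8 := z2_add_self (K (x + 1) y)
        linear_combination h2 + h4 - h6 - h7
    have := key (N - x).toNat x hx0 (by omega)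
    linear_combination this

/-! ### the slit square annulus -/

/-- the squares of the box `[-N, N]²` -/
def boxS (N : ℤ) : Set (ℤ × ℤ) := {z | -N ≤ z.1 ∧ z.1 < N ∧ -N ≤ z.2 ∧ z.2 < N}

/-- the squares of the slit (between the columns `0` and `1` above the hole) -/
def slitS (n N : ℤ) : Set (ℤ × ℤ) := {z | z.1 = 0 ∧ n ≤ z.2 ∧ z.2 < N}

/-- the squares of the slit annulus -/
def QS (n N : ℤ) : Set (ℤ × ℤ) := {z | z ∈ boxS N ∧ z ∉ boxS n ∧ z ∉ slitS n N}

/-- the squares next to the left lip -/
def lipL (n N : ℤ) : Set (ℤ × ℤ) := {z | z.1 = -1 ∧ n ≤ z.2 ∧ z.2 < N}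

/-- the squares next to the right lip -/
def lipR (n N : ℤ) : Set (ℤ × ℤ) := {z | z.1 = 1 ∧ n ≤ z.2 ∧ z.2 < N}

/-- the squares next to the inner end -/
def inS (n N : ℤ) : Set (ℤ × ℤ) := {z | z ∈ QS n N ∧ ∃ w ∈ boxS n, nb z w}

/-- the squares next to the outer end -/
def outS (n N : ℤ) : Set (ℤ × ℤ) := {z | z ∈ QS n N ∧ ∃ w, w ∉ boxS N ∧ nb z w}

/-- adjacency of the faces of the slit annulus -/
def adjQ (n N : ℤ) (z w : ℤ × ℤ) : Prop := nb z w ∧ z ∈ QS n N ∧ w ∈ QS n N

/-- the part of the closed chain inside the slit: horizontal bonds -/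
def slH (a b x y : ℤ) : ZMod 2 := if x = 0 ∧ (a < y ∧ y ≤ b ∨ b < y ∧ y ≤ a) then 1 else 0

lemma slH_bdr (a b x y : ℤ) :
    slH a b x y + slH a b x (y + 1) = sg 0 a x y + sg 0 b x y := by
  unfold slH sg
  by_cases hx : x = 0
  · rcases lt_trichotomy y a with h1 | h1 | h1 <;> rcases lt_trichotomy y b with h2 | h2 | h2 <;>
      split_ifs <;> first | omega | decide
  · simp [hx]

lemma slit_bdr (a b x y : ℤ) :
    bdr (slH a b) (fun x y => sg 0 a x y + sg 1 b x y) x y = sg (-1) a x y + sg 1 b x y := by
  have h1 := slH_bdr a b x y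
  simp only [bdr]
  rw [sg_shift_x, sg_shift_x, show (0 : ℤ) - 1 = -1 by ring, show (1 : ℤ) - 1 = 0 by ring]
  have h2 := z2_add_self (sg 0 a x y)
  have h3 := z2_add_self (sg 0 b x y)
  linear_combination h1 + h2 + h3

/-- a function which is constant on every unit square of a rectangle is constant -/
lemma const_rect {v : ℤ → ℤ → ZMod 2} {a b c d : ℤ} (hcd : c < d)
    (h : ∀ x y, a ≤ x → x < b → c ≤ y → y < d →
      v (x + 1) y = v x y ∧ v x (y + 1) = v x y ∧ v (x + 1) (y + 1) = v x y)
    (hab : a < b) : ∀ k l : ℕ, a + k ≤ b → c + l ≤ d → v (a + k) (c + l) = v a c := by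
  -- vertical steps
  have hv : ∀ l : ℕ, ∀ x, a ≤ x → x < b → c + l ≤ d → v x (c + l) = v x c := by
    intro l
    induction l with
    | zero => intro x _ _ _; simp
    | succ l ih =>
      intro x h1 h2 h3
      push_cast at h3 ⊢
      have h4 := (h x (c + l) h1 h2 (by omega) (by omega)).2.1
      rw [← ih x h1 h2 (by omega), ← h4]
      congr 1
      ring
  have hv' : ∀ l : ℕ, c + l ≤ d → v b (c + l) = v (b - 1) c := by
    intro l h3
    by_cases h4 : c + l < d
    · have h5 := (h (b - 1) (c + l) (by omega) (by omega) (by omega) h4).1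
      rw [show b - 1 + 1 = b by ring] at h5
      rw [h5, hv l (b - 1) (by omega) (by omega) h3]
    · have h6 : c + l = d := by omega
      have h5 := (h (b - 1) (d - 1) (by omega) (by omega) (by omega) (by omega)).2.2
      rw [show b - 1 + 1 = b by ring, show d - 1 + 1 = d by ring] at h5
      rw [h6, h5]
      have h7 := hv (l - 1) (b - 1) (by omega) (by omega) (by omega)
      rw [show c + ((l - 1 : ℕ) : ℤ) = d - 1 by omega] at h7
      exact h7
  have hh : ∀ k : ℕ, a + k < b → v (a + k) c = v a c := by
    intro k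
    induction k with
    | zero => intro _; simp
    | succ k ih =>
      intro h3
      push_cast at h3 ⊢
      have h4 := (h (a + k) c (by omega) (by omega) le_rfl hcd).1
      rw [← ih (by omega), ← h4]
      congr 1
      ring
  intro k l hk hl
  by_cases h1 : a + k < b
  · rw [hv l (a + k) (by omega) h1 hl, hh k h1]
  · rw [show a + (k : ℤ) = b by omega, hv' l hl]
    have := hh (k - 1) (by omega)
    rw [← this]
    congr 1
    omega

/-- **Crossing chains of the slit annulus share a face.** -/
theorem cross_slit {n N : ℤ} (hn : 1 ≤ n) (hN : n < N) :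
    Cross (adjQ n N) (lipL n N) (lipR n N) (inS n N) (outS n N) := by
  intro S S' h1 h2
  by_contra hdis
  rw [not_nonempty_iff_eq_empty] at hdis
  have hd : ∀ z, z ∈ S → z ∉ S' := fun z hz hz' => by
    have : z ∈ S ∩ S' := ⟨hz, hz'⟩
    rw [hdis] at this
    exact this
  obtain ⟨p, ⟨hpS, hpL⟩, q, ⟨hqS, hqR⟩, hpq⟩ := h1
  obtain ⟨p1, a⟩ := p
  obtain ⟨q1, b⟩ := q
  obtain ⟨rfl, ha1, ha2⟩ : p1 = -1 ∧ n ≤ a ∧ a < N := hpL
  obtain ⟨rfl, hb1, hb2⟩ : q1 = 1 ∧ n ≤ b ∧ b < N := hqR
  -- the cochain of the chain from lip to lip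
  obtain ⟨H, K, hb, hH, hK⟩ := chain_cochain (S := S ∩ QS n N)
    (Relation.ReflTransGen.mono (p := fun a b => nb a b ∧ a ∈ S ∩ QS n N ∧ b ∈ S ∩ QS n N)
      (fun _ _ h => ⟨h.1.1, ⟨h.2.1, h.1.2.1⟩, ⟨h.2.2, h.1.2.2⟩⟩) _ _ hpq)
  set H' : ℤ → ℤ → ZMod 2 := fun x y => H x y + slH a b x y with hH'
  set K' : ℤ → ℤ → ZMod 2 := fun x y => K x y + (sg 0 a x y + sg 1 b x y) with hK'
  have hclosed : ∀ x y, bdr H' K' x y = 0 := by
    intro x y
    have e1 := hb x y
    have e2 := slit_bdr a b x y
    simp only [bdr] at e1 e2 ⊢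
    simp only [hH', hK']
    have e3 := z2_add_self (sg (-1) a x y)
    have e4 := z2_add_self (sg 1 b x y)
    linear_combination e1 + e2 + e3 + e4
  obtain ⟨v, hv1, hv2⟩ := potential (N := N) fun x y _ _ _ _ => hclosed x y
  -- squares off the chain and off the slit carry no cochain
  have hfree : ∀ x y, -N ≤ x → x < N → -N ≤ y → y < N → (x, y) ∉ S ∩ QS n N →
      (x, y) ∉ slitS n N → v (x + 1) y = v x y ∧ v x (y + 1) = v x y ∧
        v (x + 1) (y + 1) = v x y := by
    intro x y hx0 hx hy0 hy hS hsl
    have hpS' : (-1, a) ∈ S ∩ QS n N := by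
      refine ⟨hpS, ?_, ?_, ?_⟩ <;> simp only [boxS, slitS, mem_setOf_eq] <;> omega
    have hqS' : (1, b) ∈ S ∩ QS n N := by
      refine ⟨hqS, ?_, ?_, ?_⟩ <;> simp only [boxS, slitS, mem_setOf_eq] <;> omega
    have hsl' : ¬ (x = 0 ∧ n ≤ y ∧ y < N) := hsl
    have hx1 : ¬ (x = -1 ∧ y = a) := by rintro ⟨rfl, rfl⟩; exact hS hpS'
    have hx2 : ¬ (x = 1 ∧ y = b) := by rintro ⟨rfl, rfl⟩; exact hS hqS'
    have k1 : H' x y = 0 := by
      simp only [hH']
      have : H x y = 0 := by
        by_contra h; exact hS (hH x y h).2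
      rw [this, zero_add]
      unfold slH
      rw [if_neg]
      omega
    have k2 : H' x (y + 1) = 0 := by
      simp only [hH']
      have : H x (y + 1) = 0 := by
        by_contra h
        have := (hH x (y + 1) h).1
        rw [show y + 1 - 1 = y by ring] at this
        exact hS this
      rw [this, zero_add]
      unfold slH
      rw [if_neg]
      omega
    have k3 : K' x y = 0 := by
      simp only [hK']
      have : K x y = 0 := by
        by_contra h; exact hS (hK x y h).2
      rw [this, zero_add]
      unfold sg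
      rw [if_neg (by omega), if_neg (by omega), zero_add]
    have k4 : K' (x + 1) y = 0 := by
      simp only [hK']
      have : K (x + 1) y = 0 := by
        by_contra h
        have := (hK (x + 1) y h).1
        rw [show x + 1 - 1 = x by ring] at this
        exact hS this
      rw [this, zero_add]
      unfold sg
      rw [if_neg (by omega), if_neg (by omega), zero_add]
    have m1 := hv1 x y hx
    have m2 := hv2 x y hx0 hx.le hy0 hy
    have m3 := hv2 (x + 1) y (by omega) (by omega) hy0 hy
    rw [k1, zero_add] at m1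
    rw [k3, zero_add] at m2
    rw [k4, zero_add] at m3
    refine ⟨m1.symm, m2.symm, ?_⟩
    rw [← m3, ← m1]
  -- the hole
  have hhole : ∀ x y, -n ≤ x → x ≤ n → -n ≤ y → y ≤ n → v x y = v (-n) (-n) := by
    intro x y hx1 hx2 hy1 hy2
    have h3 := const_rect (v := v) (a := -n) (b := n) (c := -n) (d := n) (by omega)
      (fun x y h1 h2 h3 h4 => hfree x y (by omega) (by omega) (by omega) (by omega)
        (by
          rintro ⟨-, -, h5, -⟩
          exact h5 ⟨h1, h2, h3, h4⟩)
        (by
          rintro ⟨-, h5, -⟩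
          simp only at h5
          omega)) (by omega) (x + n).toNat (y + n).toNat (by omega) (by omega)
    rw [← h3]
    congr 1 <;> omega
  -- the outer boundary
  have hQ0 : ∀ x y : ℤ, (x, y) ∈ S ∩ QS n N → -N ≤ x ∧ x < N ∧ -N ≤ y ∧ y < N := by
    rintro x y ⟨-, h3, -⟩
    exact h3
  have hN2 : 2 ≤ N := by omega
  have htop : ∀ k : ℕ, ∀ x : ℤ, -N ≤ x → x + k = N → v x N = v N N := by
    intro k
    induction k with
    | zero => intro x _ hk; rw [show x = N by simpa using hk]
    | succ k ih =>
      intro x hx hk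
      push_cast at hk
      have h3 := hv1 x N (by omega)
      have h4 : H' x N = 0 := by
        simp only [hH']
        have : H x N = 0 := by
          by_contra h
          have := hQ0 _ _ (hH x N h).2
          omega
        rw [this, zero_add]
        unfold slH
        rw [if_neg]
        omega
      rw [h4, zero_add] at h3
      rw [h3, ih (x + 1) (by omega) (by omega)]
  have hright : ∀ k : ℕ, ∀ y : ℤ, -N ≤ y → y + k = N → v N y = v N N := by
    intro k
    induction k with
    | zero => intro y _ hk; rw [show y = N by simpa using hk]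
    | succ k ih =>
      intro y hy hk
      push_cast at hk
      have h3 := hv2 N y (by omega) le_rfl hy (by omega)
      have h4 : K' N y = 0 := by
        simp only [hK']
        have : K N y = 0 := by
          by_contra h
          have := hQ0 _ _ (hK N y h).2
          omega
        rw [this, zero_add]
        unfold sg
        rw [if_neg (by omega), if_neg (by omega), zero_add]
      rw [h4, zero_add] at h3
      rw [h3, ih (y + 1) (by omega) (by omega)]
  have hbot : ∀ k : ℕ, ∀ x : ℤ, -N ≤ x → x + k = N → v x (-N) = v N N := by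
    intro k
    induction k with
    | zero =>
      intro x _ hk
      rw [show x = N by simpa using hk]
      exact hright (2 * N).toNat (-N) le_rfl (by omega)
    | succ k ih =>
      intro x hx hk
      push_cast at hk
      have h3 := hv1 x (-N) (by omega)
      have h4 : H' x (-N) = 0 := by
        simp only [hH']
        have : H x (-N) = 0 := by
          by_contra h
          have := hQ0 _ _ (hH x (-N) h).1
          omega
        rw [this, zero_add]
        unfold slH
        rw [if_neg]
        omega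
      rw [h4, zero_add] at h3
      rw [h3, ih (x + 1) (by omega) (by omega)]
  have hleft : ∀ k : ℕ, ∀ y : ℤ, -N ≤ y → y + k = N → v (-N) y = v N N := by
    intro k
    induction k with
    | zero =>
      intro y _ hk
      rw [show y = N by simpa using hk]
      exact htop (2 * N).toNat (-N) le_rfl (by omega)
    | succ k ih =>
      intro y hy hk
      push_cast at hk
      have h3 := hv2 (-N) y le_rfl (by omega) hy (by omega)
      have h4 : K' (-N) y = 0 := by
        simp only [hK']
        have : K (-N) y = 0 := by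
          by_contra h
          have := hQ0 _ _ (hK (-N) y h).1
          omega
        rw [this, zero_add]
        unfold sg
        rw [if_neg (by omega), if_neg (by omega), zero_add]
      rw [h4, zero_add] at h3
      rw [h3, ih (y + 1) (by omega) (by omega)]
  -- the column next to the left lip
  have hcol : ∀ k : ℕ, ∀ y : ℤ, n ≤ y → y + k = N → v 0 y = v N N + if y ≤ a then 1 else 0 := by
    intro k
    induction k with
    | zero =>
      intro y _ hk
      rw [show y = N by simpa using hk, if_neg (by omega), add_zero]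
      exact htop N.toNat 0 (by omega) (by omega)
    | succ k ih =>
      intro y hy hk
      push_cast at hk
      have h3 := hv2 0 y (by omega) (by omega) (by omega) (by omega)
      have h4 : K' 0 y = if y = a then 1 else 0 := by
        simp only [hK']
        have : K 0 y = 0 := by
          by_contra h
          have h5 := (hK 0 y h).2.2.2.2
          exact h5 ⟨rfl, hy, by simp only; omega⟩
        rw [this, zero_add]
        unfold sg
        rw [if_neg (c := (0 : ℤ) = 1 ∧ y = b) (by omega), add_zero]
        simp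
      rw [h4] at h3
      rw [h3, ih (y + 1) (by omega) (by omega)]
      rcases lt_trichotomy y a with h5 | h5 | h5
      · rw [if_neg (by omega), if_pos (by omega), if_pos (by omega), zero_add]
      · rw [if_pos h5, if_neg (by omega), if_pos (by omega)]
        ring
      · rw [if_neg (by omega), if_neg (by omega), if_neg (by omega), zero_add]
  have hone : v (-n) (-n) = v N N + 1 := by
    rw [← hhole 0 n (by omega) (by omega) (by omega) le_rfl,
      hcol (N - n).toNat n le_rfl (by omega), if_pos ha1]
  -- the second chain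
  obtain ⟨c, ⟨hcS, hcQ, w, hw, hcw⟩, d, ⟨hdS, hdQ, w', hw', hdw⟩, hcd⟩ := h2
  have hfree' : ∀ z : ℤ × ℤ, z ∈ S' → z ∈ QS n N → v (z.1 + 1) z.2 = v z.1 z.2 ∧
      v z.1 (z.2 + 1) = v z.1 z.2 ∧ v (z.1 + 1) (z.2 + 1) = v z.1 z.2 := by
    intro z hz hzQ
    obtain ⟨⟨h3, h4, h5, h6⟩, -, h7⟩ := hzQ
    exact hfree z.1 z.2 h3 h4 h5 h6 (fun h => hd _ h.1 hz) h7
  have hchain : v c.1 c.2 = v d.1 d.2 := by
    have hcc : ∀ z, Relation.ReflTransGen (fun a b => adjQ n N a b ∧ a ∈ S' ∧ b ∈ S') c z →
        v c.1 c.2 = v z.1 z.2 := by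
      intro z hz
      induction hz with
      | refl => rfl
      | @tail e f _ hef ih =>
        obtain ⟨⟨h3, h4, h5⟩, h6, h7⟩ := hef
        rw [ih]
        have k1 := hfree' e h6 h4
        have k2 := hfree' f h7 h5
        rcases nb_cases h3 with h8 | h8 | h8 | h8
        · rw [h8]; exact k1.1.symm
        · rw [h8]; exact k2.1
        · rw [h8]; exact k1.2.1.symm
        · rw [h8]; exact k2.2.1
    exact hcc d hcd
  have hc : v c.1 c.2 = v (-n) (-n) := by
    have k1 := hfree' c hcS hcQ
    obtain ⟨g1, g2, g3, g4⟩ := hw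
    obtain ⟨⟨e1, e2, e3, e4⟩, e5, -⟩ := hcQ
    rcases nb_cases hcw with h8 | h8 | h8 | h8
    · rw [h8] at g1 g2 g3 g4
      simp only at g1 g2 g3 g4
      rw [← k1.1]
      exact hhole _ _ (by omega) (by omega) (by omega) (by omega)
    · rw [h8]
      exact hhole _ _ (by simp only; omega) (by simp only; omega) (by simp only; omega)
        (by simp only; omega)
    · rw [h8] at g1 g2 g3 g4
      simp only at g1 g2 g3 g4
      rw [← k1.2.1]
      exact hhole _ _ (by omega) (by omega) (by omega) (by omega)
    · rw [h8]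
      exact hhole _ _ (by simp only; omega) (by simp only; omega) (by simp only; omega)
        (by simp only; omega)
  have hdd : v d.1 d.2 = v N N := by
    have k1 := hfree' d hdS hdQ
    obtain ⟨⟨e1, e2, e3, e4⟩, -, -⟩ := hdQ
    have hw2 : ¬ (-N ≤ w'.1 ∧ w'.1 < N ∧ -N ≤ w'.2 ∧ w'.2 < N) := hw'
    rcases nb_cases hdw with h8 | h8 | h8 | h8
    · rw [h8] at hw2
      simp only at hw2
      rw [← k1.1, show d.1 + 1 = N by omega]
      exact hright (N - d.2).toNat _ e3 (by omega)
    · have : w'.1 = d.1 - 1 ∧ w'.2 = d.2 := by rw [h8]; simp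
      rw [show d.1 = -N by omega]
      exact hleft (N - d.2).toNat _ e3 (by omega)
    · rw [h8] at hw2
      simp only at hw2
      rw [← k1.2.1, show d.2 + 1 = N by omega]
      exact htop (N - d.1).toNat _ e1 (by omega)
    · have : w'.1 = d.1 ∧ w'.2 = d.2 - 1 := by rw [h8]; simp
      rw [show d.2 = -N by omega]
      exact hbot (N - d.1).toNat _ e1 (by omega)
  have : v N N + 1 = v N N := by rw [← hone, ← hc, hchain, hdd]
  have h9 : (1 : ZMod 2) = 0 := by linear_combination this
  revert h9
  decide

end Vale.Agent.P159.T1.H995
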