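import Vale.Agent.P159.T1.H910.Sym

/-!
# P159 T1: mirror symmetry of the height sums, image form
-/

namespace Vale.Agent.P159.T1.H995

open Vale.Agent.P159.T1.D Vale.Agent.P159.T1.H910

theorem mir_mir' (r : ℕ) (f : Z2) : mir r (mir r f) = f := by
  unfold mir
  ext <;> simp

theorem image_mir (U : Finset Z2) (r : ℕ) :
    U.image (mir r) = U.map (mirF r).toEmbedding := by
  ext f
  simp only [Finset.mem_image, Finset.mem_map]
  constructor
  · rintro ⟨g, hg, rfl⟩
    exact ⟨g, hg, mirF_apply r g⟩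
  · rintro ⟨g, hg, rfl⟩
    exact ⟨g, hg, (mirF_apply r g).symm⟩

/-- mirror symmetry of the partition function with charges -/
theorem Zρ_image (b : ℝ) (U : Finset Z2) (ρ : Z2 → ℝ) (r : ℕ) :
    Zρ b (U.image (mir r)) (fun f => ρ (mir r f)) = Zρ b U ρ := by
  rw [image_mir, Zρ_symm (isSym_mir r)]
  congr 1
  funext f
  simp only [Function.comp, mirF_apply, mir_mir']

end Vale.Agent.P159.T1.H995
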