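import Vale.Agent.P159.T1.D.H757.Ring
import Vale.Agent.P159.T1.H934.CoverDefs

/-!
# P159 T1, row D.LOW, RING: the quarter plane boxes of the five angular pieces

Piece `0`: angles in `(-π, -π/2 - α]`, piece `1`: `[-π + α, -α]`, piece `2`:
`[-π/2 + α, π/2 - α]`, piece `3`: `[α, π - α]`, piece `4`: `[π/2 + α, π)`. The moduli are in
`(1 / sin α, A]` (in units of `n`). The boxes have side `n * R` with `R + 2 ≤ K`.
-/

namespace Vale.Agent.P159.T1.H995

open Vale.Agent.P159.T1.D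

/-- the corners in the continuum -/
def vR (A : ℕ) (i : Fin 5) : ℝ × ℝ :=
  if i = 0 then (-1, 0) else if i = 1 then (-(A : ℝ), -1) else if i = 2 then (1, -(A : ℝ)) else
    if i = 3 then (-(A : ℝ), 1) else (-1, 0)

/-- the corners on the lattice -/
def uR (A n : ℕ) (i : Fin 5) : Z2 :=
  if i = 0 then (-(n : ℤ), -1) else if i = 1 then (-((n * A : ℕ) : ℤ), -(n : ℤ)) else
    if i = 2 then ((n : ℤ), -((n * A : ℕ) : ℤ)) else
    if i = 3 then (-((n * A : ℕ) : ℤ), (n : ℤ)) else (-(n : ℤ), 0)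

/-- right or left -/
def xR (i : Fin 5) : Bool := if i = 0 then false else if i = 4 then false else true

/-- up or down -/
def yR (i : Fin 5) : Bool := if i = 0 then false else if i = 1 then false else true

theorem ring_box {A R K n : ℕ} (hn : 1 ≤ n) (hR : R + 2 ≤ K) (hA : A + 2 ≤ K) (i : Fin 5)
    (f : Z2) (h1 : 0 ≤ f.1) (h2 : f.1 < n * R) (h3 : 0 ≤ f.2) (h4 : f.2 < n * R) :
    iso (uR A n i) (xR i) (yR i) false f ∈ ann n (K * n - 1) := by
  have e1 : (n : ℤ) * R + 2 * n ≤ K * n := by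
    have : ((R : ℤ) + 2) * n ≤ K * n :=
      mul_le_mul_of_nonneg_right (by exact_mod_cast hR) (by positivity)
    nlinarith
  have e2 : (n : ℤ) * A + 2 * n ≤ K * n := by
    have : ((A : ℤ) + 2) * n ≤ K * n :=
      mul_le_mul_of_nonneg_right (by exact_mod_cast hA) (by positivity)
    nlinarith
  have e3 : ((K * n - 1 : ℕ) : ℤ) = K * n - 1 := by
    have : 1 ≤ K * n := Nat.one_le_iff_ne_zero.mpr (by
      have : 0 < K := by omega
      positivity)
    push_cast [Nat.cast_sub this]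
    ring
  have hn' : (1 : ℤ) ≤ n := by exact_mod_cast hn
  have hA0 : (0 : ℤ) ≤ (n : ℤ) * A := by positivity
  have hR0 : (0 : ℤ) ≤ (n : ℤ) * R := by positivity
  unfold ann iso
  rw [Finset.mem_filter, Finset.mem_product, Finset.mem_Ico, Finset.mem_Ico, e3]
  fin_cases i <;> simp [uR, xR, yR] <;> push_cast at * <;>
    refine ⟨⟨⟨?_, ?_⟩, ?_, ?_⟩, ?_, ?_⟩ <;> intros <;> first | omega | nlinarith

theorem ring_close (A n : ℕ) (i : Fin 5) :
    |((uR A n i).1 : ℝ) - n * (vR A i).1| ≤ 1 ∧ |((uR A n i).2 : ℝ) - n * (vR A i).2| ≤ 1 := by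
  fin_cases i <;> simp [uR, vR]

/-- the angular sector of the piece `i` -/
def secR (α : ℝ) (i : Fin 5) : Set ℝ :=
  if i = 0 then Set.Ioc (-Real.pi) (-(Real.pi / 2) - α) else
    if i = 1 then Set.Icc (-Real.pi + α) (-α) else
    if i = 2 then Set.Icc (-(Real.pi / 2) + α) (Real.pi / 2 - α) else
    if i = 3 then Set.Icc α (Real.pi - α) else Set.Ico (Real.pi / 2 + α) Real.pi

theorem sin_ge {α θ : ℝ} (h0 : 0 ≤ α) (h1 : α ≤ Real.pi / 2) (h2 : α ≤ θ)
    (h3 : θ ≤ Real.pi - α) : Real.sin α ≤ Real.sin θ := by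
  rcases le_total θ (Real.pi / 2) with h | h
  · exact Real.sin_le_sin_of_le_of_le_pi_div_two (by linarith) h h2
  · rw [← Real.sin_pi_sub θ]
    exact Real.sin_le_sin_of_le_of_le_pi_div_two (by linarith) (by linarith) (by linarith)

theorem lt_of_sq {ρ X Y : ℝ} (h0 : 0 < ρ) (h : X ^ 2 + Y ^ 2 = ρ ^ 2) (hY : 1 < Y) :
    -ρ < X ∧ X < ρ := abs_lt.mp (abs_lt_of_sq_lt_sq (by nlinarith) h0.le)

/-- the supports: moduli in `(1 / sin α, A]`, angles in the sector -/
theorem ring_supp {A : ℕ} {α ρ θ : ℝ} (i : Fin 5) (h0 : 0 ≤ α) (h1 : α ≤ Real.pi / 2)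
    (hρ : 1 < ρ * Real.sin α) (hρ0 : 0 < ρ) (hA : ρ ≤ A) (hθ : θ ∈ secR α i) :
    ∃ q : ℝ × ℝ, 0 < q.1 ∧ q.1 ≤ (2 * A : ℕ) ∧ 0 < q.2 ∧ q.2 ≤ (2 * A : ℕ) ∧
      isoR (vR A i) (xR i) (yR i) false q = (ρ * Real.cos θ, ρ * Real.sin θ) := by
  have hc1 := Real.cos_le_one θ
  have hc2 := Real.neg_one_le_cos θ
  have hs1 := Real.sin_le_one θ
  have hs2 := Real.neg_one_le_sin θ
  have c1 : ρ * Real.cos θ ≤ ρ := by nlinarith
  have c2 : -ρ ≤ ρ * Real.cos θ := by nlinarith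
  have s1 : ρ * Real.sin θ ≤ ρ := by nlinarith
  have s2 : -ρ ≤ ρ * Real.sin θ := by nlinarith
  have sa := Real.sin_le_one α
  have hρ1 : 1 < ρ := by nlinarith
  have key : ∀ t : ℝ, Real.sin α ≤ t → 1 < ρ * t := fun t ht => by nlinarith
  have hcs : (ρ * Real.cos θ) ^ 2 + (ρ * Real.sin θ) ^ 2 = ρ ^ 2 := by
    have := Real.cos_sq_add_sin_sq θ
    linear_combination ρ ^ 2 * this
  have hcast : ((2 * A : ℕ) : ℝ) = 2 * A := by push_cast; ring
  have hpi := Real.pi_pos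
  rw [hcast]
  fin_cases i
  · simp only [secR] at hθ
    simp at hθ
    obtain ⟨t1, t2⟩ := hθ
    have a1 : Real.sin α ≤ -Real.cos θ := by
      have := sin_ge (θ := -θ - Real.pi / 2) h0 h1 (by linarith) (by linarith)
      rw [show -θ - Real.pi / 2 = -(θ + Real.pi / 2) by ring, Real.sin_neg,
        Real.sin_add_pi_div_two] at this
      exact this
    have a2 : Real.sin θ < 0 := Real.sin_neg_of_neg_of_neg_pi_lt (by linarith) (by linarith)
    have a3 := key _ a1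
    refine ⟨(-(ρ * Real.cos θ) - 1, -(ρ * Real.sin θ)), by simp; linarith, by simp; linarith,
      by simp; nlinarith, by simp; linarith, ?_⟩
    simp [isoR, vR, xR, yR]
  · simp only [secR] at hθ
    simp at hθ
    obtain ⟨t1, t2⟩ := hθ
    have a1 : Real.sin α ≤ -Real.sin θ := by
      have := sin_ge (θ := -θ) h0 h1 (by linarith) (by linarith)
      rwa [Real.sin_neg] at this
    have a3 := key _ a1
    have a4 := lt_of_sq hρ0 (X := ρ * Real.cos θ) (Y := ρ * -Real.sin θ)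
      (by rw [← hcs]; ring) a3
    refine ⟨(ρ * Real.cos θ + A, -(ρ * Real.sin θ) - 1), by simp; linarith, by simp; linarith,
      by simp; linarith, by simp; linarith, ?_⟩
    simp [isoR, vR, xR, yR]
  · simp only [secR] at hθ
    simp at hθ
    obtain ⟨t1, t2⟩ := hθ
    have a1 : Real.sin α ≤ Real.cos θ := by
      have := sin_ge (θ := θ + Real.pi / 2) h0 h1 (by linarith) (by linarith)
      rwa [Real.sin_add_pi_div_two] at this
    have a3 := key _ a1
    have a4 := lt_of_sq hρ0 (X := ρ * Real.sin θ) (Y := ρ * Real.cos θ)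
      (by rw [← hcs]; ring) a3
    refine ⟨(ρ * Real.cos θ - 1, ρ * Real.sin θ + A), by simp; linarith, by simp; linarith,
      by simp; linarith, by simp; linarith, ?_⟩
    simp [isoR, vR, xR, yR]
  · simp only [secR] at hθ
    simp at hθ
    obtain ⟨t1, t2⟩ := hθ
    have a1 : Real.sin α ≤ Real.sin θ := sin_ge h0 h1 (by linarith) (by linarith)
    have a3 := key _ a1
    have a4 := lt_of_sq hρ0 (X := ρ * Real.cos θ) (Y := ρ * Real.sin θ) hcs a3
    refine ⟨(ρ * Real.cos θ + A, ρ * Real.sin θ - 1), by simp; linarith, by simp; linarith,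
      by simp; linarith, by simp; linarith, ?_⟩
    simp [isoR, vR, xR, yR]
  · simp only [secR] at hθ
    simp at hθ
    obtain ⟨t1, t2⟩ := hθ
    have a1 : Real.sin α ≤ -Real.cos θ := by
      have := sin_ge (θ := θ - Real.pi / 2) h0 h1 (by linarith) (by linarith)
      rwa [Real.sin_sub_pi_div_two] at this
    have a2 : 0 < Real.sin θ := Real.sin_pos_of_pos_of_lt_pi (by linarith) (by linarith)
    have a3 := key _ a1
    refine ⟨(-(ρ * Real.cos θ) - 1, ρ * Real.sin θ), by simp; linarith, by simp; linarith,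
      by simp; positivity, by simp; linarith, ?_⟩
    simp [isoR, vR, xR, yR]

/-- `ring_supp` in terms of the argument -/
theorem ring_supp' {A : ℕ} {α : ℝ} (i : Fin 5) (h0 : 0 ≤ α) (h1 : α ≤ Real.pi / 2) (p : ℝ × ℝ)
    (hρ : 1 < Real.sqrt (p.1 ^ 2 + p.2 ^ 2) * Real.sin α)
    (hA : Real.sqrt (p.1 ^ 2 + p.2 ^ 2) ≤ A) (hθ : Complex.arg ⟨p.1, p.2⟩ ∈ secR α i) :
    ∃ q : ℝ × ℝ, 0 < q.1 ∧ q.1 ≤ (2 * A : ℕ) ∧ 0 < q.2 ∧ q.2 ≤ (2 * A : ℕ) ∧
      isoR (vR A i) (xR i) (yR i) false q = p := by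
  have hn : ‖(⟨p.1, p.2⟩ : ℂ)‖ = Real.sqrt (p.1 ^ 2 + p.2 ^ 2) := by
    rw [Complex.norm_def, Complex.normSq_mk]
    congr 1
    ring
  have hpos : 0 < Real.sqrt (p.1 ^ 2 + p.2 ^ 2) := by
    rcases (Real.sqrt_nonneg (p.1 ^ 2 + p.2 ^ 2)).eq_or_lt with h | h
    · rw [← h] at hρ
      norm_num at hρ
    · exact h
  obtain ⟨q, a1, a2, a3, a4, a5⟩ := ring_supp i h0 h1 hρ hpos hA hθ
  refine ⟨q, a1, a2, a3, a4, a5.trans ?_⟩
  rw [← hn, Complex.norm_mul_cos_arg, Complex.norm_mul_sin_arg]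

end Vale.Agent.P159.T1.H995
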