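import Vale.Agent.P159.T1.D.H770.RingDefs
import Vale.Agent.P159.T1.H995.RingB

/-!
# P159 T1, row D.LOW, RING: the boxes of the five pieces of `StmtPolE`, in the order and in the
language of `D/H770/RingDefs.lean`
-/

namespace Vale.Agent.P159.T1.H995

open Vale.Agent.P159.T1.D

/-- the corners in the continuum -/
def vE (S : ℕ) (i : Fin 5) : ℝ × ℝ :=
  if i = 0 then (-1, 0) else if i = 1 then (-(S : ℝ), 1) else if i = 2 then (1, -(S : ℝ)) else
    if i = 3 then (-(S : ℝ), -1) else (-1, 0)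

/-- the corners on the lattice -/
def uE (S n : ℕ) (i : Fin 5) : Z2 :=
  if i = 0 then (-(n : ℤ), 0) else if i = 1 then (-((n * S : ℕ) : ℤ), (n : ℤ)) else
    if i = 2 then ((n : ℤ), -((n * S : ℕ) : ℤ)) else
    if i = 3 then (-((n * S : ℕ) : ℤ), -(n : ℤ)) else (-(n : ℤ), -1)

/-- right or left -/
def xE (i : Fin 5) : Bool := if i = 0 then false else if i = 4 then false else true

/-- up or down -/
def yE (i : Fin 5) : Bool := if i = 4 then false else if i = 3 then false else true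

/-- the sectors of `StmtPolE` -/
def secE (α : ℝ) (i : Fin 5) : Set ℝ :=
  if i = 0 then Set.Icc (Real.pi / 2 + α) (Real.pi - α) else
    if i = 1 then Set.Icc α (Real.pi - α) else
    if i = 2 then Set.Icc (-(Real.pi / 2) + α) (Real.pi / 2 - α) else
    if i = 3 then Set.Icc (-Real.pi + α) (-α) else
      Set.Icc (-Real.pi + α) (-(Real.pi / 2) - α)

/-- the order of the pieces -/
def pE (i : Fin 5) : Fin 5 :=
  if i = 0 then 4 else if i = 1 then 3 else if i = 2 then 2 else if i = 3 then 1 else 0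

theorem vE_eq (S : ℕ) (i : Fin 5) : vE S i = vR S (pE i) := by
  fin_cases i <;> rfl

theorem uE_eq (S n : ℕ) (i : Fin 5) : uE S n i = uR S n (pE i) := by
  fin_cases i <;> rfl

theorem xE_eq (i : Fin 5) : xE i = xR (pE i) := by
  fin_cases i <;> rfl

theorem yE_eq (i : Fin 5) : yE i = yR (pE i) := by
  fin_cases i <;> rfl

/-- the boxes are contained in the slit ring -/
theorem polBox {S R K n : ℕ} (hn : 1 ≤ n) (hR : R + 2 ≤ K) (hS : S + 2 ≤ K) (i : Fin 5)
    (f : Z2) (h1 : 0 ≤ f.1) (h2 : f.1 < n * R) (h3 : 0 ≤ f.2) (h4 : f.2 < n * R) :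
    iso (uE S n i) (xE i) (yE i) false f ∈ ann n (K * n - 1) := by
  rw [uE_eq, xE_eq, yE_eq]
  exact ring_box hn hR hS _ f h1 h2 h3 h4

theorem polClose (S n : ℕ) (i : Fin 5) :
    |((uE S n i).1 : ℝ) - n * (vE S i).1| ≤ 1 ∧ |((uE S n i).2 : ℝ) - n * (vE S i).2| ≤ 1 := by
  rw [uE_eq, vE_eq]
  exact ring_close S n _

/-- the supports of the pieces: moduli in `[M, S]`, `1 < M sin α` -/
theorem polSupp {S : ℕ} {α M : ℝ} (i : Fin 5) (z : ℝ × ℝ) (hα : 0 < α) (hM : 0 < M)
    (h1 : 1 < M * Real.sin α) (hS : 1 ≤ S) (hz : z ≠ 0) (h2 : Real.log M ≤ lr z)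
    (h3 : lr z ≤ Real.log S) (har : ar z ∈ secE α i) :
    ∃ q : ℝ × ℝ, 0 < q.1 ∧ q.1 ≤ (2 * S : ℕ) ∧ 0 < q.2 ∧ q.2 ≤ (2 * S : ℕ) ∧
      isoR (vE S i) (xE i) (yE i) false q = z := by
  rw [vE_eq, xE_eq, yE_eq]
  have hpi := Real.pi_pos
  have hsec : α ≤ Real.pi / 2 ∧ ar z ∈ secR α (pE i) := by
    fin_cases i
    · simp only [secE] at har
      simp at har
      simp only [secR, pE]
      simp
      exact ⟨by linarith [har.1, har.2], har.1, by linarith [har.2]⟩
    · simp only [secE] at har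
      simp at har
      simp only [secR, pE]
      simp
      exact ⟨by linarith [har.1, har.2], har.1, by linarith [har.2]⟩
    · simp only [secE] at har
      simp at har
      simp only [secR, pE]
      simp
      exact ⟨by linarith [har.1, har.2], har.1, by linarith [har.2]⟩
    · simp only [secE] at har
      simp at har
      simp only [secR, pE]
      simp
      exact ⟨by linarith [har.1, har.2], har.1, by linarith [har.2]⟩
    · simp only [secE] at har
      simp at har
      simp only [secR, pE]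
      simp
      exact ⟨by linarith [har.1, har.2], by linarith [har.1], by linarith [har.2]⟩
  have hpos : 0 < z.1 ^ 2 + z.2 ^ 2 := by
    by_contra hc
    have e1 : z.1 ^ 2 = 0 := by nlinarith [sq_nonneg z.1, sq_nonneg z.2]
    have e2 : z.2 ^ 2 = 0 := by nlinarith [sq_nonneg z.1, sq_nonneg z.2]
    exact hz (Prod.ext (pow_eq_zero_iff two_ne_zero |>.mp e1) (pow_eq_zero_iff two_ne_zero |>.mp e2))
  have hsq : 0 < Real.sqrt (z.1 ^ 2 + z.2 ^ 2) := Real.sqrt_pos.mpr hpos
  have g1 : M ≤ Real.sqrt (z.1 ^ 2 + z.2 ^ 2) := (Real.log_le_log_iff hM hsq).mp h2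
  have hS' : (0 : ℝ) < S := by exact_mod_cast hS
  have g2 : Real.sqrt (z.1 ^ 2 + z.2 ^ 2) ≤ S := (Real.log_le_log_iff hsq hS').mp h3
  have hs0 : 0 < Real.sin α := Real.sin_pos_of_pos_of_lt_pi hα (by linarith [hsec.1])
  refine ring_supp' (pE i) hα.le hsec.1 z ?_ g2 hsec.2
  calc 1 < M * Real.sin α := h1
    _ ≤ _ := mul_le_mul_of_nonneg_right g1 hs0.le

end Vale.Agent.P159.T1.H995
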