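import Vale.Agent.P159.T1.H995.Two

/-!
The slit box of plan 115 with a box `[-A, X) × [-A, A)`: same statements as in `Two.lean`.
-/

namespace Vale.Agent.P159.T1.H995

open Vale.Agent.P159.R2.H729 Set
open scoped Classical

/-- the faces of the domain -/
def slQ (A X r : ℤ) : Set (ℤ × ℤ) :=
  {z | (-A ≤ z.1 ∧ z.1 < X ∧ -A ≤ z.2 ∧ z.2 < A) ∧ ¬ (z.2 = -1 ∧ (z.1 < 0 ∨ r ≤ z.1))}

/-- the squares of the outer face -/
def slC (A X r : ℤ) : Set (ℤ × ℤ) :=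
  {z | ¬ (-A ≤ z.1 ∧ z.1 < X ∧ -A ≤ z.2 ∧ z.2 < A) ∨ (z.2 = -1 ∧ (z.1 < 0 ∨ r ≤ z.1))}

/-- the faces next to `o₋` -/
def slU (A X r : ℤ) : Set (ℤ × ℤ) := {z | z ∈ slQ A X r ∧ 0 ≤ z.2 ∧ ∃ w ∈ slC A X r, nb z w}

/-- the faces next to `o₊` -/
def slL (A X r : ℤ) : Set (ℤ × ℤ) := {z | z ∈ slQ A X r ∧ z.2 < 0 ∧ ∃ w ∈ slC A X r, nb z w}

/-- the squares of the domain with corner `(a, 0)` -/
def slT (A X r a : ℤ) : Set (ℤ × ℤ) :=
  {z | z ∈ slQ A X r ∧ (z.1 = a - 1 ∨ z.1 = a) ∧ (z.2 = -1 ∨ z.2 = 0)}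

lemma slQC (A X r : ℤ) : Disjoint (slQ A X r) (slC A X r) := by
  rw [Set.disjoint_left]
  rintro z ⟨h1, h2⟩ (h3 | h3)
  · exact h3 h1
  · exact h2 h3

lemma mem_slQ {A X r x y : ℤ} : (x, y) ∈ slQ A X r ↔
    (-A ≤ x ∧ x < X ∧ -A ≤ y ∧ y < A) ∧ ¬ (y = -1 ∧ (x < 0 ∨ r ≤ x)) := Iff.rfl

lemma mem_slC {A X r x y : ℤ} : (x, y) ∈ slC A X r ↔
    ¬ (-A ≤ x ∧ x < X ∧ -A ≤ y ∧ y < A) ∨ (y = -1 ∧ (x < 0 ∨ r ≤ x)) := Iff.rfl

/-- the outer face is connected -/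
lemma slC_conn {A X r : ℤ} {z w : ℤ × ℤ} (hz : z ∈ slC A X r) (hw : w ∈ slC A X r) :
    chn (slC A X r) z w := by
  have key : ∀ z ∈ slC A X r, chn (slC A X r) z (X, A) := by
    have hA : ∀ x y : ℤ, X ≤ x → chn (slC A X r) (x, y) (X, A) := fun x y h =>
      chn_trans (chn_v (y' := A) fun i _ => mem_slC.2 (by omega))
        (chn_h fun i _ => mem_slC.2 (by omega))
    have hB : ∀ x y : ℤ, x < -A → chn (slC A X r) (x, y) (X, A) := fun x y h =>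
      chn_trans (chn_v (y' := A) fun i _ => mem_slC.2 (by omega))
        (chn_h fun i _ => mem_slC.2 (by omega))
    rintro ⟨x, y⟩ hz
    by_cases h1 : X ≤ x
    · exact hA x y h1
    by_cases h4 : x < -A
    · exact hB x y h4
    rw [mem_slC] at hz
    by_cases h2 : A ≤ y ∨ y < -A
    · exact chn_trans (chn_h (x' := X) fun i _ => mem_slC.2 (by omega)) (hA X y le_rfl)
    by_cases h5 : x < 0
    · exact chn_trans (chn_h (x' := -A - 1) fun i hi => mem_slC.2 (by omega))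
        (hB _ y (by omega))
    · exact chn_trans (chn_h (x' := X) fun i hi => mem_slC.2 (by omega)) (hA X y le_rfl)
  exact chn_trans (key z hz) (chn_symm (key w hw))

/-- **A chain from `o₋` to `o₊` and a chain from tip to tip share a face.** -/
theorem sl_cross {A X r : ℤ} (hr : 0 < r) (hX : r < X) (hA : 1 ≤ A) :
    Cross (adjS (slQ A X r)) (slU A X r) (slL A X r) (slT A X r 0) (slT A X r r) := by
  intro S S' hS hS'
  by_contra hdis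
  rw [not_nonempty_iff_eq_empty] at hdis
  have hd : ∀ z, z ∈ S → z ∉ S' := fun z hz hz' => by
    have : z ∈ S ∩ S' := ⟨hz, hz'⟩
    rw [hdis] at this
    exact this
  obtain ⟨p, ⟨hpS, hpQ, hp2, wp, hwp, hpwp⟩, q, ⟨hqS, hqQ, hq2, wq, hwq, hqwq⟩, hpq⟩ := hS
  have hQC := slQC A X r
  obtain ⟨v, hv, hvH, hvK⟩ := core (S := S) hQC (fun z hz w hw => slC_conn hz hw)
    ⟨hpS, hpQ⟩ hwp hpwp ⟨hqS, hqQ⟩ hwq hqwq
    (Relation.ReflTransGen.mono (p := fun a b => nb a b ∧ a ∈ S ∩ slQ A X r ∧ b ∈ S ∩ slQ A X r)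
      (fun _ _ h => ⟨h.1.1, ⟨h.2.1, h.1.2.1⟩, ⟨h.2.2, h.1.2.2⟩⟩) _ _ hpq)
  obtain ⟨p1, p2⟩ := p
  obtain ⟨w1, w2⟩ := wp
  obtain ⟨q1, q2⟩ := q
  obtain ⟨u1, u2⟩ := wq
  have hpQ' := mem_slQ.1 hpQ
  have hqQ' := mem_slQ.1 hqQ
  have hwp' := mem_slC.1 hwp
  have hwq' := mem_slC.1 hwq
  simp only at hp2 hq2
  -- the five parts of `o₋`
  have E1 := walk_h (v := v) (p := (p1, p2)) (w := (w1, w2)) (a := -A) (b := 0) (y0 := 0) (by omega)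
    (fun i h1 h2 => by
      rw [hvH i 0 (Or.inr ⟨mem_slC.2 (by omega), mem_slQ.2 (by omega)⟩),
        if_neg (c := isH (q1, q2) (u1, u2) i 0)]
      · ring
      · simp only [isH, Prod.mk.injEq]
        omega)
  have E2 := walk_v (v := v) (p := (p1, p2)) (w := (w1, w2)) (a := 0) (b := A) (x0 := -A) (by omega)
    (fun i h1 h2 => by
      rw [hvK (-A) i (Or.inr ⟨mem_slC.2 (by omega), mem_slQ.2 (by omega)⟩),
        if_neg (c := isK (q1, q2) (u1, u2) (-A) i)]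
      · ring
      · simp only [isK, Prod.mk.injEq]
        omega)
  have E3 := walk_h (v := v) (p := (p1, p2)) (w := (w1, w2)) (a := -A) (b := X) (y0 := A) (by omega)
    (fun i h1 h2 => by
      rw [hvH i A (Or.inl ⟨mem_slQ.2 (by omega), mem_slC.2 (by omega)⟩),
        if_neg (c := isH (q1, q2) (u1, u2) i A)]
      · ring
      · simp only [isH, Prod.mk.injEq]
        omega)
  have E4 := walk_v (v := v) (p := (p1, p2)) (w := (w1, w2)) (a := 0) (b := A) (x0 := X) (by omega)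
    (fun i h1 h2 => by
      rw [hvK X i (Or.inl ⟨mem_slQ.2 (by omega), mem_slC.2 (by omega)⟩),
        if_neg (c := isK (q1, q2) (u1, u2) X i)]
      · ring
      · simp only [isK, Prod.mk.injEq]
        omega)
  have E5 := walk_h (v := v) (p := (p1, p2)) (w := (w1, w2)) (a := r) (b := X) (y0 := 0) (by omega)
    (fun i h1 h2 => by
      rw [hvH i 0 (Or.inr ⟨mem_slC.2 (by omega), mem_slQ.2 (by omega)⟩),
        if_neg (c := isH (q1, q2) (u1, u2) i 0)]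
      · ring
      · simp only [isH, Prod.mk.injEq]
        omega)
  have hnb := nb_cases hpwp
  simp only [isH, isK, Prod.mk.injEq, true_and, and_true] at E1 E2 E3 E4 E5 hnb
  have hone : v 0 0 = v r 0 + 1 := by
    have fin : ∀ a b c d e f I1 I2 I3 I4 I5 : ZMod 2, a = b + I1 → a = c + I2 → c = d + I3 →
        e = d + I4 → f = e + I5 → I1 + I2 + I3 + I4 + I5 = 1 → b = f + 1 := by
      intro a b c d e f I1 I2 I3 I4 I5 h1 h2 h3 h4 h5 h6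
      rw [← h6]
      linear_combination -h1 + h2 + h3 - h4 - h5 - z2_add_self I1 - z2_add_self I4 -
        z2_add_self I5
    refine fin _ _ _ _ _ _ _ _ _ _ _ E1 E2 E3 E4 E5 ?_
    clear E1 E2 E3 E4 E5 fin hvH hvK hv hpq hqQ' hwq' hqQ hwq hqwq hd hdis hpQ hwp hpwp
    rcases hnb with ⟨g1, g2⟩ | ⟨g1, g2⟩ | ⟨g1, g2⟩ | ⟨g1, g2⟩
    · rw [if_neg (by omega), if_neg (by omega), if_neg (by omega), if_pos (by omega),
        if_neg (by omega)]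
      rfl
    · rw [if_neg (by omega), if_pos (by omega), if_neg (by omega), if_neg (by omega),
        if_neg (by omega)]
      rfl
    · rw [if_neg (by omega), if_neg (by omega), if_pos (by omega), if_neg (by omega),
        if_neg (by omega)]
      rfl
    · by_cases g3 : p1 < 0
      · rw [if_pos (by omega), if_neg (by omega), if_neg (by omega), if_neg (by omega),
          if_neg (by omega)]
        rfl
      · rw [if_neg (by omega), if_neg (by omega), if_neg (by omega), if_neg (by omega),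
          if_pos (by omega)]
        rfl
  -- the second chain
  obtain ⟨c, ⟨hcS, hcQ, hc1, hc2⟩, d, ⟨hdS, hdQ, hd1, hd2⟩, hcd⟩ := hS'
  have hfree : ∀ z : ℤ × ℤ, z ∈ S' → z ∈ slQ A X r → Flat v z := fun z hz hzQ => hv z (by
    rintro (h5 | h5)
    · exact hd z h5.1 hz
    · exact Set.disjoint_left.1 hQC hzQ h5)
  have hchain : v c.1 c.2 = v d.1 d.2 := by
    have hcc : ∀ z, Relation.ReflTransGen (fun a b => adjS (slQ A X r) a b ∧ a ∈ S' ∧ b ∈ S') c z →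
        v c.1 c.2 = v z.1 z.2 := by
      intro z hz
      induction hz with
      | refl => rfl
      | @tail e f _ hef ih =>
        obtain ⟨⟨h3, h4, h5⟩, h6, h7⟩ := hef
        exact ih.trans (nb_const h3 (hfree e h6 h4) (hfree f h7 h5))
    exact hcc d hcd
  have k1 : v 0 0 = v c.1 c.2 := flat_corner (hfree c hcS hcQ) (by omega) (by omega)
  have k2 : v r 0 = v d.1 d.2 := flat_corner (hfree d hdS hdQ) (by omega) (by omega)
  rw [k1, k2, hchain] at hone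
  have h9 : (1 : ZMod 2) = 0 := by linear_combination -hone
  revert h9
  decide

lemma slU_lsq {A X r α β : ℤ} : slU A X r ⊆ lsq (slQ A X r) (slC A X r) α β (-1) := by
  rintro z ⟨h1, h2, w, h3, h4⟩
  refine ⟨h1, w, h3, h4, ?_⟩
  rintro ⟨h5, -⟩
  omega

/-- the lower lip of the left slit -/
lemma sl_rowL {A X r : ℤ} (hr : 0 < r) (hX : r < X) (hA : 2 ≤ A) (i : ℤ) (h1 : -A ≤ i) (h2 : i < 0) :
    (i, (-1 : ℤ) - 1) ∈ slQ A X r ∧ (i, (-1 : ℤ)) ∈ slC A X r :=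
  ⟨mem_slQ.2 (by omega), mem_slC.2 (by omega)⟩

/-- the lower lip of the right slit -/
lemma sl_rowR {A X r : ℤ} (hr : 0 < r) (hA : 2 ≤ A) (i : ℤ) (h1 : r ≤ i) (h2 : i < X) :
    (i, (-1 : ℤ) - 1) ∈ slQ A X r ∧ (i, (-1 : ℤ)) ∈ slC A X r :=
  ⟨mem_slQ.2 (by omega), mem_slC.2 (by omega)⟩

/-- a set of squares below a lip which is closed under moving up to the lip -/
def UpSl (A X r α β : ℤ) (T : Set (ℤ × ℤ)) : Prop :=
  T ⊆ {z | z ∈ slQ A X r ∧ (α ≤ z.1 ∧ z.1 < β) ∧ z.2 < -1} ∧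
    ∀ x y : ℤ, (x, y) ∈ T → y < -2 → (x, y + 1) ∈ T

/-- moving up to the lip inside a column -/
lemma up_sl {A X r α β : ℤ} {T : Set (ℤ × ℤ)} (hT : UpSl A X r α β T) {x y : ℤ}
    (hz : (x, y) ∈ T) : chn {z | z ∈ T ∧ z.1 = x} (x, y) (x, -2) ∧ (x, -2) ∈ T := by
  have h0 : y < -1 := (hT.1 hz).2.2
  have key : ∀ k : ℕ, y + k ≤ -2 → (x, y + (k : ℤ)) ∈ T := by
    intro k
    induction k with
    | zero => intro _; simpa using hz
    | succ k ih =>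
      intro hk
      push_cast at hk
      have := hT.2 x (y + k) (ih (by omega)) (by omega)
      push_cast
      rwa [add_assoc] at this
  refine ⟨chn_v fun i hi => ⟨?_, rfl⟩, ?_⟩
  · have h1 : y ≤ i ∧ i ≤ -2 := by omega
    have := key (i - y).toNat (by omega)
    rwa [show y + ((i - y).toNat : ℤ) = i by omega] at this
  · have := key (-2 - y).toNat (by omega)
    rwa [show y + ((-2 - y).toNat : ℤ) = -2 by omega] at this

/-- the general separation of the columns of `Tx` by an arm from `o₋` to a cell -/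
theorem sl_cols {A X r α β b1 b2 : ℤ}
    (hR : ∀ i, α ≤ i → i < β → (i, (-1 : ℤ) - 1) ∈ slQ A X r ∧ (i, (-1 : ℤ)) ∈ slC A X r)
    {T Tx Lay : Set (ℤ × ℤ)} (hTx : UpSl A X r α β Tx) (hLay : Tx ⊆ Lay)
    {z z' : ℤ × ℤ} (arm : Cn (adjS (slQ A X r)) (T \ Lay) (slU A X r) {z}) (hz' : z' ∈ Tx)
    (hzz : nb z z') (hb1 : b1 ≤ z'.1) (hb2 : z'.1 ≤ b2) :
    ¬ Cn (adjS (slQ A X r)) ((T ∪ {z | z ∈ Tx ∧ b1 ≤ z.1 ∧ z.1 ≤ b2})ᶜ)
      {z | z ∈ Tx ∧ z.1 < b1} {z | z ∈ Tx ∧ b2 < z.1} := by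
  intro hP
  have hQ : Tx ⊆ slQ A X r := fun z hz => (hTx.1 hz).1
  -- columns are joined to the lip
  have hcol : ∀ (P : ℤ → Prop) (w : ℤ × ℤ), w ∈ Tx → P w.1 → ∀ Y : Set (ℤ × ℤ), (w.1, -2) ∈ Y →
      Cn (adjS (slQ A X r)) {z | z ∈ Tx ∧ P z.1} {w} Y := by
    rintro P ⟨x, y⟩ hw hPw Y hY
    obtain ⟨h1, h2⟩ := up_sl hTx hw
    refine Cn_of_chn (S := {z | z ∈ Tx ∧ P z.1}) (fun z hz => hQ hz.1)
      (chn_mono ?_ h1) ⟨hw, hPw⟩ ⟨h2, hPw⟩ hY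
    rintro u ⟨hu1, hu2⟩
    exact ⟨hu1, by rw [hu2]; exact hPw⟩
  have hz'1 := hTx.1 hz'
  have e1 : Cn (adjS (slQ A X r)) ((T \ Lay) ∪ {z | z ∈ Tx ∧ b1 ≤ z.1 ∧ z.1 ≤ b2})
      (lsq (slQ A X r) (slC A X r) α β (-1)) (rowS α β (-1) b1 b2) := by
    obtain ⟨x, hx, z0, ⟨hz0, hz1⟩, hxz⟩ := arm
    obtain rfl : z0 = z := hz1
    have g1 : Cn (adjS (slQ A X r)) ((T \ Lay) ∪ {z | z ∈ Tx ∧ b1 ≤ z.1 ∧ z.1 ≤ b2})
        (lsq (slQ A X r) (slC A X r) α β (-1)) {z0} :=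
      Cn.mono ⟨x, ⟨hx.1, slU_lsq hx.2⟩, z0, ⟨hz0, rfl⟩, hxz⟩ subset_union_left
    have hz0Q : z0 ∈ slQ A X r := by
      rcases hxz.cases_tail with h | ⟨c, -, h⟩
      · rw [h]; exact hx.2.1
      · exact h.1.2.2
    refine Cn_comp g1 ((hcol (fun x => b1 ≤ x ∧ x ≤ b2) z' hz' ⟨hb1, hb2⟩ _ ?_).mono
      subset_union_right) ⟨hzz, hz0Q, hQ hz'⟩
    exact ⟨rfl, ⟨hz'1.2.1.1, hz'1.2.1.2⟩, hb1, hb2⟩
  set P := Clu (adjS (slQ A X r)) ((T ∪ {z | z ∈ Tx ∧ b1 ≤ z.1 ∧ z.1 ≤ b2})ᶜ)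
    {z | z ∈ Tx ∧ z.1 < b1} with hPdef
  have e2 : Cn (adjS (slQ A X r)) (P ∪ ({z | z ∈ Tx ∧ z.1 < b1} ∪ {z | z ∈ Tx ∧ b2 < z.1}))
      (rowS α β (-1) α (b1 - 1)) (rowS α β (-1) (b2 + 1) β) := by
    obtain ⟨x, hx, y, hy, hxy⟩ := Cn_Clu hP
    have hx1 := hTx.1 hx.2.1
    have hy1 := hTx.1 hy.2.1
    have f1 : Cn (adjS (slQ A X r)) (P ∪ ({z | z ∈ Tx ∧ z.1 < b1} ∪ {z | z ∈ Tx ∧ b2 < z.1}))
        (rowS α β (-1) α (b1 - 1)) {x} := by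
      refine Cn_symm symS ((hcol (fun x => x < b1) x hx.2.1 hx.2.2 _ ?_).mono
        (subset_union_left.trans subset_union_right))
      exact ⟨rfl, hx1.2.1, hx1.2.1.1, by have := hx.2.2; simp only; omega⟩
    have f2 : Cn (adjS (slQ A X r)) (P ∪ ({z | z ∈ Tx ∧ z.1 < b1} ∪ {z | z ∈ Tx ∧ b2 < z.1}))
        {x} {y} :=
      Cn.mono ⟨x, ⟨hx.1, rfl⟩, y, ⟨hy.1, rfl⟩, hxy⟩ subset_union_left
    have f3 : Cn (adjS (slQ A X r)) (P ∪ ({z | z ∈ Tx ∧ z.1 < b1} ∪ {z | z ∈ Tx ∧ b2 < z.1}))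
        {y} (rowS α β (-1) (b2 + 1) β) := by
      refine (hcol (fun x => b2 < x) y hy.2.1 hy.2.2 _ ?_).mono
        (subset_union_right.trans subset_union_right)
      exact ⟨rfl, hy1.2.1, by have := hy.2.2; simp only; omega, hy1.2.1.2.le⟩
    exact Cn_trans f1 (Cn_trans f2 f3)
  obtain ⟨q, hq1, hq2⟩ := cross_row (slQC A X r) (fun z hz w hw => slC_conn hz hw)
    hR _ _ e1 e2
  rcases hq1 with hq1 | hq1
  · rcases hq2 with hq2 | hq2 | hq2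
    · exact Clu_sub hq2 (Or.inl hq1.1)
    · exact hq1.2 (hLay hq2.1)
    · exact hq1.2 (hLay hq2.1)
  · rcases hq2 with hq2 | hq2 | hq2
    · exact Clu_sub hq2 (Or.inr hq1)
    · have g1 := hq1.2.1
      have g2 := hq2.2
      omega
    · have g1 := hq1.2.2
      have g2 := hq2.2
      omega

/-- **Separation (619's `hsep`) at the tip `x`**, cells = columns of the set `Tx` below the lower lip
of the left slit. -/
theorem sl_sep_x {A X r b1 b2 : ℤ} (hr : 0 < r) (hX : r < X) (hA : 2 ≤ A) {T Tx Lay : Set (ℤ × ℤ)}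
    (hTx : UpSl A X r (-A) 0 Tx) (hLay : Tx ⊆ Lay) {z z' : ℤ × ℤ}
    (arm : Cn (adjS (slQ A X r)) (T \ Lay) (slU A X r) {z}) (hz' : z' ∈ Tx)
    (hzz : nb z z') (hb1 : b1 ≤ z'.1) (hb2 : z'.1 ≤ b2) :
    ¬ Cn (adjS (slQ A X r)) ((T ∪ {z | z ∈ Tx ∧ b1 ≤ z.1 ∧ z.1 ≤ b2})ᶜ)
      {z | z ∈ Tx ∧ z.1 < b1} {z | z ∈ Tx ∧ b2 < z.1} :=
  sl_cols (sl_rowL hr hX hA) hTx hLay arm hz' hzz hb1 hb2

/-- **Separation at the tip `y`**. -/
theorem sl_sep_y {A X r b1 b2 : ℤ} (hr : 0 < r) (hA : 2 ≤ A) {T Ty Lay : Set (ℤ × ℤ)}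
    (hTy : UpSl A X r r X Ty) (hLay : Ty ⊆ Lay) {z z' : ℤ × ℤ}
    (arm : Cn (adjS (slQ A X r)) (T \ Lay) (slU A X r) {z}) (hz' : z' ∈ Ty)
    (hzz : nb z z') (hb1 : b1 ≤ z'.1) (hb2 : z'.1 ≤ b2) :
    ¬ Cn (adjS (slQ A X r)) ((T ∪ {z | z ∈ Ty ∧ b1 ≤ z.1 ∧ z.1 ≤ b2})ᶜ)
      {z | z ∈ Ty ∧ z.1 < b1} {z | z ∈ Ty ∧ b2 < z.1} :=
  sl_cols (sl_rowR hr hA) hTy hLay arm hz' hzz hb1 hb2

/-- **The middle event**: a chain from `o₋` to `o₊` which avoids `Tx` and `Ty` separates them. -/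
theorem sl_mid {A X r : ℤ} (hr : 0 < r) (hX : r < X) (hA : 1 ≤ A) {Neg Pos Tx Ty Lay : Set (ℤ × ℤ)}
    (hPN : Disjoint Pos Neg) (hx : Tx ⊆ Lay) (hy : Ty ⊆ Lay)
    (hTx : ∀ z ∈ Tx, Cn (adjS (slQ A X r)) Tx {z} (slT A X r 0))
    (hTy : ∀ z ∈ Ty, Cn (adjS (slQ A X r)) Ty {z} (slT A X r r))
    (h : Cn (adjS (slQ A X r)) (Neg \ Lay) (slU A X r) (slL A X r)) :
    ¬ Cn (adjS (slQ A X r)) Pos Tx Ty := by
  intro hP
  have e2 : Cn (adjS (slQ A X r)) (Pos ∪ (Tx ∪ Ty)) (slT A X r 0) (slT A X r r) := by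
    obtain ⟨x, hx, y, hy, hxy⟩ := hP
    have f1 : Cn (adjS (slQ A X r)) (Pos ∪ (Tx ∪ Ty)) (slT A X r 0) {x} :=
      Cn_symm symS ((hTx x hx.2).mono (subset_union_left.trans subset_union_right))
    have f2 : Cn (adjS (slQ A X r)) (Pos ∪ (Tx ∪ Ty)) {x} {y} :=
      Cn.mono ⟨x, ⟨hx.1, rfl⟩, y, ⟨hy.1, rfl⟩, hxy⟩ subset_union_left
    have f3 : Cn (adjS (slQ A X r)) (Pos ∪ (Tx ∪ Ty)) {y} (slT A X r r) :=
      (hTy y hy.2).mono (subset_union_right.trans subset_union_right)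
    exact Cn_trans f1 (Cn_trans f2 f3)
  obtain ⟨q, hq1, hq2⟩ := sl_cross hr hX hA _ _ h e2
  rcases hq2 with hq2 | hq2 | hq2
  · exact Set.disjoint_left.1 hPN hq2 hq1.1
  · exact hq1.2 (hx hq2)
  · exact hq1.2 (hy hq2)

/-- **The cover**: a chain from `o₋` to `o₊` avoids `F ∪ Cx ∪ Cy`, or meets `F`, or contains an arm
from `o₋` to a square of `Cx ∪ Cy`. -/
theorem sl_cover {A X r : ℤ} {Neg Cc F : Set (ℤ × ℤ)} (hCc : ∀ z ∈ Cc, z.2 < 0)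
    (h : Cn (adjS (slQ A X r)) Neg (slU A X r) (slL A X r)) :
    (Neg ∩ F).Nonempty ∨
      (∃ z, Cn (adjS (slQ A X r)) (Neg \ (Cc ∪ F)) (slU A X r) {z} ∧
        ∃ z' ∈ Neg ∩ Cc, adjS (slQ A X r) z z') ∨
      Cn (adjS (slQ A X r)) (Neg \ (Cc ∪ F)) (slU A X r) (slL A X r) := by
  by_cases hF : (Neg ∩ F).Nonempty
  · exact Or.inl hF
  right
  have hF' : ∀ z ∈ Neg, z ∉ F := fun z hz hz' => hF ⟨z, hz, hz'⟩
  obtain ⟨x, ⟨hx1, hx2⟩, y, ⟨hy1, hy2⟩, hxy⟩ := h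
  have hxL : x ∉ Cc ∪ F := by
    rintro (h1 | h1)
    · have := hCc x h1
      have := hx2.2.1
      omega
    · exact hF' x hx1 h1
  have key : ∀ w, Relation.ReflTransGen (fun a b => adjS (slQ A X r) a b ∧ a ∈ Neg ∧ b ∈ Neg) x w →
      Cn (adjS (slQ A X r)) (Neg \ (Cc ∪ F)) (slU A X r) {w} ∨
      ∃ z, Cn (adjS (slQ A X r)) (Neg \ (Cc ∪ F)) (slU A X r) {z} ∧
        ∃ z' ∈ Neg ∩ Cc, adjS (slQ A X r) z z' := by
    intro w hw
    induction hw with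
    | refl => exact Or.inl ⟨x, ⟨⟨hx1, hxL⟩, hx2⟩, x, ⟨⟨hx1, hxL⟩, rfl⟩, .refl⟩
    | @tail a b _ hab ih =>
      rcases ih with ih | ih
      · by_cases hb : b ∈ Cc
        · exact Or.inr ⟨a, ih, b, ⟨hab.2.2, hb⟩, hab.1⟩
        · left
          have hbL : b ∉ Cc ∪ F := by
            rintro (h1 | h1)
            · exact hb h1
            · exact hF' b hab.2.2 h1
          exact Cn_comp ih ⟨b, ⟨⟨hab.2.2, hbL⟩, rfl⟩, b, ⟨⟨hab.2.2, hbL⟩, rfl⟩, .refl⟩ hab.1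
      · exact Or.inr ih
  rcases key y hxy with h1 | h1
  · right
    obtain ⟨u, hu, y', ⟨hy', hy''⟩, huy⟩ := h1
    obtain rfl : y' = y := hy''
    exact ⟨u, hu, y', ⟨hy', hy2⟩, huy⟩
  · exact Or.inl h1

end Vale.Agent.P159.T1.H995
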