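import Vale.Agent.P159.T1.H995.Core

/-!
The domain of plan 115 (helper566): the box `[-N, N]²` with two slits (the vertical bonds
`(i, -1) - (i, 0)`, `i < 0` and `i > r`, deleted), tips `x = (0, 0)` and `y = (r, 0)`. Faces are unit
squares, named by their lower left corners. The outer face consists of the squares outside the box
and of the slit squares `(j, -1)`, `j < 0` or `r ≤ j`. It is split at the two tips into `o₋` (upper
half) and `o₊` (lower half): a square of the domain next to the outer face is next to `o₋` iff its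
second coordinate is nonnegative.
-/

namespace Vale.Agent.P159.T1.H995

open Vale.Agent.P159.R2.H729 Set
open scoped Classical

/-- the slit squares -/
def slitT (r : ℤ) : Set (ℤ × ℤ) := {z | z.2 = -1 ∧ (z.1 < 0 ∨ r ≤ z.1)}

/-- the faces of the domain -/
def twoQ (N r : ℤ) : Set (ℤ × ℤ) := {z | z ∈ boxS N ∧ z ∉ slitT r}

/-- the squares of the outer face -/
def twoC (N r : ℤ) : Set (ℤ × ℤ) := {z | z ∉ boxS N ∨ z ∈ slitT r}

/-- the faces next to `o₋` -/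
def twoU (N r : ℤ) : Set (ℤ × ℤ) := {z | z ∈ twoQ N r ∧ 0 ≤ z.2 ∧ ∃ w ∈ twoC N r, nb z w}

/-- the faces next to `o₊` -/
def twoL (N r : ℤ) : Set (ℤ × ℤ) := {z | z ∈ twoQ N r ∧ z.2 < 0 ∧ ∃ w ∈ twoC N r, nb z w}

/-- the squares of the domain with corner `(a, 0)` -/
def tip (N r a : ℤ) : Set (ℤ × ℤ) :=
  {z | z ∈ twoQ N r ∧ (z.1 = a - 1 ∨ z.1 = a) ∧ (z.2 = -1 ∨ z.2 = 0)}

lemma twoQC (N r : ℤ) : Disjoint (twoQ N r) (twoC N r) := by
  rw [Set.disjoint_left]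
  rintro z ⟨h1, h2⟩ (h3 | h3)
  · exact h3 h1
  · exact h2 h3

lemma mem_twoQ {N r x y : ℤ} : (x, y) ∈ twoQ N r ↔
    (-N ≤ x ∧ x < N ∧ -N ≤ y ∧ y < N) ∧ ¬ (y = -1 ∧ (x < 0 ∨ r ≤ x)) := Iff.rfl

lemma mem_twoC {N r x y : ℤ} : (x, y) ∈ twoC N r ↔
    ¬ (-N ≤ x ∧ x < N ∧ -N ≤ y ∧ y < N) ∨ (y = -1 ∧ (x < 0 ∨ r ≤ x)) := Iff.rfl

/-- the outer face is connected -/
lemma twoC_conn {N r : ℤ} (hN : 0 < N) {z w : ℤ × ℤ} (hz : z ∈ twoC N r) (hw : w ∈ twoC N r) :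
    chn (twoC N r) z w := by
  have key : ∀ z ∈ twoC N r, chn (twoC N r) z (N, N) := by
    have hA : ∀ x y : ℤ, N ≤ x → chn (twoC N r) (x, y) (N, N) := fun x y h =>
      chn_trans (chn_v (y' := N) fun i _ => mem_twoC.2 (by omega))
        (chn_h fun i _ => mem_twoC.2 (by omega))
    have hB : ∀ x y : ℤ, x < -N → chn (twoC N r) (x, y) (N, N) := fun x y h =>
      chn_trans (chn_v (y' := N) fun i _ => mem_twoC.2 (by omega))
        (chn_h fun i _ => mem_twoC.2 (by omega))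
    rintro ⟨x, y⟩ hz
    by_cases h1 : N ≤ x
    · exact hA x y h1
    by_cases h4 : x < -N
    · exact hB x y h4
    rw [mem_twoC] at hz
    by_cases h2 : N ≤ y ∨ y < -N
    · exact chn_trans (chn_h (x' := N) fun i _ => mem_twoC.2 (by omega)) (hA N y le_rfl)
    by_cases h5 : x < 0
    · exact chn_trans (chn_h (x' := -N - 1) fun i hi => mem_twoC.2 (by omega))
        (hB _ y (by omega))
    · exact chn_trans (chn_h (x' := N) fun i hi => mem_twoC.2 (by omega)) (hA N y le_rfl)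
  exact chn_trans (key z hz) (chn_symm (key w hw))

/-- a corner of a flat square -/
lemma flat_corner {v : ℤ → ℤ → ZMod 2} {z : ℤ × ℤ} (h : Flat v z) {a b : ℤ}
    (ha : z.1 = a - 1 ∨ z.1 = a) (hb : z.2 = b - 1 ∨ z.2 = b) : v a b = v z.1 z.2 := by
  obtain ⟨x, y⟩ := z
  obtain ⟨h1, h2, h3⟩ := h
  simp only at h1 h2 h3 ha hb
  rcases ha with rfl | rfl <;> rcases hb with rfl | rfl
  · rw [sub_add_cancel] at h3
    rw [sub_add_cancel] at h3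
    exact h3
  · rw [sub_add_cancel] at h1
    exact h1
  · rw [sub_add_cancel] at h2
    exact h2
  · rfl

/-- **A chain from `o₋` to `o₊` and a chain from tip to tip share a face.** -/
theorem two_cross {N r : ℤ} (hr : 0 < r) (hN : r < N) :
    Cross (adjS (twoQ N r)) (twoU N r) (twoL N r) (tip N r 0) (tip N r r) := by
  intro S S' hS hS'
  by_contra hdis
  rw [not_nonempty_iff_eq_empty] at hdis
  have hd : ∀ z, z ∈ S → z ∉ S' := fun z hz hz' => by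
    have : z ∈ S ∩ S' := ⟨hz, hz'⟩
    rw [hdis] at this
    exact this
  obtain ⟨p, ⟨hpS, hpQ, hp2, wp, hwp, hpwp⟩, q, ⟨hqS, hqQ, hq2, wq, hwq, hqwq⟩, hpq⟩ := hS
  have hQC := twoQC N r
  obtain ⟨v, hv, hvH, hvK⟩ := core (S := S) hQC (fun z hz w hw => twoC_conn (by omega) hz hw)
    ⟨hpS, hpQ⟩ hwp hpwp ⟨hqS, hqQ⟩ hwq hqwq
    (Relation.ReflTransGen.mono (p := fun a b => nb a b ∧ a ∈ S ∩ twoQ N r ∧ b ∈ S ∩ twoQ N r)
      (fun _ _ h => ⟨h.1.1, ⟨h.2.1, h.1.2.1⟩, ⟨h.2.2, h.1.2.2⟩⟩) _ _ hpq)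
  obtain ⟨p1, p2⟩ := p
  obtain ⟨w1, w2⟩ := wp
  obtain ⟨q1, q2⟩ := q
  obtain ⟨u1, u2⟩ := wq
  have hpQ' := mem_twoQ.1 hpQ
  have hqQ' := mem_twoQ.1 hqQ
  have hwp' := mem_twoC.1 hwp
  have hwq' := mem_twoC.1 hwq
  simp only at hp2 hq2
  -- the five parts of `o₋`
  have E1 := walk_h (v := v) (p := (p1, p2)) (w := (w1, w2)) (a := -N) (b := 0) (y0 := 0) (by omega)
    (fun i h1 h2 => by
      rw [hvH i 0 (Or.inr ⟨mem_twoC.2 (by omega), mem_twoQ.2 (by omega)⟩),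
        if_neg (c := isH (q1, q2) (u1, u2) i 0)]
      · ring
      · simp only [isH, Prod.mk.injEq]
        omega)
  have E2 := walk_v (v := v) (p := (p1, p2)) (w := (w1, w2)) (a := 0) (b := N) (x0 := -N) (by omega)
    (fun i h1 h2 => by
      rw [hvK (-N) i (Or.inr ⟨mem_twoC.2 (by omega), mem_twoQ.2 (by omega)⟩),
        if_neg (c := isK (q1, q2) (u1, u2) (-N) i)]
      · ring
      · simp only [isK, Prod.mk.injEq]
        omega)
  have E3 := walk_h (v := v) (p := (p1, p2)) (w := (w1, w2)) (a := -N) (b := N) (y0 := N) (by omega)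
    (fun i h1 h2 => by
      rw [hvH i N (Or.inl ⟨mem_twoQ.2 (by omega), mem_twoC.2 (by omega)⟩),
        if_neg (c := isH (q1, q2) (u1, u2) i N)]
      · ring
      · simp only [isH, Prod.mk.injEq]
        omega)
  have E4 := walk_v (v := v) (p := (p1, p2)) (w := (w1, w2)) (a := 0) (b := N) (x0 := N) (by omega)
    (fun i h1 h2 => by
      rw [hvK N i (Or.inl ⟨mem_twoQ.2 (by omega), mem_twoC.2 (by omega)⟩),
        if_neg (c := isK (q1, q2) (u1, u2) N i)]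
      · ring
      · simp only [isK, Prod.mk.injEq]
        omega)
  have E5 := walk_h (v := v) (p := (p1, p2)) (w := (w1, w2)) (a := r) (b := N) (y0 := 0) (by omega)
    (fun i h1 h2 => by
      rw [hvH i 0 (Or.inr ⟨mem_twoC.2 (by omega), mem_twoQ.2 (by omega)⟩),
        if_neg (c := isH (q1, q2) (u1, u2) i 0)]
      · ring
      · simp only [isH, Prod.mk.injEq]
        omega)
  have hnb := nb_cases hpwp
  simp only [isH, isK, Prod.mk.injEq, true_and, and_true] at E1 E2 E3 E4 E5 hnb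
  have hone : v 0 0 = v r 0 + 1 := by
    have fin : ∀ a b c d e f I1 I2 I3 I4 I5 : ZMod 2, a = b + I1 → a = c + I2 → c = d + I3 →
        e = d + I4 → f = e + I5 → I1 + I2 + I3 + I4 + I5 = 1 → b = f + 1 := by
      intro a b c d e f I1 I2 I3 I4 I5 h1 h2 h3 h4 h5 h6
      rw [← h6]
      linear_combination -h1 + h2 + h3 - h4 - h5 - z2_add_self I1 - z2_add_self I4 -
        z2_add_self I5
    refine fin _ _ _ _ _ _ _ _ _ _ _ E1 E2 E3 E4 E5 ?_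
    clear E1 E2 E3 E4 E5 fin hvH hvK hv hpq hqQ' hwq' hqQ hwq hqwq hd hdis hpQ hwp hpwp
    rcases hnb with ⟨g1, g2⟩ | ⟨g1, g2⟩ | ⟨g1, g2⟩ | ⟨g1, g2⟩
    · rw [if_neg (by omega), if_neg (by omega), if_neg (by omega), if_pos (by omega),
        if_neg (by omega)]
      rfl
    · rw [if_neg (by omega), if_pos (by omega), if_neg (by omega), if_neg (by omega),
        if_neg (by omega)]
      rfl
    · rw [if_neg (by omega), if_neg (by omega), if_pos (by omega), if_neg (by omega),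
        if_neg (by omega)]
      rfl
    · by_cases g3 : p1 < 0
      · rw [if_pos (by omega), if_neg (by omega), if_neg (by omega), if_neg (by omega),
          if_neg (by omega)]
        rfl
      · rw [if_neg (by omega), if_neg (by omega), if_neg (by omega), if_neg (by omega),
          if_pos (by omega)]
        rfl
  -- the second chain
  obtain ⟨c, ⟨hcS, hcQ, hc1, hc2⟩, d, ⟨hdS, hdQ, hd1, hd2⟩, hcd⟩ := hS'
  have hfree : ∀ z : ℤ × ℤ, z ∈ S' → z ∈ twoQ N r → Flat v z := fun z hz hzQ => hv z (by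
    rintro (h5 | h5)
    · exact hd z h5.1 hz
    · exact Set.disjoint_left.1 hQC hzQ h5)
  have hchain : v c.1 c.2 = v d.1 d.2 := by
    have hcc : ∀ z, Relation.ReflTransGen (fun a b => adjS (twoQ N r) a b ∧ a ∈ S' ∧ b ∈ S') c z →
        v c.1 c.2 = v z.1 z.2 := by
      intro z hz
      induction hz with
      | refl => rfl
      | @tail e f _ hef ih =>
        obtain ⟨⟨h3, h4, h5⟩, h6, h7⟩ := hef
        exact ih.trans (nb_const h3 (hfree e h6 h4) (hfree f h7 h5))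
    exact hcc d hcd
  have k1 : v 0 0 = v c.1 c.2 := flat_corner (hfree c hcS hcQ) (by omega) (by omega)
  have k2 : v r 0 = v d.1 d.2 := flat_corner (hfree d hdS hdQ) (by omega) (by omega)
  rw [k1, k2, hchain] at hone
  have h9 : (1 : ZMod 2) = 0 := by linear_combination -hone
  revert h9
  decide

/-- the squares below a horizontal part of the boundary, in the columns `b1 ≤ x ≤ b2` -/
def rowS (α β y0 b1 b2 : ℤ) : Set (ℤ × ℤ) :=
  {z | z.2 = y0 - 1 ∧ (α ≤ z.1 ∧ z.1 < β) ∧ b1 ≤ z.1 ∧ z.1 ≤ b2}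

/-- **Crossing at a straight part of the boundary**: a chain from another part of the boundary to
the columns `[b1, b2]` separates the columns `< b1` from the columns `> b2`. -/
theorem cross_row {Q C : Set (ℤ × ℤ)} (hQC : Disjoint Q C) (hC : ∀ z ∈ C, ∀ w ∈ C, chn C z w)
    {α β y0 b1 b2 : ℤ} (hR : ∀ i, α ≤ i → i < β → (i, y0 - 1) ∈ Q ∧ (i, y0) ∈ C) :
    Cross (adjS Q) (lsq Q C α β y0) (rowS α β y0 b1 b2)
      (rowS α β y0 α (b1 - 1)) (rowS α β y0 (b2 + 1) β) := by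
  intro S S' hS hS'
  by_contra hdis
  rw [not_nonempty_iff_eq_empty] at hdis
  have hd : ∀ z, z ∈ S → z ∉ S' := fun z hz hz' => by
    have : z ∈ S ∩ S' := ⟨hz, hz'⟩
    rw [hdis] at this
    exact this
  obtain ⟨p, ⟨hpS, hpQ, wp, hwp, hpwp, hpR⟩, q, ⟨hqS, hq1, hq2, hq3⟩, hpq⟩ := hS
  obtain ⟨q1, q2⟩ := q
  obtain rfl : q2 = y0 - 1 := hq1
  simp only at hq2 hq3
  have hqC : (q1, y0) ∈ C := (hR q1 hq2.1 hq2.2).2
  have hqQ : (q1, y0 - 1) ∈ Q := (hR q1 hq2.1 hq2.2).1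
  obtain ⟨v, hv, hvH, -⟩ := core (S := S) hQC hC ⟨hpS, hpQ⟩ hwp hpwp ⟨hqS, hqQ⟩ hqC
    (by unfold nb; simp) (Relation.ReflTransGen.mono
      (p := fun a b => nb a b ∧ a ∈ S ∩ Q ∧ b ∈ S ∩ Q)
      (fun _ _ h => ⟨h.1.1, ⟨h.2.1, h.1.2.1⟩, ⟨h.2.2, h.1.2.2⟩⟩) _ _ hpq)
  have hfree : ∀ z : ℤ × ℤ, z ∈ S' → z ∈ Q → Flat v z := fun z hz hzQ => hv z (by
    rintro (h5 | h5)
    · exact hd z h5.1 hz
    · exact Set.disjoint_left.1 hQC hzQ h5)
  obtain ⟨c, ⟨hcS, hc1, hc2, hc3⟩, d, ⟨hdS, hd1, hd2, hd3⟩, hcd⟩ := hS'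
  obtain ⟨c1, c2⟩ := c
  obtain ⟨d1, d2⟩ := d
  obtain rfl : c2 = y0 - 1 := hc1
  obtain rfl : d2 = y0 - 1 := hd1
  simp only at hc2 hc3 hd2 hd3
  have hchain : v c1 (y0 - 1) = v d1 (y0 - 1) := by
    have hcc : ∀ z, Relation.ReflTransGen (fun a b => adjS Q a b ∧ a ∈ S' ∧ b ∈ S')
        (c1, y0 - 1) z → v c1 (y0 - 1) = v z.1 z.2 := by
      intro z hz
      induction hz with
      | refl => rfl
      | @tail e f _ hef ih =>
        obtain ⟨⟨h3, h4, h5⟩, h6, h7⟩ := hef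
        exact ih.trans (nb_const h3 (hfree e h6 h4) (hfree f h7 h5))
    exact hcc (d1, y0 - 1) hcd
  have k1 : v c1 y0 = v c1 (y0 - 1) :=
    flat_corner (z := (c1, y0 - 1)) (hfree _ hcS (hR c1 hc2.1 hc2.2).1) (Or.inr rfl) (Or.inl rfl)
  have k2 : v d1 y0 = v d1 (y0 - 1) :=
    flat_corner (z := (d1, y0 - 1)) (hfree _ hdS (hR d1 hd2.1 hd2.2).1) (Or.inr rfl) (Or.inl rfl)
  have hw := walk_h (v := v) (p := (q1, y0 - 1)) (w := (q1, y0)) (a := c1) (b := d1) (y0 := y0)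
    (by omega) (fun i h1 h2 => by
      obtain ⟨g1, g2⟩ := hR i (by omega) (by omega)
      rw [hvH i y0 (Or.inl ⟨g1, g2⟩), if_neg (c := isH p wp i y0)]
      · ring
      · rintro (⟨g3, g4⟩ | ⟨g3, -⟩)
        · exact hpR ⟨by rw [g3], by rw [g4, g3], by rw [g3]; simp only; omega,
            by rw [g3]; simp only; omega⟩
        · rw [g3] at hwp
          exact Set.disjoint_left.1 hQC g1 hwp)
  rw [if_pos ⟨by simp only; omega, by simp only; omega, Or.inl ⟨rfl, rfl⟩⟩, k1, k2, hchain] at hw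
  have h9 : (1 : ZMod 2) = 0 := by linear_combination -hw
  revert h9
  decide

lemma twoU_lsq {N r α β : ℤ} : twoU N r ⊆ lsq (twoQ N r) (twoC N r) α β (-1) := by
  rintro z ⟨h1, h2, w, h3, h4⟩
  refine ⟨h1, w, h3, h4, ?_⟩
  rintro ⟨h5, -⟩
  omega

/-- the lower lip of the left slit -/
lemma two_rowL {N r : ℤ} (hr : 0 < r) (hN : r < N) (i : ℤ) (h1 : -N ≤ i) (h2 : i < 0) :
    (i, (-1 : ℤ) - 1) ∈ twoQ N r ∧ (i, (-1 : ℤ)) ∈ twoC N r :=
  ⟨mem_twoQ.2 (by omega), mem_twoC.2 (by omega)⟩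

/-- the lower lip of the right slit -/
lemma two_rowR {N r : ℤ} (hr : 0 < r) (hN : r < N) (i : ℤ) (h1 : r ≤ i) (h2 : i < N) :
    (i, (-1 : ℤ) - 1) ∈ twoQ N r ∧ (i, (-1 : ℤ)) ∈ twoC N r :=
  ⟨mem_twoQ.2 (by omega), mem_twoC.2 (by omega)⟩

/-- a set of squares below a lip which is closed under moving up to the lip -/
def UpLip (N r α β : ℤ) (T : Set (ℤ × ℤ)) : Prop :=
  T ⊆ {z | z ∈ twoQ N r ∧ (α ≤ z.1 ∧ z.1 < β) ∧ z.2 < -1} ∧
    ∀ x y : ℤ, (x, y) ∈ T → y < -2 → (x, y + 1) ∈ T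

/-- moving up to the lip inside a column -/
lemma up_lip {N r α β : ℤ} {T : Set (ℤ × ℤ)} (hT : UpLip N r α β T) {x y : ℤ}
    (hz : (x, y) ∈ T) : chn {z | z ∈ T ∧ z.1 = x} (x, y) (x, -2) ∧ (x, -2) ∈ T := by
  have h0 : y < -1 := (hT.1 hz).2.2
  have key : ∀ k : ℕ, y + k ≤ -2 → (x, y + (k : ℤ)) ∈ T := by
    intro k
    induction k with
    | zero => intro _; simpa using hz
    | succ k ih =>
      intro hk
      push_cast at hk
      have := hT.2 x (y + k) (ih (by omega)) (by omega)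
      push_cast
      rwa [add_assoc] at this
  refine ⟨chn_v fun i hi => ⟨?_, rfl⟩, ?_⟩
  · have h1 : y ≤ i ∧ i ≤ -2 := by omega
    have := key (i - y).toNat (by omega)
    rwa [show y + ((i - y).toNat : ℤ) = i by omega] at this
  · have := key (-2 - y).toNat (by omega)
    rwa [show y + ((-2 - y).toNat : ℤ) = -2 by omega] at this

lemma Cn_comp {V : Type*} {adj : V → V → Prop} {S X Y : Set V} {z w : V} (h1 : Cn adj S X {z})
    (h2 : Cn adj S {w} Y) (h : adj z w) : Cn adj S X Y := by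
  obtain ⟨x, hx, z', ⟨hz, hz'⟩, h3⟩ := h1
  obtain rfl : z' = z := hz'
  obtain ⟨w', ⟨hw, hw'⟩, y, hy, h4⟩ := h2
  obtain rfl : w' = w := hw'
  exact ⟨x, hx, y, hy, (h3.tail ⟨h, hz, hw⟩).trans h4⟩

/-- the general separation of the columns of `Tx` by an arm from `o₋` to a cell -/
theorem sep_cols {N r α β b1 b2 : ℤ} (hr : 0 < r) (hN : r < N)
    (hR : ∀ i, α ≤ i → i < β → (i, (-1 : ℤ) - 1) ∈ twoQ N r ∧ (i, (-1 : ℤ)) ∈ twoC N r)
    {T Tx Lay : Set (ℤ × ℤ)} (hTx : UpLip N r α β Tx) (hLay : Tx ⊆ Lay)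
    {z z' : ℤ × ℤ} (arm : Cn (adjS (twoQ N r)) (T \ Lay) (twoU N r) {z}) (hz' : z' ∈ Tx)
    (hzz : nb z z') (hb1 : b1 ≤ z'.1) (hb2 : z'.1 ≤ b2) :
    ¬ Cn (adjS (twoQ N r)) ((T ∪ {z | z ∈ Tx ∧ b1 ≤ z.1 ∧ z.1 ≤ b2})ᶜ)
      {z | z ∈ Tx ∧ z.1 < b1} {z | z ∈ Tx ∧ b2 < z.1} := by
  intro hP
  have hQ : Tx ⊆ twoQ N r := fun z hz => (hTx.1 hz).1
  -- columns are joined to the lip
  have hcol : ∀ (P : ℤ → Prop) (w : ℤ × ℤ), w ∈ Tx → P w.1 → ∀ Y : Set (ℤ × ℤ), (w.1, -2) ∈ Y →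
      Cn (adjS (twoQ N r)) {z | z ∈ Tx ∧ P z.1} {w} Y := by
    rintro P ⟨x, y⟩ hw hPw Y hY
    obtain ⟨h1, h2⟩ := up_lip hTx hw
    refine Cn_of_chn (S := {z | z ∈ Tx ∧ P z.1}) (fun z hz => hQ hz.1)
      (chn_mono ?_ h1) ⟨hw, hPw⟩ ⟨h2, hPw⟩ hY
    rintro u ⟨hu1, hu2⟩
    exact ⟨hu1, by rw [hu2]; exact hPw⟩
  have hz'1 := hTx.1 hz'
  have e1 : Cn (adjS (twoQ N r)) ((T \ Lay) ∪ {z | z ∈ Tx ∧ b1 ≤ z.1 ∧ z.1 ≤ b2})
      (lsq (twoQ N r) (twoC N r) α β (-1)) (rowS α β (-1) b1 b2) := by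
    obtain ⟨x, hx, z0, ⟨hz0, hz1⟩, hxz⟩ := arm
    obtain rfl : z0 = z := hz1
    have g1 : Cn (adjS (twoQ N r)) ((T \ Lay) ∪ {z | z ∈ Tx ∧ b1 ≤ z.1 ∧ z.1 ≤ b2})
        (lsq (twoQ N r) (twoC N r) α β (-1)) {z0} :=
      Cn.mono ⟨x, ⟨hx.1, twoU_lsq hx.2⟩, z0, ⟨hz0, rfl⟩, hxz⟩ subset_union_left
    have hz0Q : z0 ∈ twoQ N r := by
      rcases hxz.cases_tail with h | ⟨c, -, h⟩
      · rw [h]; exact hx.2.1
      · exact h.1.2.2
    refine Cn_comp g1 ((hcol (fun x => b1 ≤ x ∧ x ≤ b2) z' hz' ⟨hb1, hb2⟩ _ ?_).mono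
      subset_union_right) ⟨hzz, hz0Q, hQ hz'⟩
    exact ⟨rfl, ⟨hz'1.2.1.1, hz'1.2.1.2⟩, hb1, hb2⟩
  set P := Clu (adjS (twoQ N r)) ((T ∪ {z | z ∈ Tx ∧ b1 ≤ z.1 ∧ z.1 ≤ b2})ᶜ)
    {z | z ∈ Tx ∧ z.1 < b1} with hPdef
  have e2 : Cn (adjS (twoQ N r)) (P ∪ ({z | z ∈ Tx ∧ z.1 < b1} ∪ {z | z ∈ Tx ∧ b2 < z.1}))
      (rowS α β (-1) α (b1 - 1)) (rowS α β (-1) (b2 + 1) β) := by
    obtain ⟨x, hx, y, hy, hxy⟩ := Cn_Clu hP
    have hx1 := hTx.1 hx.2.1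
    have hy1 := hTx.1 hy.2.1
    have f1 : Cn (adjS (twoQ N r)) (P ∪ ({z | z ∈ Tx ∧ z.1 < b1} ∪ {z | z ∈ Tx ∧ b2 < z.1}))
        (rowS α β (-1) α (b1 - 1)) {x} := by
      refine Cn_symm symS ((hcol (fun x => x < b1) x hx.2.1 hx.2.2 _ ?_).mono
        (subset_union_left.trans subset_union_right))
      exact ⟨rfl, hx1.2.1, hx1.2.1.1, by have := hx.2.2; simp only; omega⟩
    have f2 : Cn (adjS (twoQ N r)) (P ∪ ({z | z ∈ Tx ∧ z.1 < b1} ∪ {z | z ∈ Tx ∧ b2 < z.1}))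
        {x} {y} :=
      Cn.mono ⟨x, ⟨hx.1, rfl⟩, y, ⟨hy.1, rfl⟩, hxy⟩ subset_union_left
    have f3 : Cn (adjS (twoQ N r)) (P ∪ ({z | z ∈ Tx ∧ z.1 < b1} ∪ {z | z ∈ Tx ∧ b2 < z.1}))
        {y} (rowS α β (-1) (b2 + 1) β) := by
      refine (hcol (fun x => b2 < x) y hy.2.1 hy.2.2 _ ?_).mono
        (subset_union_right.trans subset_union_right)
      exact ⟨rfl, hy1.2.1, by have := hy.2.2; simp only; omega, hy1.2.1.2.le⟩
    exact Cn_trans f1 (Cn_trans f2 f3)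
  obtain ⟨q, hq1, hq2⟩ := cross_row (twoQC N r) (fun z hz w hw => twoC_conn (by omega) hz hw)
    hR _ _ e1 e2
  rcases hq1 with hq1 | hq1
  · rcases hq2 with hq2 | hq2 | hq2
    · exact Clu_sub hq2 (Or.inl hq1.1)
    · exact hq1.2 (hLay hq2.1)
    · exact hq1.2 (hLay hq2.1)
  · rcases hq2 with hq2 | hq2 | hq2
    · exact Clu_sub hq2 (Or.inr hq1)
    · have g1 := hq1.2.1
      have g2 := hq2.2
      omega
    · have g1 := hq1.2.2
      have g2 := hq2.2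
      omega

/-- **Separation (619's `hsep`) at the tip `x`**, cells = columns of the set `Tx` below the lower lip
of the left slit. -/
theorem two_sep_x {N r b1 b2 : ℤ} (hr : 0 < r) (hN : r < N) {T Tx Lay : Set (ℤ × ℤ)}
    (hTx : UpLip N r (-N) 0 Tx) (hLay : Tx ⊆ Lay) {z z' : ℤ × ℤ}
    (arm : Cn (adjS (twoQ N r)) (T \ Lay) (twoU N r) {z}) (hz' : z' ∈ Tx)
    (hzz : nb z z') (hb1 : b1 ≤ z'.1) (hb2 : z'.1 ≤ b2) :
    ¬ Cn (adjS (twoQ N r)) ((T ∪ {z | z ∈ Tx ∧ b1 ≤ z.1 ∧ z.1 ≤ b2})ᶜ)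
      {z | z ∈ Tx ∧ z.1 < b1} {z | z ∈ Tx ∧ b2 < z.1} :=
  sep_cols hr hN (two_rowL hr hN) hTx hLay arm hz' hzz hb1 hb2

/-- **Separation at the tip `y`**. -/
theorem two_sep_y {N r b1 b2 : ℤ} (hr : 0 < r) (hN : r < N) {T Ty Lay : Set (ℤ × ℤ)}
    (hTy : UpLip N r r N Ty) (hLay : Ty ⊆ Lay) {z z' : ℤ × ℤ}
    (arm : Cn (adjS (twoQ N r)) (T \ Lay) (twoU N r) {z}) (hz' : z' ∈ Ty)
    (hzz : nb z z') (hb1 : b1 ≤ z'.1) (hb2 : z'.1 ≤ b2) :
    ¬ Cn (adjS (twoQ N r)) ((T ∪ {z | z ∈ Ty ∧ b1 ≤ z.1 ∧ z.1 ≤ b2})ᶜ)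
      {z | z ∈ Ty ∧ z.1 < b1} {z | z ∈ Ty ∧ b2 < z.1} :=
  sep_cols hr hN (two_rowR hr hN) hTy hLay arm hz' hzz hb1 hb2

/-- **The middle event**: a chain from `o₋` to `o₊` which avoids `Tx` and `Ty` separates them. -/
theorem two_mid {N r : ℤ} (hr : 0 < r) (hN : r < N) {Neg Pos Tx Ty Lay : Set (ℤ × ℤ)}
    (hPN : Disjoint Pos Neg) (hx : Tx ⊆ Lay) (hy : Ty ⊆ Lay)
    (hTx : ∀ z ∈ Tx, Cn (adjS (twoQ N r)) Tx {z} (tip N r 0))
    (hTy : ∀ z ∈ Ty, Cn (adjS (twoQ N r)) Ty {z} (tip N r r))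
    (h : Cn (adjS (twoQ N r)) (Neg \ Lay) (twoU N r) (twoL N r)) :
    ¬ Cn (adjS (twoQ N r)) Pos Tx Ty := by
  intro hP
  have e2 : Cn (adjS (twoQ N r)) (Pos ∪ (Tx ∪ Ty)) (tip N r 0) (tip N r r) := by
    obtain ⟨x, hx, y, hy, hxy⟩ := hP
    have f1 : Cn (adjS (twoQ N r)) (Pos ∪ (Tx ∪ Ty)) (tip N r 0) {x} :=
      Cn_symm symS ((hTx x hx.2).mono (subset_union_left.trans subset_union_right))
    have f2 : Cn (adjS (twoQ N r)) (Pos ∪ (Tx ∪ Ty)) {x} {y} :=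
      Cn.mono ⟨x, ⟨hx.1, rfl⟩, y, ⟨hy.1, rfl⟩, hxy⟩ subset_union_left
    have f3 : Cn (adjS (twoQ N r)) (Pos ∪ (Tx ∪ Ty)) {y} (tip N r r) :=
      (hTy y hy.2).mono (subset_union_right.trans subset_union_right)
    exact Cn_trans f1 (Cn_trans f2 f3)
  obtain ⟨q, hq1, hq2⟩ := two_cross hr hN _ _ h e2
  rcases hq2 with hq2 | hq2 | hq2
  · exact Set.disjoint_left.1 hPN hq2 hq1.1
  · exact hq1.2 (hx hq2)
  · exact hq1.2 (hy hq2)

/-- **The cover**: a chain from `o₋` to `o₊` avoids `F ∪ Cx ∪ Cy`, or meets `F`, or contains an arm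
from `o₋` to a square of `Cx ∪ Cy`. -/
theorem two_cover {N r : ℤ} {Neg Cc F : Set (ℤ × ℤ)} (hCc : ∀ z ∈ Cc, z.2 < 0)
    (h : Cn (adjS (twoQ N r)) Neg (twoU N r) (twoL N r)) :
    (Neg ∩ F).Nonempty ∨
      (∃ z, Cn (adjS (twoQ N r)) (Neg \ (Cc ∪ F)) (twoU N r) {z} ∧
        ∃ z' ∈ Neg ∩ Cc, adjS (twoQ N r) z z') ∨
      Cn (adjS (twoQ N r)) (Neg \ (Cc ∪ F)) (twoU N r) (twoL N r) := by
  by_cases hF : (Neg ∩ F).Nonempty
  · exact Or.inl hF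
  right
  have hF' : ∀ z ∈ Neg, z ∉ F := fun z hz hz' => hF ⟨z, hz, hz'⟩
  obtain ⟨x, ⟨hx1, hx2⟩, y, ⟨hy1, hy2⟩, hxy⟩ := h
  have hxL : x ∉ Cc ∪ F := by
    rintro (h1 | h1)
    · have := hCc x h1
      have := hx2.2.1
      omega
    · exact hF' x hx1 h1
  have key : ∀ w, Relation.ReflTransGen (fun a b => adjS (twoQ N r) a b ∧ a ∈ Neg ∧ b ∈ Neg) x w →
      Cn (adjS (twoQ N r)) (Neg \ (Cc ∪ F)) (twoU N r) {w} ∨
      ∃ z, Cn (adjS (twoQ N r)) (Neg \ (Cc ∪ F)) (twoU N r) {z} ∧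
        ∃ z' ∈ Neg ∩ Cc, adjS (twoQ N r) z z' := by
    intro w hw
    induction hw with
    | refl => exact Or.inl ⟨x, ⟨⟨hx1, hxL⟩, hx2⟩, x, ⟨⟨hx1, hxL⟩, rfl⟩, .refl⟩
    | @tail a b _ hab ih =>
      rcases ih with ih | ih
      · by_cases hb : b ∈ Cc
        · exact Or.inr ⟨a, ih, b, ⟨hab.2.2, hb⟩, hab.1⟩
        · left
          have hbL : b ∉ Cc ∪ F := by
            rintro (h1 | h1)
            · exact hb h1
            · exact hF' b hab.2.2 h1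
          exact Cn_comp ih ⟨b, ⟨⟨hab.2.2, hbL⟩, rfl⟩, b, ⟨⟨hab.2.2, hbL⟩, rfl⟩, .refl⟩ hab.1
      · exact Or.inr ih
  rcases key y hxy with h1 | h1
  · right
    obtain ⟨u, hu, y', ⟨hy', hy''⟩, huy⟩ := h1
    obtain rfl : y' = y := hy''
    exact ⟨u, hu, y', ⟨hy', hy2⟩, huy⟩
  · exact Or.inl h1

/-- the faces near a tip -/
def nearT (N r a n0 : ℤ) : Set (ℤ × ℤ) :=
  {z | z ∈ twoQ N r ∧ (a - n0 ≤ z.1 ∧ z.1 < a + n0) ∧ (-n0 ≤ z.2 ∧ z.2 < n0)}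

lemma mem_nearT {N r a n0 x y : ℤ} : (x, y) ∈ nearT N r a n0 ↔
    ((-N ≤ x ∧ x < N ∧ -N ≤ y ∧ y < N) ∧ ¬ (y = -1 ∧ (x < 0 ∨ r ≤ x))) ∧
      (a - n0 ≤ x ∧ x < a + n0) ∧ (-n0 ≤ y ∧ y < n0) := Iff.rfl

lemma mem_tip {N r a x y : ℤ} : (x, y) ∈ tip N r a ↔
    ((-N ≤ x ∧ x < N ∧ -N ≤ y ∧ y < N) ∧ ¬ (y = -1 ∧ (x < 0 ∨ r ≤ x))) ∧
      (x = a - 1 ∨ x = a) ∧ (y = -1 ∨ y = 0) := Iff.rfl

/-- the faces near the tip `x` are joined to the tip -/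
lemma near_x {N r n0 : ℤ} (hr : 0 < r) (hN : r < N) (hn : 1 ≤ n0) (hnr : n0 ≤ r) {z : ℤ × ℤ}
    (hz : z ∈ nearT N r 0 n0) : Cn (adjS (twoQ N r)) (nearT N r 0 n0) {z} (tip N r 0) := by
  obtain ⟨x, y⟩ := z
  have hz0 := mem_nearT.1 hz
  have hsub : nearT N r 0 n0 ⊆ twoQ N r := fun _ h => h.1
  by_cases h1 : 0 ≤ y
  · refine Cn_of_chn (q := (0, 0)) hsub (chn_trans (q := (x, 0)) (chn_v fun i hi =>
      mem_nearT.2 (by omega)) (chn_h fun i hi => mem_nearT.2 (by omega))) hz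
      (mem_nearT.2 (by omega)) (mem_tip.2 (by omega))
  · by_cases h2 : y = -1
    · subst h2
      refine Cn_of_chn (q := (0, -1)) hsub (chn_h fun i hi => mem_nearT.2 (by omega)) hz
        (mem_nearT.2 (by omega)) (mem_tip.2 (by omega))
    · refine Cn_of_chn (q := (0, -1)) hsub (chn_trans (q := (x, -2)) (chn_v fun i hi =>
        mem_nearT.2 (by omega)) (chn_trans (q := (0, -2)) (chn_h fun i hi =>
        mem_nearT.2 (by omega)) (chn_v fun i hi => mem_nearT.2 (by omega)))) hz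
        (mem_nearT.2 (by omega)) (mem_tip.2 (by omega))

/-- the faces near the tip `y` are joined to the tip -/
lemma near_y {N r n0 : ℤ} (hr : 0 < r) (hN : r < N) (hn : 1 ≤ n0) (hnr : n0 ≤ r) {z : ℤ × ℤ}
    (hz : z ∈ nearT N r r n0) : Cn (adjS (twoQ N r)) (nearT N r r n0) {z} (tip N r r) := by
  obtain ⟨x, y⟩ := z
  have hz0 := mem_nearT.1 hz
  have hsub : nearT N r r n0 ⊆ twoQ N r := fun _ h => h.1
  by_cases h1 : 0 ≤ y
  · refine Cn_of_chn (q := (r, 0)) hsub (chn_trans (q := (x, 0)) (chn_v fun i hi =>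
      mem_nearT.2 (by omega)) (chn_h fun i hi => mem_nearT.2 (by omega))) hz
      (mem_nearT.2 (by omega)) (mem_tip.2 (by omega))
  · by_cases h2 : y = -1
    · subst h2
      refine Cn_of_chn (q := (r - 1, -1)) hsub (chn_h fun i hi => mem_nearT.2 (by omega)) hz
        (mem_nearT.2 (by omega)) (mem_tip.2 (by omega))
    · refine Cn_of_chn (q := (r - 1, -1)) hsub (chn_trans (q := (x, -2)) (chn_v fun i hi =>
        mem_nearT.2 (by omega)) (chn_trans (q := (r - 1, -2)) (chn_h fun i hi =>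
        mem_nearT.2 (by omega)) (chn_v fun i hi => mem_nearT.2 (by omega)))) hz
        (mem_nearT.2 (by omega)) (mem_tip.2 (by omega))

/-- the set `Cx ∪ Fx`: every face is joined to the tip `x`, if the lip row of `Cx` reaches `Fx` -/
theorem join_x {N r n0 : ℤ} (hr : 0 < r) (hN : r < N) (hn : 1 ≤ n0) (hnr : n0 ≤ r)
    {Cx : Set (ℤ × ℤ)} (hC : UpLip N r (-N) 0 Cx)
    (hrow : ∀ i j : ℤ, (i, -2) ∈ Cx → i ≤ j → j < -n0 → (j, -2) ∈ Cx) (hn2 : 2 ≤ n0) {z : ℤ × ℤ}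
    (hz : z ∈ Cx ∪ nearT N r 0 n0) :
    Cn (adjS (twoQ N r)) (Cx ∪ nearT N r 0 n0) {z} (tip N r 0) := by
  rcases hz with hz | hz
  · obtain ⟨x, y⟩ := z
    obtain ⟨h1, h2⟩ := up_lip hC hz
    have hQ : Cx ⊆ twoQ N r := fun z hz => (hC.1 hz).1
    have h3 : (0, -2) ∈ nearT N r 0 n0 := mem_nearT.2 (by omega)
    have hx0 : x < 0 := (hC.1 hz).2.1.2
    have hmem : ∀ i : ℤ, x ≤ i → i ≤ 0 → (i, -2) ∈ Cx ∪ nearT N r 0 n0 := by
      intro i hi1 hi2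
      by_cases h4 : i < -n0
      · exact Or.inl (hrow x i h2 hi1 h4)
      · exact Or.inr (mem_nearT.2 (by omega))
    have hsub : Cx ∪ nearT N r 0 n0 ⊆ twoQ N r := union_subset hQ fun _ h => h.1
    have g1 : Cn (adjS (twoQ N r)) (Cx ∪ nearT N r 0 n0) {(x, y)} {((0, -2) : ℤ × ℤ)} := by
      refine Cn_of_chn (q := (0, -2)) hsub (chn_trans (q := (x, -2))
        (chn_mono (fun z hz => Or.inl hz.1) h1) (chn_h fun i hi => hmem i (by omega) (by omega)))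
        (Or.inl hz) (Or.inr h3) rfl
    exact Cn_trans g1 ((near_x hr hN hn hnr h3).mono subset_union_right)
  · exact (near_x hr hN hn hnr hz).mono subset_union_right

/-- the set `Cy ∪ Fy`: every face is joined to the tip `y` -/
theorem join_y {N r n0 : ℤ} (hr : 0 < r) (hN : r < N) (hn : 1 ≤ n0) (hnr : n0 ≤ r)
    {Cy : Set (ℤ × ℤ)} (hC : UpLip N r r N Cy)
    (hrow : ∀ i j : ℤ, (i, -2) ∈ Cy → j ≤ i → r + n0 ≤ j → (j, -2) ∈ Cy) (hn2 : 2 ≤ n0) {z : ℤ × ℤ}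
    (hz : z ∈ Cy ∪ nearT N r r n0) :
    Cn (adjS (twoQ N r)) (Cy ∪ nearT N r r n0) {z} (tip N r r) := by
  rcases hz with hz | hz
  · obtain ⟨x, y⟩ := z
    obtain ⟨h1, h2⟩ := up_lip hC hz
    have hQ : Cy ⊆ twoQ N r := fun z hz => (hC.1 hz).1
    have h3 : (r, -2) ∈ nearT N r r n0 := mem_nearT.2 (by omega)
    have hx0 : r ≤ x ∧ x < N := (hC.1 hz).2.1
    have hmem : ∀ i : ℤ, r ≤ i → i ≤ x → (i, -2) ∈ Cy ∪ nearT N r r n0 := by
      intro i hi1 hi2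
      by_cases h4 : r + n0 ≤ i
      · exact Or.inl (hrow x i h2 hi2 h4)
      · exact Or.inr (mem_nearT.2 (by omega))
    have hsub : Cy ∪ nearT N r r n0 ⊆ twoQ N r := union_subset hQ fun _ h => h.1
    have g1 : Cn (adjS (twoQ N r)) (Cy ∪ nearT N r r n0) {(x, y)} {((r, -2) : ℤ × ℤ)} := by
      refine Cn_of_chn (q := (r, -2)) hsub (chn_trans (q := (x, -2))
        (chn_mono (fun z hz => Or.inl hz.1) h1) (chn_h fun i hi => hmem i (by omega) (by omega)))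
        (Or.inl hz) (Or.inr h3) rfl
    exact Cn_trans g1 ((near_y hr hN hn hnr h3).mono subset_union_right)
  · exact (near_y hr hN hn hnr hz).mono subset_union_right

end Vale.Agent.P159.T1.H995
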